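import Crest.Agent.R74.Exit

set_option autoImplicit false

open Set

noncomputable section

namespace Crest.Agent.R74

variable {X Y : Type*} [NormedAddCommGroup X] [NormedSpace ℝ X] [NormedAddCommGroup Y]
  [NormedSpace ℝ Y]

/-- `P u` = exit point of `z + ℝ₊ u`, `Q u` = the point `Y`-opposite to `P u` through `w` -/
structure ChordMaps (f : Metric.sphere (0 : X) 1 → Metric.sphere (0 : Y) 1) (z : X) (w : Y) where
  P : X → Metric.sphere (0 : X) 1
  Q : X → Metric.sphere (0 : X) 1
  l : X → ℝ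
  k : X → ℝ
  cont : ContinuousOn (fun u => (Q u : X)) {u | u ≠ 0}
  hP : ∀ u, u ≠ 0 → 0 < l u ∧ (P u : X) = z + l u • u
  hQ : ∀ u, u ≠ 0 → 0 < k u ∧ (f (Q u) : Y) = w + k u • (w - (f (P u) : Y))

theorem exists_chordMaps (f : Metric.sphere (0 : X) 1 → Metric.sphere (0 : Y) 1)
    (hf : Isometry f) (hs : Function.Surjective f) (y : Metric.sphere (0 : X) 1) (z : X) (w : Y)
    (hz : ‖z‖ < 1) (hw : ‖w‖ < 1) : Nonempty (ChordMaps f z w) := by
  classical
  obtain ⟨l, hlc, hl⟩ := exists_exit z hz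
  obtain ⟨k0, hkc, hk⟩ := exists_exit w hw
  let P : X → Metric.sphere (0 : X) 1 := fun u =>
    if h : u ≠ 0 then ⟨z + l u • u, by simpa using (hl u h).2⟩ else y
  have hPv : ∀ u, u ≠ 0 → (P u : X) = z + l u • u := fun u hu => by
    simp only [P, dif_pos hu]
  have hne : ∀ p : Metric.sphere (0 : Y) 1, w - (p : Y) ≠ 0 := fun p h => by
    have h1 : w = (p : Y) := sub_eq_zero.1 h
    have h2 : ‖(p : Y)‖ = 1 := by simpa using p.2
    rw [h1, h2] at hw
    exact lt_irrefl _ hw
  let O : Metric.sphere (0 : Y) 1 → Metric.sphere (0 : Y) 1 := fun p =>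
    ⟨w + k0 (w - (p : Y)) • (w - (p : Y)), by simpa using (hk _ (hne p)).2⟩
  have hO : Continuous O := by
    refine Continuous.subtype_mk ?_ _
    have h1 : Continuous fun p : Metric.sphere (0 : Y) 1 => w - (p : Y) :=
      continuous_const.sub continuous_subtype_val
    have h2 : Continuous fun p : Metric.sphere (0 : Y) 1 => k0 (w - (p : Y)) :=
      hkc.comp_continuous h1 hne
    exact continuous_const.add (h2.smul h1)
  let g : Metric.sphere (0 : Y) 1 → Metric.sphere (0 : X) 1 := Function.surjInv hs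
  have hg : ∀ p, f (g p) = p := Function.surjInv_eq hs
  have hgi : Isometry g := Isometry.of_dist_eq fun a b => by
    rw [← hf.dist_eq, hg, hg]
  have hPc : ContinuousOn P {u | u ≠ 0} := by
    rw [Topology.IsInducing.subtypeVal.continuousOn_iff]
    refine ContinuousOn.congr (f := fun u => z + l u • u) ?_ (fun u hu => hPv u hu)
    exact continuousOn_const.add (hlc.smul continuousOn_id)
  refine ⟨⟨P, fun u => g (O (f (P u))), l, fun u => k0 (w - (f (P u) : Y)), ?_,
    fun u hu => ⟨(hl u hu).1, hPv u hu⟩, fun u _ => ⟨(hk _ (hne _)).1, ?_⟩⟩⟩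
  · exact (continuous_subtype_val.comp (hgi.continuous.comp (hO.comp hf.continuous))).comp_continuousOn
      hPc
  · rw [hg]

end Crest.Agent.R74
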