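import Crest.Agent.R74.Defs

set_option autoImplicit false

open Set

noncomputable section

namespace Crest.Agent.R74

variable {X Y : Type*} [NormedAddCommGroup X] [NormedSpace ℝ X] [NormedAddCommGroup Y]
  [NormedSpace ℝ Y]

namespace EtaH27

theorem nrm (p : Metric.sphere (0 : X) 1) : ‖(p : X)‖ = 1 := by
  simpa using p.2

theorem lip (p y : Metric.sphere (0 : X) 1) (a b : ℝ) :
    |‖(p : X) - a • (y : X)‖ - ‖(p : X) - b • (y : X)‖| ≤ |a - b| := by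
  refine (abs_norm_sub_norm_le _ _).trans (le_of_eq ?_)
  have : (p : X) - a • (y : X) - ((p : X) - b • (y : X)) = (b - a) • (y : X) := by
    rw [sub_smul]; abel
  rw [this, norm_smul, nrm, mul_one, Real.norm_eq_abs, abs_sub_comm]

theorem bdd (f : Metric.sphere (0 : X) 1 → Metric.sphere (0 : Y) 1)
    (y : Metric.sphere (0 : X) 1) (σ τ : ℝ) :
    BddAbove (range fun p : Metric.sphere (0 : X) 1 =>
      |‖(p : X) - σ • (y : X)‖ - ‖(f p : Y) - τ • (f y : Y)‖|) := by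
  refine ⟨|σ| + |τ|, ?_⟩
  rintro _ ⟨p, rfl⟩
  have h1 := lip p y σ 0
  have h2 := lip (f p) (f y) τ 0
  simp only [zero_smul, sub_zero, nrm] at h1 h2
  rw [abs_le] at h1 h2 ⊢
  constructor <;> linarith [h1.1, h1.2, h2.1, h2.2]

end EtaH27

theorem isProfile (p y : Metric.sphere (0 : X) 1) :
    IsProfile (fun σ : ℝ => ‖(p : X) - σ • (y : X)‖) := by
  refine ⟨fun a b => EtaH27.lip p y a b, ?_, ?_, ?_⟩
  · intro a b θ h0 h1
    have e : (p : X) - ((1 - θ) * a + θ * b) • (y : X) =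
        (1 - θ) • ((p : X) - a • (y : X)) + θ • ((p : X) - b • (y : X)) := by
      module
    show ‖(p : X) - ((1 - θ) * a + θ * b) • (y : X)‖ ≤
      (1 - θ) * ‖(p : X) - a • (y : X)‖ + θ * ‖(p : X) - b • (y : X)‖
    rw [e]
    refine (norm_add_le _ _).trans (le_of_eq ?_)
    rw [norm_smul, norm_smul, Real.norm_of_nonneg h0, Real.norm_of_nonneg (by linarith)]
  · simp [EtaH27.nrm]
  · intro a ha
    show 1 - a ≤ ‖(p : X) - a • (y : X)‖
    have h1 := EtaH27.lip p y a 0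
    simp only [zero_smul, sub_zero, EtaH27.nrm] at h1
    rw [abs_of_nonneg ha, abs_le] at h1
    linarith [h1.1]

theorem abs_le_eta (f : Metric.sphere (0 : X) 1 → Metric.sphere (0 : Y) 1)
    (y p : Metric.sphere (0 : X) 1) (σ τ : ℝ) :
    |‖(p : X) - σ • (y : X)‖ - ‖(f p : Y) - τ • (f y : Y)‖| ≤ eta f y σ τ :=
  le_ciSup (EtaH27.bdd f y σ τ) p

theorem exists_near_eta (f : Metric.sphere (0 : X) 1 → Metric.sphere (0 : Y) 1)
    (y : Metric.sphere (0 : X) 1) (σ τ : ℝ) {δ : ℝ} (hδ : 0 < δ) :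
    ∃ p : Metric.sphere (0 : X) 1,
      eta f y σ τ - δ ≤ |‖(p : X) - σ • (y : X)‖ - ‖(f p : Y) - τ • (f y : Y)‖| := by
  haveI : Nonempty (Metric.sphere (0 : X) 1) := ⟨y⟩
  have h : eta f y σ τ - δ < eta f y σ τ := by linarith
  obtain ⟨p, hp⟩ := exists_lt_of_lt_ciSup h
  exact ⟨p, hp.le⟩

namespace EtaH27

theorem eta_le (f : Metric.sphere (0 : X) 1 → Metric.sphere (0 : Y) 1)
    (y : Metric.sphere (0 : X) 1) (σ τ c : ℝ)
    (h : ∀ p : Metric.sphere (0 : X) 1,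
      |‖(p : X) - σ • (y : X)‖ - ‖(f p : Y) - τ • (f y : Y)‖| ≤ c) : eta f y σ τ ≤ c := by
  haveI : Nonempty (Metric.sphere (0 : X) 1) := ⟨y⟩
  exact ciSup_le h

theorem eta_nonneg (f : Metric.sphere (0 : X) 1 → Metric.sphere (0 : Y) 1)
    (y : Metric.sphere (0 : X) 1) (σ τ : ℝ) : 0 ≤ eta f y σ τ :=
  (abs_nonneg _).trans (abs_le_eta f y y σ τ)

theorem eta_lip (f : Metric.sphere (0 : X) 1 → Metric.sphere (0 : Y) 1)
    (y : Metric.sphere (0 : X) 1) (σ τ σ' τ' : ℝ) :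
    eta f y σ τ ≤ eta f y σ' τ' + (|σ - σ'| + |τ - τ'|) := by
  refine eta_le f y σ τ _ fun p => ?_
  have h0 := abs_le_eta f y p σ' τ'
  have h1 := lip p y σ σ'
  have h2 := lip (f p) (f y) τ τ'
  rw [abs_le] at h0 h1 h2 ⊢
  constructor <;> linarith [h0.1, h0.2, h1.1, h1.2, h2.1, h2.2]

theorem eta_cont (f : Metric.sphere (0 : X) 1 → Metric.sphere (0 : Y) 1)
    (y : Metric.sphere (0 : X) 1) : Continuous fun z : ℝ × ℝ => eta f y z.1 z.2 := by
  refine (LipschitzWith.of_le_add_mul 2 fun z w => ?_).continuous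
  have h := eta_lip f y z.1 z.2 w.1 w.2
  have h1 : |z.1 - w.1| ≤ dist z w := by
    rw [← Real.dist_eq, Prod.dist_eq]; exact le_max_left _ _
  have h2 : |z.2 - w.2| ≤ dist z w := by
    rw [← Real.dist_eq, Prod.dist_eq]; exact le_max_right _ _
  push_cast
  linarith

theorem eta_bdry (f : Metric.sphere (0 : X) 1 → Metric.sphere (0 : Y) 1) (hf : Isometry f)
    (y : Metric.sphere (0 : X) 1) (σ τ : ℝ) (h : σ = 0 ∨ σ = 1 ∨ τ = 0 ∨ τ = 1) :
    eta f y σ τ ≤ |σ - τ| := by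
  have e0 : eta f y 0 0 ≤ 0 := eta_le f y 0 0 0 fun p => by simp [nrm]
  have e1 : eta f y 1 1 ≤ 0 := eta_le f y 1 1 0 fun p => by
    have := hf.dist_eq p y
    rw [Subtype.dist_eq, Subtype.dist_eq, dist_eq_norm, dist_eq_norm] at this
    rw [one_smul, one_smul, this, sub_self, abs_zero]
  rcases h with h | h | h | h
  · subst h
    have := eta_lip f y 0 τ 0 0
    simp only [sub_zero, abs_zero, zero_sub, abs_neg] at this ⊢
    linarith
  · subst h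
    have := eta_lip f y 1 τ 1 1
    rw [sub_self, abs_zero, abs_sub_comm] at this
    linarith
  · subst h
    have := eta_lip f y σ 0 0 0
    simp only [sub_zero, abs_zero] at this ⊢
    linarith
  · subst h
    have := eta_lip f y σ 1 1 1
    rw [sub_self, abs_zero] at this
    linarith

end EtaH27

theorem exists_maxPt (f : Metric.sphere (0 : X) 1 → Metric.sphere (0 : Y) 1) (hf : Isometry f)
    (y p : Metric.sphere (0 : X) 1) {s₀ : ℝ} (hs₀ : s₀ ∈ Icc (0 : ℝ) 1)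
    (hne : ‖(p : X) - s₀ • (y : X)‖ ≠ ‖(f p : Y) - s₀ • (f y : Y)‖) :
    ∃ s t ρ, IsMaxPt (eta f y) s t ρ := by
  have hc : Continuous fun z : ℝ × ℝ => eta f y z.1 z.2 ^ 2 - (z.1 - z.2) ^ 2 :=
    ((EtaH27.eta_cont f y).pow 2).sub (by fun_prop)
  obtain ⟨⟨s, t⟩, ⟨hs, ht⟩, hmax⟩ :=
    ((isCompact_Icc (a := (0 : ℝ)) (b := 1)).prod (isCompact_Icc (a := (0 : ℝ)) (b := 1))).exists_isMaxOn
      ⟨(s₀, s₀), hs₀, hs₀⟩ hc.continuousOn
  have hm : ∀ σ ∈ Icc (0 : ℝ) 1, ∀ τ ∈ Icc (0 : ℝ) 1,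
      eta f y σ τ ^ 2 - (σ - τ) ^ 2 ≤ eta f y s t ^ 2 - (s - t) ^ 2 :=
    fun σ hσ τ hτ => hmax (a := (σ, τ)) ⟨hσ, hτ⟩
  have hpos0 : 0 < eta f y s₀ s₀ :=
    lt_of_lt_of_le (abs_pos.2 (sub_ne_zero.2 hne)) (abs_le_eta f y p s₀ s₀)
  have hpos : (s - t) ^ 2 < eta f y s t ^ 2 := by
    have := hm s₀ hs₀ s₀ hs₀
    have h2 : 0 < eta f y s₀ s₀ ^ 2 := by positivity
    rw [sub_self] at this
    nlinarith
  have hgap : |s - t| < eta f y s t := abs_lt_of_sq_lt_sq hpos (EtaH27.eta_nonneg f y s t)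
  have hint : ¬ (s = 0 ∨ s = 1 ∨ t = 0 ∨ t = 1) := fun h =>
    absurd (EtaH27.eta_bdry f hf y s t h) (not_le.2 hgap)
  simp only [not_or] at hint
  obtain ⟨h1, h2, h3, h4⟩ := hint
  refine ⟨s, t, eta f y s t, lt_of_le_of_ne hs.1 (Ne.symm h1), lt_of_le_of_ne hs.2 h2,
    lt_of_le_of_ne ht.1 (Ne.symm h3), lt_of_le_of_ne ht.2 h4, rfl, hgap, ?_,
    fun σ _ τ _ h => EtaH27.eta_bdry f hf y σ τ h⟩
  intro σ hσ τ hτ
  refine Real.le_sqrt_of_sq_le ?_
  linarith [hm σ hσ τ hτ]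

end Crest.Agent.R74
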