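import Crest.Agent.R74.Chord1
import Crest.Agent.R74.Eta

set_option autoImplicit false

open Set

noncomputable section

namespace Crest.Agent.R74

variable {X Y : Type*} [NormedAddCommGroup X] [NormedSpace ℝ X] [NormedAddCommGroup Y]
  [NormedSpace ℝ Y]

namespace Chord2

theorem opp (P Q w : Y) (k : ℝ) (hk : 0 < k) (h : Q = w + k • (w - P)) :
    ‖P - Q‖ = ‖P - w‖ + ‖Q - w‖ := by
  have h1 : P - Q = (1 + k) • (P - w) := by
    rw [h]; module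
  have h2 : Q - w = (-k) • (P - w) := by
    rw [h]; module
  rw [h1, h2, norm_smul, norm_smul, Real.norm_eq_abs, Real.norm_eq_abs, abs_neg,
    abs_of_pos hk, abs_of_pos (by linarith : (0 : ℝ) < 1 + k)]
  ring

theorem iso (f : Metric.sphere (0 : X) 1 → Metric.sphere (0 : Y) 1) (hf : Isometry f)
    (p q : Metric.sphere (0 : X) 1) : ‖(f p : Y) - (f q : Y)‖ = ‖(p : X) - (q : X)‖ := by
  have := hf.dist_eq p q
  rwa [Subtype.dist_eq, Subtype.dist_eq, dist_eq_norm, dist_eq_norm] at this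

theorem nrm (p : Metric.sphere (0 : X) 1) : ‖(p : X)‖ = 1 := by
  simpa using p.2

theorem dist_bounds (p : Metric.sphere (0 : X) 1) (z : X) {S : ℝ} (hS : 0 < S)
    (hz : ‖z‖ ≤ 1 - S) : S ≤ ‖(p : X) - z‖ ∧ ‖(p : X) - z‖ ≤ 2 := by
  have h1 := norm_sub_norm_le (p : X) z
  have h2 := norm_sub_le (p : X) z
  have := nrm p
  constructor <;> linarith

theorem le_norm (φ : X →L[ℝ] ℝ) (hφ : ‖φ‖ ≤ 1) (x : X) : φ x ≤ ‖x‖ := by
  have h1 := φ.le_opNorm x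
  have h2 : φ x ≤ ‖φ x‖ := Real.le_norm_self _
  have h3 : ‖φ‖ * ‖x‖ ≤ ‖x‖ := mul_le_of_le_one_left (norm_nonneg _) hφ
  linarith

theorem norming (x : X) : ∃ φ : X →L[ℝ] ℝ, ‖φ‖ ≤ 1 ∧ φ x = ‖x‖ := by
  obtain ⟨g, hg1, hg2⟩ := exists_dual_vector'' ℝ x
  exact ⟨g, hg1, by simpa using hg2⟩

/-- the predicate `Good` -/
def Good (f : Metric.sphere (0 : X) 1 → Metric.sphere (0 : Y) 1) (z : X) (w : Y) (ρ δ : ℝ)
    (φ : X →L[ℝ] ℝ) : Prop :=
  ‖φ‖ ≤ 1 ∧ ∃ q : Metric.sphere (0 : X) 1,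
    ρ - δ ≤ ‖(q : X) - z‖ - ‖(f q : Y) - w‖ ∧ (1 - δ) * ‖z - (q : X)‖ ≤ φ (z - (q : X))

theorem core (f : Metric.sphere (0 : X) 1 → Metric.sphere (0 : Y) 1) (hf : Isometry f)
    (z : X) (w : Y) {S ρ : ℝ} (hS : 0 < S) (hz : ‖z‖ ≤ 1 - S)
    (hup : ∀ p : Metric.sphere (0 : X) 1, |‖(p : X) - z‖ - ‖(f p : Y) - w‖| ≤ ρ)
    (M : ChordMaps f z w) (δ : ℝ) (φ : X →L[ℝ] ℝ) (u : X) (hδ : 0 < δ) (hδ' : δ ≤ 1 / 2)
    (hG : Good f z w ρ δ φ) (hu : ‖u‖ ≤ 1) (hφu : 1 - δ ≤ φ u) :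
    ρ - 7 * δ ≤ ‖(f (M.P u) : Y) - w‖ - ‖(M.P u : X) - z‖ ∧
    ρ - 7 * δ ≤ ‖(M.Q u : X) - z‖ - ‖(f (M.Q u) : Y) - w‖ ∧
    ∃ φ' : X →L[ℝ] ℝ, ‖φ'‖ ≤ 1 ∧ ‖z - (M.Q u : X)‖ - 7 * δ ≤ φ' (z - (M.Q u : X)) ∧
      1 - δ - 7 / S * δ ≤ φ' u := by
  obtain ⟨hφ, q, hq1, hq2⟩ := hG
  have hun : 1 - δ ≤ ‖u‖ := hφu.trans (le_norm φ hφ u)
  have hu0 : u ≠ 0 := by
    intro h; rw [h, norm_zero] at hun; linarith
  obtain ⟨hl, hP⟩ := M.hP u hu0
  obtain ⟨hk, hQ⟩ := M.hQ u hu0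
  set p := M.P u with hp
  set q' := M.Q u with hq'
  set l := M.l u with hldef
  have hpz : (p : X) - z = l • u := by rw [hP]; abel
  have ha : ‖(p : X) - z‖ = l * ‖u‖ := by
    rw [hpz, norm_smul, Real.norm_eq_abs, abs_of_pos hl]
  obtain ⟨ha1, ha2⟩ := dist_bounds p z hS hz
  obtain ⟨hb1, hb2⟩ := dist_bounds q z hS hz
  obtain ⟨hc1, hc2⟩ := dist_bounds q' z hS hz
  have hla : l * ‖u‖ ≤ l := mul_le_of_le_one_right hl.le hu
  have hl4 : l ≤ 4 := by nlinarith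
  have hlS : S ≤ l := by linarith
  have hzq : ‖z - (q : X)‖ = ‖(q : X) - z‖ := norm_sub_rev _ _
  have hzq' : ‖z - (q' : X)‖ = ‖(q' : X) - z‖ := norm_sub_rev _ _
  have e1 : (p : X) - (q : X) = l • u + (z - (q : X)) := by rw [← hpz]; abel
  have e2 : (p : X) - (q' : X) = l • u + (z - (q' : X)) := by rw [← hpz]; abel
  have hpq : ‖(p : X) - z‖ + ‖(q : X) - z‖ - 6 * δ ≤ ‖(p : X) - (q : X)‖ := by
    have h1 := le_norm φ hφ ((p : X) - (q : X))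
    rw [e1, map_add, map_smul, smul_eq_mul, ← e1] at h1
    have h2 : l * (1 - δ) ≤ l * φ u := mul_le_mul_of_nonneg_left hφu hl.le
    rw [hzq] at hq2
    nlinarith
  have hU : ρ - 7 * δ ≤ ‖(f p : Y) - w‖ - ‖(p : X) - z‖ := by
    have h1 := iso f hf p q
    have h2 : ‖(f p : Y) - (f q : Y)‖ ≤ ‖(f p : Y) - w‖ + ‖(f q : Y) - w‖ := by
      have := norm_sub_le ((f p : Y) - w) ((f q : Y) - w)
      rwa [sub_sub_sub_cancel_right] at this
    linarith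
  have hopp := opp (f p : Y) (f q' : Y) w _ hk hQ
  rw [iso f hf p q'] at hopp
  have htri : ‖(p : X) - (q' : X)‖ ≤ ‖(p : X) - z‖ + ‖(q' : X) - z‖ := by
    have := norm_sub_le ((p : X) - z) ((q' : X) - z)
    rwa [sub_sub_sub_cancel_right] at this
  have hup' := (abs_le.1 (hup q')).2
  refine ⟨hU, by linarith, ?_⟩
  obtain ⟨φ', h1, h2⟩ := norming ((p : X) - (q' : X))
  have h3 : φ' ((p : X) - (q' : X)) = l * φ' u + φ' (z - (q' : X)) := by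
    rw [e2, map_add, map_smul, smul_eq_mul]
  have h4 := le_norm φ' h1 u
  have h5 := le_norm φ' h1 (z - (q' : X))
  have h6 : l * φ' u ≤ l * ‖u‖ := mul_le_mul_of_nonneg_left h4 hl.le
  refine ⟨φ', h1, by linarith, ?_⟩
  have h7 : l * (‖u‖ - φ' u) ≤ 7 * δ := by linarith
  have h8 : S * (‖u‖ - φ' u) ≤ 7 * δ :=
    (mul_le_mul_of_nonneg_right hlS (by linarith)).trans h7
  have h9 : ‖u‖ - φ' u ≤ 7 / S * δ := by
    rw [div_mul_eq_mul_div, le_div_iff₀ hS]; linarith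
  linarith

theorem start (f : Metric.sphere (0 : X) 1 → Metric.sphere (0 : Y) 1) (hf : Isometry f)
    (hs : Function.Surjective f) (z : X) (w : Y) (hw : ‖w‖ < 1) {ρ δ : ℝ}
    (p : Metric.sphere (0 : X) 1) (hp : ρ - δ ≤ |‖(p : X) - z‖ - ‖(f p : Y) - w‖|) :
    ∃ q : Metric.sphere (0 : X) 1, ρ - δ ≤ ‖(q : X) - z‖ - ‖(f q : Y) - w‖ := by
  rcases le_abs.1 hp with h | h
  · exact ⟨p, h⟩
  · obtain ⟨l, -, hl⟩ := exists_exit w hw
    have hne : w - (f p : Y) ≠ 0 := by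
      intro h0
      have : w = (f p : Y) := sub_eq_zero.1 h0
      rw [this, nrm] at hw
      exact lt_irrefl _ hw
    obtain ⟨hl1, hl2⟩ := hl _ hne
    obtain ⟨q, hq⟩ := hs ⟨w + l (w - (f p : Y)) • (w - (f p : Y)), by simpa using hl2⟩
    have hopp := opp (f p : Y) (f q : Y) w _ hl1 (by rw [hq])
    rw [iso f hf p q] at hopp
    have htri : ‖(p : X) - (q : X)‖ ≤ ‖(p : X) - z‖ + ‖(q : X) - z‖ := by
      have := norm_sub_le ((p : X) - z) ((q : X) - z)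
      rwa [sub_sub_sub_cancel_right] at this
    exact ⟨q, by linarith⟩

end Chord2

open Chord2 in
theorem exists_faceData (f : Metric.sphere (0 : X) 1 → Metric.sphere (0 : Y) 1)
    (hf : Isometry f) (hs : Function.Surjective f) (y : Metric.sphere (0 : X) 1) {s t ρ : ℝ}
    (H : IsMaxPt (eta f y) s t ρ) (M : ChordMaps f (s • (y : X)) (t • (f y : Y))) :
    ∃ D : FaceData X,
      (∀ u, D.T u = ‖s • (y : X) - (M.Q u : X)‖⁻¹ • (s • (y : X) - (M.Q u : X))) ∧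
      ∀ δ φ u, 0 < δ → δ ≤ 1 / 2 → D.Good δ φ → ‖u‖ ≤ 1 → 1 - δ ≤ φ u →
        ρ - D.C * δ ≤ ‖(f (M.P u) : Y) - t • (f y : Y)‖ - ‖(M.P u : X) - s • (y : X)‖ ∧
        ρ - D.C * δ ≤ ‖(M.Q u : X) - s • (y : X)‖ - ‖(f (M.Q u) : Y) - t • (f y : Y)‖ := by
  have hS : 0 < 1 - s := by linarith [H.s_lt]
  have hz : ‖s • (y : X)‖ ≤ 1 - (1 - s) := by
    rw [norm_smul, nrm, Real.norm_eq_abs, abs_of_pos H.s_pos]; linarith
  have hw : ‖t • (f y : Y)‖ < 1 := by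
    rw [norm_smul, nrm, Real.norm_eq_abs, abs_of_pos H.t_pos]; linarith [H.t_lt]
  have hup : ∀ p : Metric.sphere (0 : X) 1,
      |‖(p : X) - s • (y : X)‖ - ‖(f p : Y) - t • (f y : Y)‖| ≤ ρ := fun p => by
    rw [← H.val]; exact abs_le_eta f y p s t
  have hap : ∀ δ, 0 < δ → ∃ p : Metric.sphere (0 : X) 1,
      ρ - δ ≤ |‖(p : X) - s • (y : X)‖ - ‖(f p : Y) - t • (f y : Y)‖| := fun δ hδ => by
    rw [← H.val]; exact exists_near_eta f y s t hδ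
  generalize s • (y : X) = z at *
  generalize t • (f y : Y) = w at *
  generalize 1 - s = S at *
  have hS7 : 0 < 7 / S := by positivity
  have hlow : ∀ q : Metric.sphere (0 : X) 1, S ≤ ‖z - (q : X)‖ := fun q => by
    rw [norm_sub_rev]; exact (dist_bounds q z hS hz).1
  have hval : ∀ (φ : X →L[ℝ] ℝ) (q : Metric.sphere (0 : X) 1) (c : ℝ),
      c * ‖z - (q : X)‖ ≤ φ (z - (q : X)) → c ≤ φ (‖z - (q : X)‖⁻¹ • (z - (q : X))) := by
    intro φ q c h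
    have hpos : 0 < ‖z - (q : X)‖ := hS.trans_le (hlow q)
    rw [map_smul, smul_eq_mul, ← div_eq_inv_mul, le_div_iff₀ hpos]
    exact h
  have hnrm : ∀ x : X, ‖‖x‖⁻¹ • x‖ ≤ 1 := fun x => by
    rw [norm_smul, norm_inv, norm_norm]
    exact inv_mul_le_one_of_le₀ le_rfl (norm_nonneg _)
  refine ⟨{ Good := Chord2.Good f z w ρ
            T := fun u => ‖z - (M.Q u : X)‖⁻¹ • (z - (M.Q u : X))
            C := 7 / S + 7
            one_le := by linarith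
            norm_le := fun δ φ h => h.1
            mono := ?_
            cont := ?_
            norm_T := fun u _ => hnrm _
            start := ?_
            step := ?_ }, fun u => rfl, ?_⟩
  · rintro δ δ' φ ⟨h1, q, h2, h3⟩ hle
    refine ⟨h1, q, by linarith, le_trans ?_ h3⟩
    exact mul_le_mul_of_nonneg_right (by linarith) (norm_nonneg _)
  · have hc : ContinuousOn (fun u => z - (M.Q u : X)) {u : X | 1 / 2 ≤ ‖u‖} := by
      refine continuousOn_const.sub (M.cont.mono ?_)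
      intro u hu h0
      simp only [mem_setOf_eq] at hu
      rw [h0, norm_zero] at hu
      linarith
    exact (hc.norm.inv₀ fun u _ => (hS.trans_le (hlow _)).ne').smul hc
  · intro δ hδ
    obtain ⟨p, hp⟩ := hap δ hδ
    obtain ⟨q, hq⟩ := Chord2.start f hf hs z w hw p hp
    obtain ⟨φ, h1, h2⟩ := norming (z - (q : X))
    have h3 : (1 - δ) * ‖z - (q : X)‖ ≤ φ (z - (q : X)) := by
      rw [h2]; exact mul_le_of_le_one_left (norm_nonneg _) (by linarith)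
    exact ⟨φ, _, ⟨h1, q, hq, h3⟩, hnrm _, hval φ q _ h3⟩
  · intro δ φ u hδ hδ' hG hu hφu
    obtain ⟨-, hL, φ', h1, h2, h3⟩ := core f hf z w hS hz hup M δ φ u hδ hδ' hG hu hφu
    have h4 : (1 - (7 / S + 7) * δ) * ‖z - (M.Q u : X)‖ ≤ φ' (z - (M.Q u : X)) := by
      have h5 : 7 ≤ 7 / S * ‖z - (M.Q u : X)‖ := by
        rw [div_mul_eq_mul_div, le_div_iff₀ hS]; linarith [hlow (M.Q u)]
      have h6 : 7 * δ ≤ 7 / S * ‖z - (M.Q u : X)‖ * δ := mul_le_mul_of_nonneg_right h5 hδ.le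
      have h7 : 0 ≤ δ * ‖z - (M.Q u : X)‖ := by positivity
      nlinarith
    have h8 : 0 ≤ 7 / S * δ := by positivity
    refine ⟨φ', ⟨h1, M.Q u, by nlinarith, h4⟩, by nlinarith, hval φ' _ _ h4⟩
  · intro δ φ u hδ hδ' hG hu hφu
    obtain ⟨hU, hL, -⟩ := core f hf z w hS hz hup M δ φ u hδ hδ' hG hu hφu
    have h8 : 0 ≤ 7 / S * δ := by positivity
    constructor
    · show ρ - (7 / S + 7) * δ ≤ _
      nlinarith
    · show ρ - (7 / S + 7) * δ ≤ _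
      nlinarith

end Crest.Agent.R74
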