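import Crest.Agent.R332.Vi

set_option autoImplicit false

namespace Crest.Agent.R74

open Finset

/-- A continuous retraction of `Fin n → ℝ` onto the standard simplex. -/
theorem exists_retr {n : ℕ} (hn : 0 < n) : ∃ r : (Fin n → ℝ) → (Fin n → ℝ), Continuous r ∧
    (∀ x, r x ∈ stdSimplex ℝ (Fin n)) ∧ ∀ x ∈ stdSimplex ℝ (Fin n), r x = x := by
  have hn' : (0:ℝ) < n := by exact_mod_cast hn
  refine ⟨fun x i => (max (x i) 0 + max (1 - ∑ j, max (x j) 0) 0 / n) /
    (∑ j, max (x j) 0 + max (1 - ∑ j, max (x j) 0) 0), ?_, ?_, ?_⟩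
  · refine continuous_pi fun i => Continuous.div (by fun_prop) (by fun_prop) fun x => ?_
    have : 1 - ∑ j, max (x j) 0 ≤ max (1 - ∑ j, max (x j) 0) 0 := le_max_left _ _
    linarith
  · intro x
    have h1 : 1 - ∑ j, max (x j) 0 ≤ max (1 - ∑ j, max (x j) 0) 0 := le_max_left _ _
    have h2 : (0:ℝ) < ∑ j, max (x j) 0 + max (1 - ∑ j, max (x j) 0) 0 := by linarith
    refine ⟨fun i => div_nonneg (add_nonneg (le_max_right _ _)
      (div_nonneg (le_max_right _ _) hn'.le)) h2.le, ?_⟩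
    rw [← Finset.sum_div, Finset.sum_add_distrib, Finset.sum_const, Finset.card_univ,
      Fintype.card_fin, nsmul_eq_mul, mul_div_cancel₀ _ hn'.ne', div_self h2.ne']
  · intro x hx
    funext i
    have h0 : ∀ j, max (x j) 0 = x j := fun j => max_eq_left (hx.1 j)
    simp only [h0, hx.2]
    simp

theorem kkm {Z : Type*} [PseudoMetricSpace Z] {n : ℕ} (hn : 0 < n) (z : Fin n → Z)
    (G : (Fin n → ℝ) → Z) (hG : ContinuousOn G (stdSimplex ℝ (Fin n))) {e : ℝ} (he : 0 < e)
    (h : ∀ l ∈ stdSimplex ℝ (Fin n), ∃ i, dist (z i) (G l) ≤ e) :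
    ∃ l ∈ stdSimplex ℝ (Fin n), ∀ i, l i ≠ 0 → dist (z i) (G l) < 2 * e := by
  obtain ⟨r, hrc, hrm, hri⟩ := exists_retr hn
  have hGr : Continuous fun x => G (r x) := hG.comp_continuous hrc hrm
  set w : (Fin n → ℝ) → Fin n → ℝ := fun x i => max (2 * e - dist (z i) (G (r x))) 0 with hw
  have hwc : ∀ i, Continuous fun x => w x i := fun i =>
    (continuous_const.sub (continuous_const.dist hGr)).max continuous_const
  have hw0 : ∀ x i, 0 ≤ w x i := fun x i => le_max_right _ _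
  have hpos : ∀ x, 0 < ∑ j, w x j := by
    intro x
    obtain ⟨i, hi⟩ := h _ (hrm x)
    have h1 : 2 * e - dist (z i) (G (r x)) ≤ w x i := le_max_left _ _
    have h2 : w x i ≤ ∑ j, w x j := Finset.single_le_sum (fun j _ => hw0 x j) (mem_univ i)
    linarith
  set F : (Fin n → ℝ) → (Fin n → ℝ) := fun x i => w x i / ∑ j, w x j with hF
  have hFc : Continuous F := continuous_pi fun i =>
    (hwc i).div (continuous_finsetSum _ fun j _ => hwc j) fun x => (hpos x).ne'
  have hFm : ∀ x, F x ∈ stdSimplex ℝ (Fin n) := fun x =>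
    ⟨fun i => div_nonneg (hw0 x i) (hpos x).le, by
      simp only [hF]; rw [← Finset.sum_div, div_self (hpos x).ne']⟩
  have hFb : ∀ x, ‖F x‖ ≤ 1 := fun x => by
    refine (pi_norm_le_iff_of_nonneg zero_le_one).2 fun i => ?_
    have := mem_Icc_of_mem_stdSimplex (hFm x) i
    rw [Real.norm_eq_abs, abs_le]
    exact ⟨by linarith [this.1], this.2⟩
  obtain ⟨x, hx⟩ := Crest.Agent.R332.Vi.brouwer hFc hFb
  have hxm : x ∈ stdSimplex ℝ (Fin n) := hx ▸ hFm x
  refine ⟨x, hxm, fun i hi => ?_⟩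
  have h1 : F x i ≠ 0 := by rw [hx]; exact hi
  have h2 : w x i ≠ 0 := fun h0 => h1 (by simp only [hF, h0, zero_div])
  by_contra hc
  apply h2
  simp only [hw, hri x hxm]
  exact max_eq_right (by linarith [not_lt.1 hc])

end Crest.Agent.R74
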