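import Crest.Agent.R74.Defs
import Crest.Agent.R332.Vi
import Crest.Agent.R74.Kkm

set_option autoImplicit false

open Set

noncomputable section

namespace Crest.Agent.R74

variable {X : Type*} [NormedAddCommGroup X] [NormedSpace ℝ X]

theorem brouwer_step {m n : ℕ} (T : X → X) (hT : ContinuousOn T {u | 1 / 2 ≤ ‖u‖})
    (Φ : X → Fin m → ℝ) (hconv : ∀ i, ConvexOn ℝ univ (fun u => Φ u i))
    (hlip : ∀ u v i, |Φ u i - Φ v i| ≤ ‖u - v‖) (c : Fin (n + 1) → X) (hc : ∀ i, ‖c i‖ ≤ 1)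
    (hbig : ∀ w : Fin (n + 1) → ℝ, (∀ i, 0 ≤ w i) → ∑ i, w i = 1 → 1 / 2 ≤ ‖∑ j, w j • c j‖)
    {ε θ : ℝ} (hε : 0 < ε) (hθ : 0 < θ) (hθ1 : θ ≤ 1)
    (hcov : ∀ w : Fin (n + 1) → ℝ, (∀ i, θ / (n + 1) ≤ w i) → ∑ i, w i = 1 →
        ∃ i, ‖Φ (c i) - Φ (T (∑ j, w j • c j))‖ ≤ ε) :
    ∃ w : Fin (n + 1) → ℝ, (∀ i, 0 ≤ w i) ∧ ∑ i, w i = 1 ∧
      ∀ i, Φ (∑ j, w j • c j) i ≤ Φ (T (∑ j, w j • c j)) i + 2 * ε + 2 * θ := by
  have hn : (0 : ℝ) < (n : ℝ) + 1 := by positivity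
  let r : (Fin (n + 1) → ℝ) → Fin (n + 1) → ℝ := fun l j => θ / (n + 1) + (1 - θ) * l j
  have hr0 : ∀ l ∈ stdSimplex ℝ (Fin (n + 1)), ∀ j, θ / (n + 1) ≤ r l j := by
    intro l hl j
    have := mul_nonneg (sub_nonneg.2 hθ1) (hl.1 j)
    simp only [r]
    linarith
  have hθn : 0 ≤ θ / ((n : ℝ) + 1) := by positivity
  have hr1 : ∀ l ∈ stdSimplex ℝ (Fin (n + 1)), ∑ j, r l j = 1 := by
    intro l hl
    simp only [r]
    rw [Finset.sum_add_distrib, ← Finset.mul_sum, hl.2, Finset.sum_const, Finset.card_univ,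
      Fintype.card_fin, nsmul_eq_mul]
    push_cast
    field_simp
    ring
  have hΦc : Continuous Φ := by
    refine continuous_pi fun i => ?_
    refine LipschitzWith.continuous (K := 1) (LipschitzWith.of_dist_le_mul fun u v => ?_)
    rw [Real.dist_eq, dist_eq_norm]
    simpa using hlip u v i
  have huc : Continuous fun l : Fin (n + 1) → ℝ => ∑ j, r l j • c j := by
    refine continuous_finsetSum _ fun j _ => ?_
    simp only [r]
    fun_prop
  have hG : ContinuousOn (fun l : Fin (n + 1) → ℝ => Φ (T (∑ j, r l j • c j)))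
      (stdSimplex ℝ (Fin (n + 1))) := by
    refine hΦc.comp_continuousOn (hT.comp huc.continuousOn fun l hl => ?_)
    exact hbig _ (fun j => hθn.trans (hr0 l hl j)) (hr1 l hl)
  obtain ⟨l, hl, hfix⟩ := kkm (Nat.succ_pos n) (fun i => Φ (c i)) _ hG hε (by
    intro l hl
    obtain ⟨i, hi⟩ := hcov _ (hr0 l hl) (hr1 l hl)
    exact ⟨i, by rw [dist_eq_norm]; exact hi⟩)
  refine ⟨r l, fun j => hθn.trans (hr0 l hl j), hr1 l hl, fun i => ?_⟩
  set g := Φ (T (∑ j, r l j • c j)) with hg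
  have h1 : Φ (∑ j, l j • c j) i ≤ ∑ j, l j • Φ (c j) i :=
    (hconv i).map_sum_le (fun j _ => hl.1 j) hl.2 (fun j _ => mem_univ _)
  have h2 : ∑ j, l j • Φ (c j) i ≤ ∑ j, l j * (g i + 2 * ε) := by
    refine Finset.sum_le_sum fun j _ => ?_
    by_cases hj : l j = 0
    · simp [hj]
    · rw [smul_eq_mul]
      refine mul_le_mul_of_nonneg_left ?_ (hl.1 j)
      have h3 := (dist_le_pi_dist (Φ (c j)) g i).trans_lt (hfix j hj)
      rw [Real.dist_eq] at h3
      linarith [le_abs_self (Φ (c j) i - g i)]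
  rw [← Finset.sum_mul, hl.2, one_mul] at h2
  have h4 : ‖∑ j, r l j • c j - ∑ j, l j • c j‖ ≤ 2 * θ := by
    rw [← Finset.sum_sub_distrib]
    refine (norm_sum_le _ _).trans ?_
    have h5 : ∀ j ∈ (Finset.univ : Finset (Fin (n + 1))),
        ‖r l j • c j - l j • c j‖ ≤ θ / (n + 1) + θ * l j := by
      intro j _
      rw [← sub_smul, norm_smul, Real.norm_eq_abs]
      have h6 : |r l j - l j| ≤ θ / (n + 1) + θ * l j := by
        have := mul_nonneg hθ.le (hl.1 j)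
        simp only [r]
        rw [abs_le]
        constructor <;> nlinarith
      calc |r l j - l j| * ‖c j‖ ≤ |r l j - l j| * 1 :=
            mul_le_mul_of_nonneg_left (hc j) (abs_nonneg _)
        _ ≤ _ := by rw [mul_one]; exact h6
    refine (Finset.sum_le_sum h5).trans (le_of_eq ?_)
    rw [Finset.sum_add_distrib, ← Finset.mul_sum, hl.2, Finset.sum_const, Finset.card_univ,
      Fintype.card_fin, nsmul_eq_mul]
    push_cast
    field_simp
    ring
  have h7 := hlip (∑ j, r l j • c j) (∑ j, l j • c j) i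
  linarith [le_abs_self (Φ (∑ j, r l j • c j) i - Φ (∑ j, l j • c j) i)]

end Crest.Agent.R74
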