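import Crest.Agent.R74.KF1
import Crest.Agent.R74.KF2

set_option autoImplicit false

open Set

noncomputable section

namespace Crest.Agent.R74

variable {X : Type*} [NormedAddCommGroup X] [NormedSpace ℝ X]

namespace KFX

theorem exists_grid (N : ℕ) (hN : 0 < N) (x : ℝ) (hx : |x| ≤ 1) :
    ∃ i : Fin (2 * N + 1), |x - (-1 + (i : ℝ) / N)| ≤ 1 / N := by
  have hN' : (0 : ℝ) < N := by exact_mod_cast hN
  obtain ⟨h1, h2⟩ := abs_le.1 hx
  have h0 : 0 ≤ (x + 1) * N := by nlinarith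
  have hfl : ⌊(x + 1) * N⌋₊ ≤ 2 * N := by
    apply Nat.floor_le_of_le
    push_cast; nlinarith
  refine ⟨⟨⌊(x + 1) * N⌋₊, by omega⟩, ?_⟩
  have a1 := Nat.floor_le h0
  have a2 := Nat.lt_floor_add_one ((x + 1) * N)
  have e : x - (-1 + (⌊(x + 1) * N⌋₊ : ℝ) / N) = ((x + 1) * N - ⌊(x + 1) * N⌋₊) / N := by
    field_simp; ring
  simp only []
  rw [e, abs_div, abs_of_pos hN']
  apply div_le_div_of_nonneg_right _ hN'.le
  rw [abs_le]; constructor <;> linarith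

theorem lipx (u h : X) (hh : ‖h‖ = 1) (x y : ℝ) : ‖u + x • h‖ ≤ ‖u + y • h‖ + |x - y| := by
  have : u + x • h = (u + y • h) + (x - y) • h := by rw [sub_smul]; abel
  rw [this]
  refine (norm_add_le _ _).trans ?_
  rw [norm_smul, hh, mul_one, Real.norm_eq_abs]

end KFX

theorem face_lemma (D : FaceData X) (h : X) (hh : ‖h‖ = 1) {ε : ℝ} (hε : 0 < ε) :
    ∃ (δ : ℝ) (φ : X →L[ℝ] ℝ) (u : X), 0 < δ ∧ δ ≤ ε ∧ δ ≤ 1 / 2 ∧ D.Good δ φ ∧ ‖u‖ ≤ 1 ∧
      1 - δ ≤ φ u ∧ ∀ x : ℝ, |x| ≤ 1 → ‖u + x • h‖ ≤ ‖D.T u + x • h‖ + ε := by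
  obtain ⟨N0, hN0⟩ := exists_nat_one_div_lt (show 0 < ε / 10 by positivity)
  set N : ℕ := N0 + 1 with hNdef
  have hN : 0 < N := by omega
  have hN' : (0 : ℝ) < N := by exact_mod_cast hN
  have hNε : 1 / (N : ℝ) ≤ ε / 10 := by
    rw [hNdef]; push_cast; exact hN0.le
  let g : Fin (2 * N + 1) → ℝ := fun i => -1 + (i : ℝ) / N
  have hg : ∀ i, |g i| ≤ 1 := by
    intro i
    have hi : ((i : ℕ) : ℝ) ≤ 2 * N := by
      have := i.2
      exact_mod_cast (by omega : (i : ℕ) ≤ 2 * N)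
    have h1 : ((i : ℕ) : ℝ) / N ≤ 2 := by rw [div_le_iff₀ hN']; exact hi
    have h2 : 0 ≤ ((i : ℕ) : ℝ) / N := by positivity
    simp only [g]
    rw [abs_le]; constructor <;> linarith
  let Φ : X → Fin (2 * N + 1) → ℝ := fun u i => ‖u + g i • h‖
  have hΦ : ∀ u, ‖u‖ ≤ 1 → ‖Φ u‖ ≤ 2 := by
    intro u hu
    refine (pi_norm_le_iff_of_nonneg (by norm_num)).2 fun i => ?_
    simp only [Φ, norm_norm]
    refine (norm_add_le _ _).trans ?_
    rw [norm_smul, hh, mul_one, Real.norm_eq_abs]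
    linarith [hg i]
  have hθ : 0 < min (ε / 10) 1 := lt_min (by positivity) one_pos
  have hδ₀ : 0 < min ε (1 / 2) := lt_min hε (by norm_num)
  obtain ⟨n, c, δ, φ, hδ, hδle, hG, hc, hφc, hcov⟩ :=
    greedy D Φ 2 hΦ (show 0 < ε / 10 by positivity) hθ (min_le_right _ _) hδ₀
  have hδε : δ ≤ ε := hδle.trans (min_le_left _ _)
  have hδ2 : δ ≤ 1 / 2 := hδle.trans (min_le_right _ _)
  have hφw : ∀ w : Fin (n + 1) → ℝ, (∀ i, 0 ≤ w i) → ∑ i, w i = 1 →
      1 - δ ≤ φ (∑ j, w j • c j) := by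
    intro w hw hs
    rw [map_sum]
    calc 1 - δ = ∑ j, w j * (1 - δ) := by rw [← Finset.sum_mul, hs, one_mul]
      _ ≤ _ := Finset.sum_le_sum fun j _ => by
        rw [map_smul, smul_eq_mul]
        exact mul_le_mul_of_nonneg_left (hφc j) (hw j)
  have hbig : ∀ w : Fin (n + 1) → ℝ, (∀ i, 0 ≤ w i) → ∑ i, w i = 1 →
      1 / 2 ≤ ‖∑ j, w j • c j‖ := by
    intro w hw hs
    have h1 := hφw w hw hs
    have h2 : φ (∑ j, w j • c j) ≤ ‖∑ j, w j • c j‖ := by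
      calc φ (∑ j, w j • c j) ≤ ‖φ (∑ j, w j • c j)‖ := by
            rw [Real.norm_eq_abs]; exact le_abs_self _
        _ ≤ ‖φ‖ * ‖∑ j, w j • c j‖ := φ.le_opNorm _
        _ ≤ 1 * ‖∑ j, w j • c j‖ :=
            mul_le_mul_of_nonneg_right (D.norm_le δ φ hG) (norm_nonneg _)
        _ = _ := one_mul _
    linarith
  have hconv : ∀ i, ConvexOn ℝ univ (fun u => Φ u i) := by
    intro i
    refine ⟨convex_univ, fun u _ v _ a b ha hb hab => ?_⟩
    simp only [Φ, smul_eq_mul]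
    have e : a • u + b • v + g i • h = a • (u + g i • h) + b • (v + g i • h) := by
      rw [smul_add, smul_add]
      have : g i • h = a • g i • h + b • g i • h := by rw [← add_smul, hab, one_smul]
      rw [add_add_add_comm, ← this]
    rw [e]
    refine (norm_add_le _ _).trans ?_
    rw [norm_smul, norm_smul, Real.norm_eq_abs, Real.norm_eq_abs, abs_of_nonneg ha,
      abs_of_nonneg hb]
  have hlip : ∀ u v i, |Φ u i - Φ v i| ≤ ‖u - v‖ := by
    intro u v i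
    simp only [Φ]
    refine (abs_norm_sub_norm_le _ _).trans ?_
    rw [add_sub_add_right_eq_sub]
  obtain ⟨w, hw, hs, hfin⟩ := brouwer_step D.T D.cont Φ hconv hlip c hc hbig
    (show 0 < ε / 10 by positivity) hθ (min_le_right _ _) hcov
  refine ⟨δ, φ, ∑ j, w j • c j, hδ, hδε, hδ2, hG, ?_, hφw w hw hs, fun x hx => ?_⟩
  · calc ‖∑ j, w j • c j‖ ≤ ∑ j, ‖w j • c j‖ := norm_sum_le _ _
      _ ≤ ∑ j, w j := Finset.sum_le_sum fun j _ => by
        rw [norm_smul, Real.norm_eq_abs, abs_of_nonneg (hw j)]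
        exact mul_le_of_le_one_right (hw j) (hc j)
      _ = 1 := hs
  · obtain ⟨i, hi⟩ := KFX.exists_grid N hN x hx
    have h1 := KFX.lipx (∑ j, w j • c j) h hh x (g i)
    have h2 := KFX.lipx (D.T (∑ j, w j • c j)) h hh (g i) x
    have h3 := hfin i
    simp only [Φ] at h3
    have h4 : |x - g i| ≤ 1 / N := hi
    have h5 : |g i - x| ≤ 1 / N := by rw [abs_sub_comm]; exact h4
    have h6 : min (ε / 10) 1 ≤ ε / 10 := min_le_left _ _
    linarith

end Crest.Agent.R74
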