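import Crest.Agent.R74.Chord2
import Crest.Agent.R74.KF

set_option autoImplicit false

open Set

noncomputable section

namespace Crest.Agent.R74

variable {X Y : Type*} [NormedAddCommGroup X] [NormedSpace ℝ X] [NormedAddCommGroup Y]
  [NormedSpace ℝ Y]

namespace C3

/-- the `X`-link inequality -/
theorem linkX (p q y u Tu : X) (s l δ e : ℝ) (hl : 0 < l) (hp : p = s • y + l • u)
    (hq : s • y - q ≠ 0) (hT : Tu = ‖s • y - q‖⁻¹ • (s • y - q))
    (hu1 : ‖u‖ ≤ 1) (hu2 : 1 - δ ≤ ‖u‖) (hδ : δ ≤ 1 / 2) (hδ0 : 0 ≤ δ) (he : 0 ≤ e)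
    (ha : ‖p - s • y‖ ≤ 2) (hb : ‖q - s • y‖ ≤ 2) (x : ℝ)
    (hx : ‖u + x • y‖ ≤ ‖Tu + x • y‖ + e) :
    ‖q - s • y‖ * ‖p - (s - ‖p - s • y‖ * x) • y‖ ≤
      ‖p - s • y‖ * ‖q - (s + ‖q - s • y‖ * x) • y‖ + 4 * (e + δ) := by
  have hun : 0 < ‖u‖ := by linarith
  set a := ‖p - s • y‖ with ha_def
  set b := ‖q - s • y‖ with hb_def
  have ha' : a = l * ‖u‖ := by
    rw [ha_def, hp, add_sub_cancel_left, norm_smul, Real.norm_of_nonneg hl.le]
  have hb' : ‖s • y - q‖ = b := by rw [hb_def, norm_sub_rev]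
  have hbpos : 0 < b := by rw [← hb']; exact norm_pos_iff.2 hq
  have hapos : 0 < a := by rw [ha']; positivity
  have e1 : p - (s - a * x) • y = a • (‖u‖⁻¹ • u + x • y) := by
    rw [smul_add, smul_smul, smul_smul, hp]
    have : a * ‖u‖⁻¹ = l := by rw [ha']; field_simp
    rw [this, sub_smul]; abel
  have e2 : q - (s + b * x) • y = -(b • (Tu + x • y)) := by
    rw [hT, hb', smul_add, smul_smul, smul_smul, mul_inv_cancel₀ hbpos.ne', one_smul, add_smul]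
    abel
  have e3 : ‖‖u‖⁻¹ • u - u‖ ≤ δ := by
    have : ‖u‖⁻¹ • u - u = (‖u‖⁻¹ - 1) • u := by rw [sub_smul, one_smul]
    rw [this, norm_smul]
    have h1 : 0 ≤ ‖u‖⁻¹ - 1 := by
      have : 1 ≤ ‖u‖⁻¹ := (one_le_inv₀ hun).2 hu1
      linarith
    rw [Real.norm_of_nonneg h1, sub_mul, inv_mul_cancel₀ hun.ne']
    linarith
  have e4 : ‖‖u‖⁻¹ • u + x • y‖ ≤ ‖Tu + x • y‖ + (e + δ) := by
    have : ‖u‖⁻¹ • u + x • y = (u + x • y) + (‖u‖⁻¹ • u - u) := by abel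
    rw [this]
    have := norm_add_le (u + x • y) (‖u‖⁻¹ • u - u)
    linarith
  rw [e1, e2, norm_neg, norm_smul, norm_smul, Real.norm_of_nonneg hapos.le,
    Real.norm_of_nonneg hbpos.le]
  have h4 : a * b ≤ 4 := by nlinarith
  have h5 : a * b * ‖‖u‖⁻¹ • u + x • y‖ ≤ a * b * (‖Tu + x • y‖ + (e + δ)) :=
    mul_le_mul_of_nonneg_left e4 (by positivity)
  have h6 : a * b * (e + δ) ≤ 4 * (e + δ) :=
    mul_le_mul_of_nonneg_right h4 (by positivity)
  nlinarith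

/-- the `Y`-link equality -/
theorem linkY (p q y : Y) (t k : ℝ) (hk : 0 < k) (hq : q = t • y + k • (t • y - p)) (x : ℝ) :
    ‖p - t • y‖ * ‖q - (t + ‖q - t • y‖ * x) • y‖ =
      ‖q - t • y‖ * ‖p - (t - ‖p - t • y‖ * x) • y‖ := by
  set a := ‖p - t • y‖ with ha_def
  have hb : ‖q - t • y‖ = k * a := by
    rw [hq, add_sub_cancel_left, norm_smul, Real.norm_of_nonneg hk.le, norm_sub_rev]
  rw [hb]
  have e1 : q - (t + k * a * x) • y = -(k • (p - (t - a * x) • y)) := by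
    rw [hq]
    simp only [smul_sub, add_smul, sub_smul, smul_smul, mul_assoc]
    abel
  rw [e1, norm_neg, norm_smul, Real.norm_of_nonneg hk.le]
  ring

end C3

theorem exists_prof (f : Metric.sphere (0 : X) 1 → Metric.sphere (0 : Y) 1)
    (hf : Isometry f) (hs : Function.Surjective f) (y : Metric.sphere (0 : X) 1) {s t ρ : ℝ}
    (H : IsMaxPt (eta f y) s t ρ) {ε : ℝ} (hε : 0 < ε) :
    Nonempty (Prof (eta f y) s t ρ ε) := by
  have hy : ‖(y : X)‖ = 1 := mem_sphere_zero_iff_norm.1 y.2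
  have hfy : ‖(f y : Y)‖ = 1 := mem_sphere_zero_iff_norm.1 (f y).2
  have hz : ‖s • (y : X)‖ < 1 := by
    rw [norm_smul, hy, mul_one, Real.norm_of_nonneg H.s_pos.le]; exact H.s_lt
  have hw : ‖t • (f y : Y)‖ < 1 := by
    rw [norm_smul, hfy, mul_one, Real.norm_of_nonneg H.t_pos.le]; exact H.t_lt
  obtain ⟨M⟩ := exists_chordMaps f hf hs y _ _ hz hw
  obtain ⟨D, hDT, hD⟩ := exists_faceData f hf hs y H M
  have hC := D.one_le
  have he : 0 < ε / (8 * D.C) := by positivity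
  have heC : D.C * (ε / (8 * D.C)) = ε / 8 := by field_simp
  have he8 : ε / (8 * D.C) ≤ ε / 8 := by
    apply div_le_div_of_nonneg_left hε.le (by norm_num)
    linarith
  obtain ⟨δ, φ, u, hδ, hδe, hδ2, hG, hu1, hφu, hJ⟩ := face_lemma D (y : X) hy he
  have hφ := D.norm_le δ φ hG
  have hu2 : 1 - δ ≤ ‖u‖ := by
    have h1 : φ u ≤ ‖φ‖ * ‖u‖ := (le_abs_self _).trans (φ.le_opNorm u)
    have h2 : ‖φ‖ * ‖u‖ ≤ 1 * ‖u‖ := mul_le_mul_of_nonneg_right hφ (norm_nonneg _)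
    linarith
  have hu0 : u ≠ 0 := by
    intro h0
    rw [h0, norm_zero] at hu2
    linarith
  obtain ⟨hE1, hE2⟩ := hD δ φ u hδ hδ2 hG hu1 hφu
  have hCδ : D.C * δ ≤ ε := by
    have : D.C * δ ≤ D.C * (ε / (8 * D.C)) := mul_le_mul_of_nonneg_left hδe (by linarith)
    linarith
  obtain ⟨hl, hP⟩ := M.hP u hu0
  obtain ⟨hk, hQ⟩ := M.hQ u hu0
  have hp1 : ‖(M.P u : X)‖ = 1 := mem_sphere_zero_iff_norm.1 (M.P u).2
  have hq1 : ‖(M.Q u : X)‖ = 1 := mem_sphere_zero_iff_norm.1 (M.Q u).2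
  have hqz : s • (y : X) - (M.Q u : X) ≠ 0 := by
    intro h0
    rw [sub_eq_zero] at h0
    rw [h0, hq1] at hz
    exact lt_irrefl _ hz
  have ha : ‖(M.P u : X) - s • (y : X)‖ ≤ 2 := by
    have := norm_sub_le (M.P u : X) (s • (y : X)); linarith
  have hb : ‖(M.Q u : X) - s • (y : X)‖ ≤ 2 := by
    have := norm_sub_le (M.Q u : X) (s • (y : X)); linarith
  refine ⟨{
    Ap := fun σ => ‖(M.P u : X) - σ • (y : X)‖
    Bp := fun τ => ‖(f (M.P u) : Y) - τ • (f y : Y)‖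
    Aq := fun σ => ‖(M.Q u : X) - σ • (y : X)‖
    Bq := fun τ => ‖(f (M.Q u) : Y) - τ • (f y : Y)‖
    hAp := isProfile _ _
    hBp := isProfile _ _
    hAq := isProfile _ _
    hBq := isProfile _ _
    bdp := fun σ _ τ _ => ?_
    bdq := fun σ _ τ _ => ?_
    extp := by linarith
    extq := by linarith
    linkX := fun x hx => ?_
    linkY := fun x _ => ?_ }⟩
  · have := abs_le_eta f y (M.P u) σ τ
    have h2 := neg_abs_le (‖(M.P u : X) - σ • (y : X)‖ - ‖(f (M.P u) : Y) - τ • (f y : Y)‖)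
    linarith
  · have := abs_le_eta f y (M.Q u) σ τ
    have h2 := le_abs_self (‖(M.Q u : X) - σ • (y : X)‖ - ‖(f (M.Q u) : Y) - τ • (f y : Y)‖)
    linarith
  · have := C3.linkX (M.P u : X) (M.Q u : X) (y : X) u (D.T u) s (M.l u) δ _ hl hP hqz (hDT u)
      hu1 hu2 hδ2 hδ.le he.le ha hb x (hJ x hx)
    linarith
  · have := C3.linkY (f (M.P u) : Y) (f (M.Q u) : Y) (f y : Y) t (M.k u) hk hQ x
    linarith

end Crest.Agent.R74
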