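import Mathlib

/-!
# Row 74 (Tingley): shared definitions
-/

set_option autoImplicit false

open Set

noncomputable section

namespace Crest.Agent.R74

/-- a convex `1`-Lipschitz "distance profile" `σ ↦ ‖p - σ • h‖` -/
structure IsProfile (A : ℝ → ℝ) : Prop where
  lip : ∀ x y, |A x - A y| ≤ |x - y|
  convex : ∀ x y θ, 0 ≤ θ → θ ≤ 1 → A ((1 - θ) * x + θ * y) ≤ (1 - θ) * A x + θ * A y
  zero : A 0 = 1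
  lower : ∀ x, 0 ≤ x → 1 - x ≤ A x

/-- an `ε`-extremal, `ε`-linked chord for `η` at `(s,t)`; `a = Ap s`, `b = Aq s`, `a' = Bp t`,
`b' = Bq t` -/
structure Prof (η : ℝ → ℝ → ℝ) (s t ρ ε : ℝ) where
  Ap : ℝ → ℝ
  Bp : ℝ → ℝ
  Aq : ℝ → ℝ
  Bq : ℝ → ℝ
  hAp : IsProfile Ap
  hBp : IsProfile Bp
  hAq : IsProfile Aq
  hBq : IsProfile Bq
  bdp : ∀ σ ∈ Icc (0 : ℝ) 1, ∀ τ ∈ Icc (0 : ℝ) 1, Bp τ - Ap σ ≤ η σ τ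
  bdq : ∀ σ ∈ Icc (0 : ℝ) 1, ∀ τ ∈ Icc (0 : ℝ) 1, Aq σ - Bq τ ≤ η σ τ
  extp : ρ - ε ≤ Bp t - Ap s
  extq : ρ - ε ≤ Aq s - Bq t
  linkX : ∀ x, |x| ≤ 1 → Aq s * Ap (s - Ap s * x) ≤ Ap s * Aq (s + Aq s * x) + ε
  linkY : ∀ x, |x| ≤ 1 → Bp t * Bq (t + Bq t * x) ≤ Bq t * Bp (t - Bp t * x) + ε

/-- `(s,t)` is an interior maximum point of `η² - (σ-τ)²` with positive value -/
structure IsMaxPt (η : ℝ → ℝ → ℝ) (s t ρ : ℝ) : Prop where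
  s_pos : 0 < s
  s_lt : s < 1
  t_pos : 0 < t
  t_lt : t < 1
  val : η s t = ρ
  gap : |s - t| < ρ
  upper : ∀ σ ∈ Icc (0 : ℝ) 1, ∀ τ ∈ Icc (0 : ℝ) 1,
    η σ τ ≤ √(ρ ^ 2 - (s - t) ^ 2 + (σ - τ) ^ 2)
  bdry : ∀ σ ∈ Icc (0 : ℝ) 1, ∀ τ ∈ Icc (0 : ℝ) 1, (σ = 0 ∨ σ = 1 ∨ τ = 0 ∨ τ = 1) →
    η σ τ ≤ |σ - τ|

section geometry

variable {X Y : Type*} [NormedAddCommGroup X] [NormedSpace ℝ X] [NormedAddCommGroup Y]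
  [NormedSpace ℝ Y]

/-- the distance in `ℓ^∞(sphere)` between the profiles of `σ • y` and of `τ • f y` -/
def eta (f : Metric.sphere (0 : X) 1 → Metric.sphere (0 : Y) 1) (y : Metric.sphere (0 : X) 1)
    (σ τ : ℝ) : ℝ :=
  ⨆ p : Metric.sphere (0 : X) 1, |‖(p : X) - σ • (y : X)‖ - ‖(f p : Y) - τ • (f y : Y)‖|

end geometry

/-- the abstract data of the flat-face argument: `Good δ φ` says that the functional `φ`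
almost norms the direction of a `δ`-extremal lower point, `T` is the opposite-direction map -/
structure FaceData (X : Type*) [NormedAddCommGroup X] [NormedSpace ℝ X] where
  Good : ℝ → (X →L[ℝ] ℝ) → Prop
  T : X → X
  C : ℝ
  one_le : 1 ≤ C
  norm_le : ∀ δ φ, Good δ φ → ‖φ‖ ≤ 1
  mono : ∀ δ δ' φ, Good δ φ → δ ≤ δ' → Good δ' φ
  cont : ContinuousOn T {u | 1 / 2 ≤ ‖u‖}
  norm_T : ∀ u, 1 / 2 ≤ ‖u‖ → ‖T u‖ ≤ 1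
  start : ∀ δ, 0 < δ → ∃ φ c, Good δ φ ∧ ‖c‖ ≤ 1 ∧ 1 - δ ≤ φ c
  step : ∀ δ φ u, 0 < δ → δ ≤ 1 / 2 → Good δ φ → ‖u‖ ≤ 1 → 1 - δ ≤ φ u →
    ∃ φ', Good (C * δ) φ' ∧ 1 - C * δ ≤ φ' u ∧ 1 - C * δ ≤ φ' (T u)

end Crest.Agent.R74
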