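import Mathlib

set_option autoImplicit false

namespace Crest.Agent.R74

open Set Metric

/-- The exit time of the ray `z + ℝ₊ u` from the unit ball depends continuously on `u`. -/
theorem exit_gauge {X : Type*} [NormedAddCommGroup X] [NormedSpace ℝ X] (z : X) (hz : ‖z‖ < 1) :
    ∃ m : X → ℝ, ContinuousOn m {0}ᶜ ∧ ∀ u, u ≠ 0 → 0 < m u ∧ ‖z + m u • u‖ = 1 := by
  have hc : Convex ℝ (ball (-z) 1) := convex_ball _ _
  have h0 : ball (-z) 1 ∈ nhds (0:X) := isOpen_ball.mem_nhds (by simpa using hz)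
  have hb : Bornology.IsVonNBounded ℝ (ball (-z) 1) :=
    (NormedSpace.isVonNBounded_iff ℝ).2 isBounded_ball
  have hpos : ∀ u : X, u ≠ 0 → 0 < gauge (ball (-z) 1) u := fun u hu =>
    (gauge_pos (absorbent_nhds_zero h0) hb).2 hu
  refine ⟨fun u => (gauge (ball (-z) 1) u)⁻¹, ?_, fun u hu => ⟨inv_pos.2 (hpos u hu), ?_⟩⟩
  · exact (continuous_gauge hc h0).continuousOn.inv₀ fun u hu => (hpos u hu).ne'
  · have h1 : gauge (ball (-z) 1) ((gauge (ball (-z) 1) u)⁻¹ • u) = 1 := by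
      rw [gauge_smul_of_nonneg (inv_pos.2 (hpos u hu)).le, smul_eq_mul,
        inv_mul_cancel₀ (hpos u hu).ne']
    rw [gauge_eq_one_iff_mem_frontier hc h0, frontier_ball _ one_ne_zero] at h1
    rw [mem_sphere, dist_eq_norm, sub_neg_eq_add, add_comm] at h1
    exact h1

end Crest.Agent.R74
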