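import Crest.Agent.R74.Defs
import Crest.Agent.R74.ExitG

set_option autoImplicit false

open Set

noncomputable section

namespace Crest.Agent.R74

variable {X : Type*} [NormedAddCommGroup X] [NormedSpace ℝ X]

/-- the exit time of the ray `z + ℝ₊ u` from the unit ball -/
theorem exists_exit (z : X) (hz : ‖z‖ < 1) :
    ∃ l : X → ℝ, ContinuousOn l {u | u ≠ 0} ∧ ∀ u, u ≠ 0 → 0 < l u ∧ ‖z + l u • u‖ = 1 :=
  exit_gauge z hz

end Crest.Agent.R74
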