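import Crest.Agent.R74.F18B

/-!
# Row 74: the flat-face lemma (greedy family in an almost common face + Brouwer)
-/

set_option autoImplicit false

open Set Filter Topology Metric

noncomputable section

namespace Crest.Agent.R74.F18

variable {X Y : Type*} [NormedAddCommGroup X] [NormedSpace ℝ X]
  [NormedAddCommGroup Y] [NormedSpace ℝ Y]

theorem unit_dir (x : X) (hx : 0 < ‖x‖) : ‖‖x‖⁻¹ • x‖ = 1 := by
  rw [norm_smul, norm_inv, norm_norm, inv_mul_cancel₀ hx.ne']

set_option maxHeartbeats 1000000 in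
theorem face {f : sphere (0 : X) 1 → sphere (0 : Y) 1} (hf : Isometry f)
    (hs : Function.Surjective f) (z : X) (w : Y) (hz : ‖z‖ < 1) (hw : ‖w‖ < 1) (ρ : ℝ)
    (hup : ∀ p : sphere (0 : X) 1, |‖(p : X) - z‖ - ‖(f p : Y) - w‖| ≤ ρ)
    (hap : ∀ d : ℝ, 0 < d → ∃ p : sphere (0 : X) 1, ρ - d ≤ |‖(p : X) - z‖ - ‖(f p : Y) - w‖|)
    (h : X) (M ε : ℝ) (hε : 0 < ε) :
    ∃ (p q : sphere (0 : X) 1) (a b a1 b1 : ℝ) (u1 u2 : X) (v : Y),
      ‖u1‖ = 1 ∧ ‖u2‖ = 1 ∧ ‖v‖ = 1 ∧ 0 < a ∧ 0 < b ∧ 0 < a1 ∧ 0 < b1 ∧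
      (p : X) = z + a • u1 ∧ (q : X) = z - b • u2 ∧ (f p : Y) = w + a1 • v ∧
      (f q : Y) = w - b1 • v ∧ a + ρ - ε ≤ a1 ∧ b1 + ρ - ε ≤ b ∧
      ∀ x : ℝ, |x| ≤ M → ‖u1 + x • h‖ ≤ ‖u2 + x • h‖ + ε := by
  by_contra hcon
  obtain ⟨S, hS⟩ : ∃ S, S = 1 - ‖z‖ := ⟨_, rfl⟩
  have hS0 : 0 < S := by linarith
  have hfar : ∀ p : sphere (0 : X) 1, S ≤ ‖(p : X) - z‖ := fun p => hS ▸ sph_far p z
  have hfarw : ∀ p : sphere (0 : Y) 1, 0 < ‖(p : Y) - w‖ := fun p =>
    lt_of_lt_of_le (by linarith) (sph_far p w)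
  obtain ⟨ι, _, cell, D, hDc, hD1, hD2⟩ := face_cells h M (ε / 8) (by positivity)
  obtain ⟨o, hoc, ho⟩ := face_opp w hw
  obtain ⟨g, hgc, hg⟩ := face_exit z hz
  let F : sphere (0 : X) 1 ≃ᵢ sphere (0 : Y) 1 := ⟨Equiv.ofBijective f ⟨hf.injective, hs⟩, hf⟩
  obtain ⟨op, hopc, hop⟩ : ∃ op : sphere (0 : X) 1 → sphere (0 : X) 1, Continuous op ∧
      ∀ p, f (op p) = o (f p) :=
    ⟨fun p => F.symm (o (f p)), F.symm.continuous.comp (hoc.comp hf.continuous),
      fun p => F.apply_symm_apply _⟩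
  have hopn : ∀ p, ‖(f p : Y) - f (op p)‖ = ‖(f p : Y) - w‖ + ‖(f (op p) : Y) - w‖ := fun p => by
    obtain ⟨r, hr, hr'⟩ := ho (f p)
    rw [hop]; exact opp_norm w _ _ r hr hr'
  let P : ℕ → Prop := fun n => ∀ δ : ℝ, 0 < δ → ∃ (c : Fin n → X) (φ : X →L[ℝ] ℝ)
    (q : sphere (0 : X) 1), Function.Injective (cell ∘ c) ∧ ‖φ‖ ≤ 1 ∧
      (∀ i, ‖c i‖ = 1 ∧ 1 - δ ≤ φ (c i)) ∧ ρ - δ ≤ ‖(q : X) - z‖ - ‖(f q : Y) - w‖ ∧
      ‖(q : X) - z‖ - δ ≤ φ (z - q)
  have P1 : P 1 := fun δ hδ => by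
    obtain ⟨q, hq⟩ : ∃ q : sphere (0 : X) 1, ρ - δ ≤ ‖(q : X) - z‖ - ‖(f q : Y) - w‖ := by
      obtain ⟨p, hp⟩ := hap δ hδ
      rcases le_abs.1 hp with h1 | h1
      · exact ⟨p, h1⟩
      · refine ⟨op p, ?_⟩
        have e1 := hopn p
        have e5 := iso_norm hf p (op p)
        have e6 : ‖(p : X) - op p‖ ≤ ‖(p : X) - z‖ + ‖(op p : X) - z‖ := by
          have := norm_sub_le ((p : X) - z) ((op p : X) - z)
          rwa [sub_sub_sub_cancel_right] at this
        linarith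
    obtain ⟨φ, hφ, hφ'⟩ := exists_dual_vector'' ℝ (z - (q : X))
    simp only [RCLike.ofReal_real_eq_id, id_eq] at hφ'
    have hb : 0 < ‖z - (q : X)‖ := by rw [norm_sub_rev]; exact hS0.trans_le (hfar q)
    refine ⟨fun _ => ‖z - (q : X)‖⁻¹ • (z - q), φ, q, Function.injective_of_subsingleton _, hφ,
      fun _ => ⟨unit_dir _ hb, ?_⟩, hq, ?_⟩
    · rw [map_smul, hφ', smul_eq_mul, inv_mul_cancel₀ hb.ne']; linarith
    · rw [hφ', norm_sub_rev]; linarith
  have Pstep : ∀ n, P (n + 1) → P (n + 2) := fun n hP δ₁ hδ₁ => by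
    obtain ⟨τ, hτ⟩ : ∃ τ : ℝ, τ = ε / 8 / (n + 1) := ⟨_, rfl⟩
    have hτ0 : 0 < τ := by rw [hτ]; positivity
    have hτn : ((n : ℝ) + 1) * τ = ε / 8 := by rw [hτ]; field_simp
    obtain ⟨K, hK⟩ : ∃ K : ℝ, K = (n + 1) * (1 + τ) * (1 + 4 / S) / τ + 4 + 4 / S := ⟨_, rfl⟩
    have hK1 : 0 ≤ (n + 1) * (1 + τ) * (1 + 4 / S) / τ := by positivity
    have hK2 : 0 < 4 / S := by positivity
    have hK0 : 0 < K := by linarith
    obtain ⟨δ, hδ0, hδa, hδb, hδc⟩ : ∃ δ : ℝ, 0 < δ ∧ δ ≤ 1 / 2 ∧ δ ≤ ε / 8 ∧ δ * K ≤ δ₁ :=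
      ⟨min (min (1 / 2) (ε / 8)) (δ₁ / K), by positivity,
        (min_le_left _ _).trans (min_le_left _ _), (min_le_left _ _).trans (min_le_right _ _),
        (le_div_iff₀ hK0).1 (min_le_right _ _)⟩
    obtain ⟨c, φ, q, hinj, hφ, hc, hq1, hq2⟩ := hP δ hδ0
    let wt : (Fin (n + 1) → ℝ) → Fin (n + 1) → ℝ := fun y i => max 0 (min 1 (y i)) + τ
    have hwt1 : ∀ y i, τ ≤ wt y i := fun y i => le_add_of_nonneg_left (le_max_left _ _)
    have hwt2 : ∀ y i, wt y i ≤ 1 + τ := fun y i =>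
      add_le_add_left (max_le zero_le_one (min_le_left _ _)) _
    have hwtc : ∀ i, Continuous fun y => wt y i := fun i => by simp only [wt]; fun_prop
    let W : (Fin (n + 1) → ℝ) → ℝ := fun y => ∑ i, wt y i
    let u : (Fin (n + 1) → ℝ) → X := fun y => ∑ i, wt y i • c i
    have huc : Continuous u := continuous_finsetSum _ fun i _ => (hwtc i).smul continuous_const
    have hW0 : ∀ y, 0 < W y := fun y =>
      Finset.sum_pos (fun i _ => hτ0.trans_le (hwt1 y i)) Finset.univ_nonempty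
    have hW1 : ∀ y, W y ≤ (n + 1) * (1 + τ) := fun y => by
      have := Finset.sum_le_card_nsmul Finset.univ (wt y) (1 + τ) fun i _ => hwt2 y i
      rw [Finset.card_univ, Fintype.card_fin, nsmul_eq_mul, Nat.cast_add, Nat.cast_one] at this
      exact this
    have hu1 : ∀ y, ‖u y‖ ≤ W y := fun y => by
      refine (norm_sum_le _ _).trans (Finset.sum_le_sum fun i _ => ?_)
      rw [norm_smul, (hc i).1, mul_one, Real.norm_eq_abs,
        abs_of_pos (hτ0.trans_le (hwt1 y i))]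
    have hφu : ∀ (ψ : X →L[ℝ] ℝ) y, ψ (u y) = ∑ i, wt y i * ψ (c i) := fun ψ y => by
      simp only [u, map_sum, map_smul, smul_eq_mul]
    have hu2 : ∀ y, (1 - δ) * W y ≤ φ (u y) := fun y => by
      rw [hφu, Finset.mul_sum]
      exact Finset.sum_le_sum fun i _ => by
        rw [mul_comm]; exact mul_le_mul_of_nonneg_left (hc i).2 (hτ0.le.trans (hwt1 y i))
    have hu3 : ∀ y, (1 - δ) * W y ≤ ‖u y‖ := fun y => (hu2 y).trans (phi_le φ hφ _)
    have hu4 : ∀ y, 0 < ‖u y‖ := fun y =>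
      lt_of_lt_of_le (mul_pos (by linarith) (hW0 y)) (hu3 y)
    have hu0 : ∀ y, u y ≠ 0 := fun y => norm_pos_iff.1 (hu4 y)
    obtain ⟨p, hpc, hp⟩ : ∃ p : (Fin (n + 1) → ℝ) → sphere (0 : X) 1, Continuous p ∧
        ∀ y, ∃ r : ℝ, 0 < r ∧ (p y : X) - z = r • u y := by
      refine ⟨fun y => ⟨z + (g (u y))⁻¹ • u y, by simpa using (hg _ (hu0 y)).2⟩, ?_,
        fun y => ⟨(g (u y))⁻¹, inv_pos.2 (hg _ (hu0 y)).1, by simp⟩⟩
      refine Continuous.subtype_mk ?_ _
      exact continuous_const.add (((hgc.comp huc).inv₀ fun y => (hg _ (hu0 y)).1.ne').smul huc)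
    let T : (Fin (n + 1) → ℝ) → X := fun y => ‖z - (op (p y) : X)‖⁻¹ • (z - op (p y))
    have hb : ∀ y, S ≤ ‖z - (op (p y) : X)‖ := fun y => by rw [norm_sub_rev]; exact hfar _
    have hT1 : ∀ y, ‖T y‖ = 1 := fun y => unit_dir _ (hS0.trans_le (hb y))
    have hTc : Continuous T := by
      have h1 : Continuous fun y => z - (op (p y) : X) :=
        continuous_const.sub (continuous_subtype_val.comp (hopc.comp hpc))
      exact (h1.norm.inv₀ fun y => (hS0.trans_le (hb y)).ne').smul h1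
    have hst := fun y => face_step hf z w hz ρ hup δ hδ0 φ hφ q (p y) (op (p y)) hq1 hq2
      (by
        obtain ⟨r, hr, hr'⟩ := hp y
        rw [hr', map_smul, norm_smul, Real.norm_eq_abs, abs_of_pos hr, smul_eq_mul]
        have h1 : (1 - δ) * ‖u y‖ ≤ φ (u y) :=
          (mul_le_mul_of_nonneg_left (hu1 y) (by linarith)).trans (hu2 y)
        nlinarith) (hopn _)
    by_cases hall : ∀ y, ∃ i, cell (c i) = cell (T y)
    · exfalso
      obtain ⟨ν, hν0, hν1, hν2⟩ := face_fix (n + 1) (fun y i => D (c i) (T y))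
        (fun i => (hDc _).comp hTc) (ε / 8) fun y => by
          obtain ⟨i, hi⟩ := hall y
          exact ⟨i, hD1 _ _ (hc i).1.le (hT1 y).le hi⟩
      obtain ⟨h1, h2, -⟩ := hst ν
      obtain ⟨r, hr, hr'⟩ := hp ν
      obtain ⟨r2, hr2, hr2'⟩ := ho (f (p ν))
      rw [← hop] at hr2'
      have ha0 : 0 < ‖(p ν : X) - z‖ := hS0.trans_le (hfar _)
      have hb0 : 0 < ‖z - (op (p ν) : X)‖ := hS0.trans_le (hb ν)
      have ha1 := hfarw (f (p ν))
      have hb1 : ‖(f (op (p ν)) : Y) - w‖ = r2 * ‖(f (p ν) : Y) - w‖ := by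
        rw [hr2', add_sub_cancel_left, norm_smul, Real.norm_eq_abs, abs_of_pos hr2, norm_sub_rev]
      have hwν : ∀ i, wt ν i = ν i + τ := fun i => by
        have : ν i ≤ 1 := hν1 ▸ Finset.single_le_sum (fun j _ => hν0 j) (Finset.mem_univ i)
        simp only [wt, min_eq_right this, max_eq_right (hν0 i)]
      have hWν : W ν = 1 + ε / 8 := by
        simp only [W, hwν, Finset.sum_add_distrib, hν1]
        simp [← hτn]
      refine hcon ⟨p ν, op (p ν), ‖(p ν : X) - z‖, ‖z - (op (p ν) : X)‖, ‖(f (p ν) : Y) - w‖,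
        ‖(f (op (p ν)) : Y) - w‖, ‖u ν‖⁻¹ • u ν, T ν,
        ‖(f (p ν) : Y) - w‖⁻¹ • ((f (p ν) : Y) - w), unit_dir _ (hu4 ν), hT1 ν, unit_dir _ ha1,
        ha0, hb0, ha1, hfarw _, ?_, ?_, ?_, ?_, by linarith, ?_, fun x hx => ?_⟩
      · rw [hr', norm_smul, Real.norm_eq_abs, abs_of_pos hr, smul_smul, mul_assoc,
          mul_inv_cancel₀ (hu4 ν).ne', mul_one, ← hr']
        abel
      · simp only [T]
        rw [smul_smul, mul_inv_cancel₀ hb0.ne', one_smul]; abel
      · rw [smul_smul, mul_inv_cancel₀ ha1.ne', one_smul]; abel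
      · rw [hb1, smul_smul, mul_assoc, mul_inv_cancel₀ ha1.ne', mul_one]
        refine hr2'.trans ?_
        module
      · rw [norm_sub_rev z]; linarith
      · have e1 : ‖‖u ν‖⁻¹ • u ν - u ν‖ ≤ ε / 8 := by
          have : ‖u ν‖⁻¹ • u ν - u ν = (1 - ‖u ν‖) • (‖u ν‖⁻¹ • u ν) := by
            rw [sub_smul, one_smul, smul_smul, mul_inv_cancel₀ (hu4 ν).ne', one_smul]
          rw [this, norm_smul, unit_dir _ (hu4 ν), mul_one, Real.norm_eq_abs, abs_le]
          have h3 := hu1 ν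
          have h4 := hu3 ν
          rw [hWν] at h3 h4
          constructor
          · linarith
          · nlinarith
        have e2 : u ν + x • h = ∑ i, ν i • (c i + x • h) + ∑ i, τ • c i := by
          simp only [u, hwν, add_smul, smul_add, Finset.sum_add_distrib, ← Finset.sum_smul, hν1,
            one_smul]
          abel
        have e3 : ‖∑ i, τ • c i‖ ≤ ε / 8 := by
          refine (norm_sum_le _ _).trans ?_
          simp only [norm_smul, (hc _).1, mul_one, Real.norm_eq_abs, abs_of_pos hτ0]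
          simp [← hτn]
        have e4 : ‖∑ i, ν i • (c i + x • h)‖ ≤ ‖T ν + x • h‖ + 3 * (ε / 8) := by
          refine (norm_sum_le _ _).trans ?_
          rw [← one_mul (‖T ν + x • h‖ + 3 * (ε / 8)), ← hν1, Finset.sum_mul]
          refine Finset.sum_le_sum fun i _ => ?_
          rw [norm_smul, Real.norm_eq_abs, abs_of_nonneg (hν0 i)]
          rcases (hν0 i).eq_or_lt with h0 | h0
          · rw [← h0]; simp
          · exact mul_le_mul_of_nonneg_left (hD2 _ _ (hν2 i h0) x hx) h0.le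
        have e5 : ‖u ν‖⁻¹ • u ν + x • h = (‖u ν‖⁻¹ • u ν - u ν) + (u ν + x • h) := by abel
        have e6 := norm_add_le (‖u ν‖⁻¹ • u ν - u ν) (u ν + x • h)
        have e7 := norm_add_le (∑ i, ν i • (c i + x • h)) (∑ i, τ • c i)
        rw [← e2] at e7
        rw [e5]
        linarith
    · push Not at hall
      obtain ⟨y, hy⟩ := hall
      obtain ⟨h1, h2, ψ, hψ, h3, h4⟩ := hst y
      obtain ⟨r, hr, hr'⟩ := hp y
      have hδ4 : 4 * δ ≤ δ₁ := by nlinarith
      have hδ5 : δ * (4 / S) ≤ δ₁ := by nlinarith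
      have hδ6 : δ * ((n + 1) * (1 + τ) * (1 + 4 / S) / τ) ≤ δ₁ := by nlinarith
      refine ⟨Fin.cons (T y) c, ψ, op (p y), ?_, hψ, fun i => ?_, by linarith, by linarith⟩
      · rw [Fin.comp_cons]
        refine Fin.cons_injective_of_injective ?_ hinj
        rintro ⟨i, hi⟩
        exact hy i hi
      · refine Fin.cases ?_ (fun i => ?_) i
        · refine ⟨hT1 y, ?_⟩
          have hb0 : 0 < ‖z - (op (p y) : X)‖ := hS0.trans_le (hb y)
          simp only [Fin.cons_zero, T, map_smul, smul_eq_mul]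
          rw [norm_sub_rev _ z] at h3
          rw [← div_eq_inv_mul, le_div_iff₀ hb0]
          have : 4 * δ ≤ δ₁ * S := by
            have : δ * (4 / S) * S = 4 * δ := by field_simp
            nlinarith
          nlinarith [hb y]
        · refine ⟨(hc i).1, ?_⟩
          simp only [Fin.cons_succ]
          have hfa := hfar (p y)
          rw [hr', map_smul, norm_smul, Real.norm_eq_abs, abs_of_pos hr, smul_eq_mul] at h4
          rw [hr', norm_smul, Real.norm_eq_abs, abs_of_pos hr] at hfa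
          -- W - ψ u ≤ δ W (1 + 4/S)
          have k1 : S ≤ r * W y := hfa.trans (mul_le_mul_of_nonneg_left (hu1 y) hr.le)
          have k2 : r * (W y - ψ (u y)) ≤ r * (δ * W y * (1 + 4 / S)) := by
            have k3 : 4 * δ ≤ δ * (4 / S) * (r * W y) := by
              have : δ * (4 / S) * S = 4 * δ := by field_simp
              have k4 : 0 ≤ δ * (4 / S) := by positivity
              nlinarith
            have k5 := mul_le_mul_of_nonneg_left (hu3 y) hr.le
            nlinarith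
          have k6 : W y - ψ (u y) ≤ δ * W y * (1 + 4 / S) := le_of_mul_le_mul_left k2 hr
          have k7 : W y - ψ (u y) = ∑ j, wt y j * (1 - ψ (c j)) := by
            rw [hφu]; simp only [W, mul_sub, mul_one, Finset.sum_sub_distrib]
          have k8 : ∀ j, 0 ≤ 1 - ψ (c j) := fun j => by
            have := phi_le ψ hψ (c j); rw [(hc j).1] at this; linarith
          have k9 : wt y i * (1 - ψ (c i)) ≤ ∑ j, wt y j * (1 - ψ (c j)) :=
            Finset.single_le_sum (f := fun j => wt y j * (1 - ψ (c j)))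
              (fun j _ => mul_nonneg (hτ0.le.trans (hwt1 y j)) (k8 j)) (Finset.mem_univ i)
          have k10 : τ * (1 - ψ (c i)) ≤ δ * ((n + 1) * (1 + τ)) * (1 + 4 / S) := by
            have k11 := mul_le_mul_of_nonneg_right (hwt1 y i) (k8 i)
            have k12 : δ * W y * (1 + 4 / S) ≤ δ * ((n + 1) * (1 + τ)) * (1 + 4 / S) := by
              have := hW1 y
              gcongr
            linarith
          have k13 : τ * (δ * ((n + 1) * (1 + τ) * (1 + 4 / S) / τ)) =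
              δ * ((n + 1) * (1 + τ)) * (1 + 4 / S) := by field_simp
          have k14 : τ * (1 - ψ (c i)) ≤ τ * δ₁ := by nlinarith
          have := le_of_mul_le_mul_left k14 hτ0
          linarith
  have Pall : ∀ n, P (n + 1) := fun n => by
    induction n with
    | zero => exact P1
    | succ n ih => exact Pstep n ih
  obtain ⟨c, -, -, hinj, -⟩ := Pall (Nat.card ι) 1 one_pos
  have := Nat.card_le_card_of_injective _ hinj
  simp at this

end Crest.Agent.R74.F18
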