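import Crest.Agent.R332.Vi

/-!
# Row 74: tools for the flat-face lemma
-/

set_option autoImplicit false

open Set Filter Topology Metric

noncomputable section

namespace Crest.Agent.R74.F18

theorem face_fix (n : ℕ) (D : (Fin n → ℝ) → Fin n → ℝ) (hD : ∀ i, Continuous fun y => D y i)
    (e : ℝ) (hc : ∀ y, ∃ i, D y i < e) :
    ∃ ν : Fin n → ℝ, (∀ i, 0 ≤ ν i) ∧ ∑ i, ν i = 1 ∧ ∀ i, 0 < ν i → D ν i < e := by
  let μ : (Fin n → ℝ) → Fin n → ℝ := fun y i => max 0 (e - D y i)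
  have hμ0 : ∀ y i, 0 ≤ μ y i := fun y i => le_max_left _ _
  have hS : ∀ y, 0 < ∑ i, μ y i := fun y => by
    obtain ⟨i, hi⟩ := hc y
    exact Finset.sum_pos' (fun j _ => hμ0 y j)
      ⟨i, Finset.mem_univ _, lt_max_of_lt_right (by linarith)⟩
  have hμc : ∀ i, Continuous fun y => μ y i := fun i =>
    continuous_const.max (continuous_const.sub (hD i))
  obtain ⟨ν, hν⟩ := Crest.Agent.R332.Vi.brouwer (V := Fin n → ℝ)
    (f := fun y i => μ y i / ∑ j, μ y j) (R := 1)
    (continuous_pi fun i => (hμc i).div (continuous_finsetSum _ fun j _ => hμc j)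
      fun y => (hS y).ne')
    (fun y => by
      refine (pi_norm_le_iff_of_nonneg zero_le_one).2 fun i => ?_
      rw [Real.norm_eq_abs, abs_of_nonneg (div_nonneg (hμ0 y i) (hS y).le), div_le_one (hS y)]
      exact Finset.single_le_sum (fun j _ => hμ0 y j) (Finset.mem_univ i))
  have hνi : ∀ i, ν i = μ ν i / ∑ j, μ ν j := fun i => (congrFun hν i).symm
  refine ⟨ν, fun i => ?_, ?_, fun i hi => ?_⟩
  · rw [hνi i]; exact div_nonneg (hμ0 _ _) (hS _).le
  · rw [Finset.sum_congr rfl fun i _ => hνi i, ← Finset.sum_div, div_self (hS ν).ne']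
  · rw [hνi i] at hi
    have h1 : 0 < μ ν i := (div_pos_iff_of_pos_right (hS ν)).1 hi
    have h2 : 0 < e - D ν i := by
      rcases lt_max_iff.1 h1 with h | h
      · exact absurd h (lt_irrefl _)
      · exact h
    linarith

theorem face_cells {X : Type*} [NormedAddCommGroup X] [NormedSpace ℝ X] (h : X) (M e : ℝ)
    (he : 0 < e) :
    ∃ (ι : Type) (_ : Finite ι) (cell : X → ι) (D : X → X → ℝ),
      (∀ u, Continuous (D u)) ∧
      (∀ u u', ‖u‖ ≤ 1 → ‖u'‖ ≤ 1 → cell u = cell u' → D u u' < e) ∧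
      ∀ u u', D u u' < e → ∀ x : ℝ, |x| ≤ M → ‖u + x • h‖ ≤ ‖u' + x • h‖ + 3 * e := by
  have hh : 0 < ‖h‖ + 1 := by positivity
  obtain ⟨t, ht, htf, htc⟩ := finite_cover_balls_of_compact (isCompact_Icc (a := -M) (b := M))
    (div_pos he hh)
  haveI : Fintype t := htf.fintype
  let J : X → t → ℝ := fun u x => ‖u + (x : ℝ) • h‖
  have hJc : Continuous J := continuous_pi fun x => by simp only [J]; fun_prop
  obtain ⟨s, hs, hsf, hsc⟩ := finite_cover_balls_of_compact
    (isCompact_closedBall (0 : t → ℝ) (1 + |M| * ‖h‖)) (half_pos he)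
  have hJb : ∀ u : X, ‖u‖ ≤ 1 → J u ∈ closedBall (0 : t → ℝ) (1 + |M| * ‖h‖) := fun u hu => by
    rw [mem_closedBall_zero_iff]
    refine (pi_norm_le_iff_of_nonneg (by positivity)).2 fun x => ?_
    have hx : |(x : ℝ)| ≤ |M| := (abs_le.2 (ht x.2)).trans (le_abs_self M)
    simp only [J, norm_norm]
    refine (norm_add_le _ _).trans (add_le_add hu ?_)
    rw [norm_smul, Real.norm_eq_abs]
    exact mul_le_mul_of_nonneg_right hx (norm_nonneg _)
  have hex : ∀ u : X, ∃ c : Option s, ‖u‖ ≤ 1 → ∃ c' : s, c = some c' ∧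
      dist (J u) c' < e / 2 := fun u => by
    by_cases hu : ‖u‖ ≤ 1
    · obtain ⟨c, hc, hc'⟩ := mem_iUnion₂.1 (hsc (hJb u hu))
      exact ⟨some ⟨c, hc⟩, fun _ => ⟨⟨c, hc⟩, rfl, hc'⟩⟩
    · exact ⟨none, fun h' => absurd h' hu⟩
  choose cell hcell using hex
  haveI : Finite s := hsf.to_subtype
  refine ⟨Option s, inferInstance, cell, fun u u' => dist (J u) (J u'), fun u => by fun_prop,
    fun u u' hu hu' hc => ?_, fun u u' hD x hx => ?_⟩
  · obtain ⟨c, h1, h2⟩ := hcell u hu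
    obtain ⟨c', h3, h4⟩ := hcell u' hu'
    have : c = c' := Option.some.inj (h1.symm.trans (hc.trans h3))
    subst this
    have := dist_triangle_right (J u) (J u') c
    linarith
  · obtain ⟨x', hx', hxx⟩ := mem_iUnion₂.1 (htc (abs_le.1 hx))
    have h1 : dist (J u ⟨x', hx'⟩) (J u' ⟨x', hx'⟩) ≤ dist (J u) (J u') := dist_le_pi_dist _ _ _
    simp only [J, Real.dist_eq] at h1
    have h2 := (abs_le.1 h1).2
    have h3 : ‖(x - x') • h‖ ≤ e := by
      rw [norm_smul, Real.norm_eq_abs]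
      rw [mem_ball, Real.dist_eq, lt_div_iff₀ hh] at hxx
      nlinarith [abs_nonneg (x - x'), norm_nonneg h]
    have h4 : ‖u + x • h‖ ≤ ‖u + x' • h‖ + ‖(x - x') • h‖ := by
      have : u + x • h = (u + x' • h) + (x - x') • h := by module
      rw [this]; exact norm_add_le _ _
    have h5 : ‖u' + x' • h‖ ≤ ‖u' + x • h‖ + ‖(x - x') • h‖ := by
      have : u' + x' • h = (u' + x • h) - (x - x') • h := by module
      rw [this]; exact norm_sub_le _ _
    change dist (J u) (J u') < e at hD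
    linarith

theorem face_exit {X : Type*} [NormedAddCommGroup X] [NormedSpace ℝ X] (z : X) (hz : ‖z‖ < 1) :
    ∃ g : X → ℝ, Continuous g ∧ ∀ u, u ≠ 0 → 0 < g u ∧ ‖z + (g u)⁻¹ • u‖ = 1 := by
  have hn : ball (-z) 1 ∈ 𝓝 (0 : X) := isOpen_ball.mem_nhds (by simpa using hz)
  have hc : Convex ℝ (ball (-z) (1 : ℝ)) := convex_ball _ _
  refine ⟨gauge (ball (-z) 1), continuous_gauge hc hn, fun u hu => ?_⟩
  have hp : 0 < gauge (ball (-z) 1) u :=
    (gauge_pos (absorbent_nhds_zero hn)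
      ((NormedSpace.isVonNBounded_iff ℝ).2 isBounded_ball)).2 hu
  refine ⟨hp, ?_⟩
  have h1 : gauge (ball (-z) 1) ((gauge (ball (-z) 1) u)⁻¹ • u) = 1 := by
    rw [gauge_smul_of_nonneg (inv_pos.2 hp).le, smul_eq_mul, inv_mul_cancel₀ hp.ne']
  rw [gauge_eq_one_iff_mem_frontier hc hn, frontier_ball _ one_ne_zero, mem_sphere,
    dist_eq_norm, sub_neg_eq_add, add_comm] at h1
  exact h1

end Crest.Agent.R74.F18
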