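import Crest.Agent.R74.F18A

/-!
# Row 74: the flat-face lemma (greedy family in an almost common face + Brouwer)
-/

set_option autoImplicit false

open Set Filter Topology Metric

noncomputable section

namespace Crest.Agent.R74.F18

variable {X Y : Type*} [NormedAddCommGroup X] [NormedSpace ℝ X]
  [NormedAddCommGroup Y] [NormedSpace ℝ Y]

theorem sph_norm (p : sphere (0 : X) 1) : ‖(p : X)‖ = 1 := by simpa using p.2

theorem sph_far (p : sphere (0 : X) 1) (z : X) : 1 - ‖z‖ ≤ ‖(p : X) - z‖ := by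
  have := norm_sub_norm_le (p : X) z
  rw [sph_norm] at this; exact this

theorem iso_norm {f : sphere (0 : X) 1 → sphere (0 : Y) 1} (hf : Isometry f)
    (p q : sphere (0 : X) 1) : ‖(f p : Y) - f q‖ = ‖(p : X) - q‖ := by
  have := hf.dist_eq p q
  rwa [Subtype.dist_eq, Subtype.dist_eq, dist_eq_norm, dist_eq_norm] at this

/-- continuous opposite point -/
theorem face_opp (w : Y) (hw : ‖w‖ < 1) :
    ∃ o : sphere (0 : Y) 1 → sphere (0 : Y) 1, Continuous o ∧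
      ∀ p, ∃ r : ℝ, 0 < r ∧ (o p : Y) = w + r • (w - p) := by
  obtain ⟨g, hg, hg'⟩ := face_exit w hw
  have hne : ∀ p : sphere (0 : Y) 1, w - p ≠ 0 := fun p h => by
    have := sph_norm p
    rw [sub_eq_zero] at h
    rw [← h] at this; linarith
  refine ⟨fun p => ⟨w + (g (w - p))⁻¹ • (w - p), by simpa using (hg' _ (hne p)).2⟩, ?_,
    fun p => ⟨(g (w - p))⁻¹, inv_pos.2 (hg' _ (hne p)).1, rfl⟩⟩
  refine Continuous.subtype_mk ?_ _
  have h1 : Continuous fun p : sphere (0 : Y) 1 => w - (p : Y) := by fun_prop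
  exact continuous_const.add (((hg.comp h1).inv₀ fun p => (hg' _ (hne p)).1.ne').smul h1)

theorem opp_norm (w p o : Y) (r : ℝ) (hr : 0 < r) (h : o = w + r • (w - p)) :
    ‖p - o‖ = ‖p - w‖ + ‖o - w‖ := by
  have h1 : p - o = (1 + r) • (p - w) := by rw [h]; module
  have h2 : o - w = (-r) • (p - w) := by rw [h]; module
  rw [h1, h2, norm_smul, norm_smul, Real.norm_eq_abs, Real.norm_eq_abs, abs_neg,
    abs_of_pos hr, abs_of_pos (by linarith)]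
  ring

theorem phi_le (φ : X →L[ℝ] ℝ) (hφ : ‖φ‖ ≤ 1) (x : X) : φ x ≤ ‖x‖ := by
  have := φ.le_opNorm x
  rw [Real.norm_eq_abs] at this
  nlinarith [le_abs_self (φ x), norm_nonneg x]

theorem face_step {f : sphere (0 : X) 1 → sphere (0 : Y) 1} (hf : Isometry f) (z : X) (w : Y)
    (hz : ‖z‖ < 1) (ρ : ℝ) (hup : ∀ p : sphere (0 : X) 1, |‖(p : X) - z‖ - ‖(f p : Y) - w‖| ≤ ρ)
    (δ : ℝ) (hδ : 0 < δ) (φ : X →L[ℝ] ℝ) (hφ : ‖φ‖ ≤ 1) (q p q' : sphere (0 : X) 1)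
    (h1 : ρ - δ ≤ ‖(q : X) - z‖ - ‖(f q : Y) - w‖) (h2 : ‖(q : X) - z‖ - δ ≤ φ (z - q))
    (h3 : (1 - δ) * ‖(p : X) - z‖ ≤ φ (p - z))
    (h4 : ‖(f p : Y) - f q'‖ = ‖(f p : Y) - w‖ + ‖(f q' : Y) - w‖) :
    ρ - 4 * δ ≤ ‖(f p : Y) - w‖ - ‖(p : X) - z‖ ∧
    ρ - 4 * δ ≤ ‖(q' : X) - z‖ - ‖(f q' : Y) - w‖ ∧
    ∃ φ' : X →L[ℝ] ℝ, ‖φ'‖ ≤ 1 ∧ ‖(q' : X) - z‖ - 4 * δ ≤ φ' (z - q') ∧
      ‖(p : X) - z‖ - 4 * δ ≤ φ' (p - z) := by
  have ha : ‖(p : X) - z‖ ≤ 2 := by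
    have := norm_sub_le (p : X) z
    rw [sph_norm] at this; linarith
  have e1 : φ ((p : X) - q) = φ (p - z) + φ (z - q) := by rw [← map_add]; congr 1; abel
  have e2 := phi_le φ hφ ((p : X) - q)
  have e3 := iso_norm hf p q
  have e4 : ‖(f p : Y) - f q‖ ≤ ‖(f p : Y) - w‖ + ‖(f q : Y) - w‖ := by
    have := norm_sub_le ((f p : Y) - w) ((f q : Y) - w)
    rwa [sub_sub_sub_cancel_right] at this
  have i1 : ρ - 4 * δ ≤ ‖(f p : Y) - w‖ - ‖(p : X) - z‖ := by nlinarith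
  have e5 := iso_norm hf p q'
  have e6 : ‖(p : X) - q'‖ ≤ ‖(p : X) - z‖ + ‖(q' : X) - z‖ := by
    have := norm_sub_le ((p : X) - z) ((q' : X) - z)
    rwa [sub_sub_sub_cancel_right] at this
  refine ⟨i1, by linarith, ?_⟩
  obtain ⟨φ', hφ', hφ''⟩ := exists_dual_vector'' ℝ ((p : X) - q')
  have e7 : φ' ((p : X) - q') = φ' (p - z) + φ' (z - q') := by rw [← map_add]; congr 1; abel
  have e8 := phi_le φ' hφ' ((p : X) - z)
  have e9 := phi_le φ' hφ' (z - (q' : X))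
  rw [norm_sub_rev z] at e9
  have e10 := (abs_le.1 (hup q')).2
  simp only [RCLike.ofReal_real_eq_id, id_eq] at hφ''
  exact ⟨φ', hφ', by linarith, by linarith⟩

end Crest.Agent.R74.F18
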