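import Crest.Agent.R332.Vi

/-!
# Row 74: the flat-face lemma (greedy face + Brouwer), without ultrapowers
-/

set_option autoImplicit false

open Set Metric

noncomputable section

namespace Crest.Agent.R74

theorem face_simplex_fix {n : ℕ} (hn : 0 < n) (F : (Fin n → ℝ) → (Fin n → ℝ))
    (hF : ContinuousOn F (stdSimplex ℝ (Fin n)))
    (hm : ∀ θ ∈ stdSimplex ℝ (Fin n), F θ ∈ stdSimplex ℝ (Fin n)) :
    ∃ θ ∈ stdSimplex ℝ (Fin n), F θ = θ := by
  have : Nonempty (Fin n) := ⟨⟨0, hn⟩⟩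
  have hne : (stdSimplex ℝ (Fin n)).Nonempty := ⟨_, single_mem_stdSimplex ℝ (⟨0, hn⟩ : Fin n)⟩
  obtain ⟨θ, hθ, h⟩ := Crest.Agent.R332.Vi.vi_dual (E := Fin n → ℝ) (isCompact_stdSimplex ℝ (Fin n))
    (convex_stdSimplex ℝ (Fin n)) hne
    (l := fun θ => ∑ i, (F θ i - θ i) • (ContinuousLinearMap.proj i : (Fin n → ℝ) →L[ℝ] ℝ))
    (continuousOn_finsetSum _ fun i _ =>
      ContinuousOn.smul (((continuous_apply i).comp_continuousOn hF).sub
        (continuous_apply i).continuousOn) continuousOn_const)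
  refine ⟨θ, hθ, ?_⟩
  have h1 := h (F θ) (hm θ hθ)
  simp only [ContinuousLinearMap.sum_apply, ContinuousLinearMap.smul_apply,
    ContinuousLinearMap.proj_apply, Pi.sub_apply, smul_eq_mul] at h1
  have h2 : ∑ i, (F θ i - θ i) * (F θ i - θ i) = 0 :=
    le_antisymm h1 (Finset.sum_nonneg fun i _ => mul_self_nonneg _)
  funext i
  have := (Finset.sum_eq_zero_iff_of_nonneg fun i _ => mul_self_nonneg (F θ i - θ i)).1 h2 i
    (Finset.mem_univ i)
  have := mul_self_eq_zero.1 this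
  linarith

variable {X : Type*} [NormedAddCommGroup X] [NormedSpace ℝ X]

theorem face_norm_sum_le {n : ℕ} (g : Fin n → X) (hg : ∀ i, ‖g i‖ = 1) (c : Fin n → ℝ)
    (hc : ∀ i, 0 ≤ c i) : ‖∑ i, c i • g i‖ ≤ ∑ i, c i := by
  refine (norm_sum_le _ _).trans (le_of_eq (Finset.sum_congr rfl fun i _ => ?_))
  rw [norm_smul, hg i, Real.norm_of_nonneg (hc i), mul_one]

theorem face_core (C : ℝ) (hC : 0 ≤ C) (T : X → X) (l : X → ℝ)
    (hT : ContinuousOn T (sphere 0 1)) (hTs : ∀ u, ‖u‖ = 1 → ‖T u‖ = 1)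
    (h2 : ∀ u, ‖u‖ = 1 → 2 - C * l u ≤ ‖u + T u‖)
    (h3 : ∀ u v, ‖u‖ = 1 → ‖v‖ = 1 → l u ≤ l v + C * (2 - ‖u + T v‖))
    (h4 : ∀ e > 0, ∃ u, ‖u‖ = 1 ∧ l u ≤ e)
    {E : Type*} [PseudoMetricSpace E] (J : X → E) (hJ : Continuous J)
    {K : Type*} [Finite K] (κ : X → K) (ε : ℝ)
    (hκ : ∀ u v, ‖u‖ = 1 → ‖v‖ = 1 → κ u = κ v → dist (J u) (J v) < ε)
    (τ : ℝ) (hτ : 0 < τ) (hτ2 : τ ≤ 1 / 2) (e : ℝ) (he : 0 < e) :
    ∃ (n : ℕ) (g : Fin n → X) (θ : Fin n → ℝ) (u : X), 0 < n ∧ ‖u‖ = 1 ∧ l u ≤ e ∧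
      (∀ i, ‖g i‖ = 1) ∧ θ ∈ stdSimplex ℝ (Fin n) ∧
      (∀ i, θ i ≠ 0 → dist (J (T u)) (J (g i)) < ε) ∧
      ‖u - ∑ i, (τ / n + (1 - τ) * θ i) • g i‖ ≤ e := by
  classical
  let P : ℕ → Prop := fun n => ∀ δ > 0, ∃ (g : Fin n → X) (v : X), ‖v‖ = 1 ∧ l v ≤ δ ∧
    (∀ i, ‖g i‖ = 1) ∧ ((n : ℝ) + 1 - δ ≤ ‖T v + ∑ i, g i‖) ∧ Function.Injective (κ ∘ g)
  have hP1 : P 1 := by
    intro δ hδ
    obtain ⟨v, hv, hlv⟩ := h4 δ hδ
    refine ⟨fun _ => T v, v, hv, hlv, fun _ => hTs v hv, ?_, fun a b _ => Subsingleton.elim a b⟩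
    have : T v + ∑ _i : Fin 1, T v = (2 : ℝ) • T v := by simp [two_smul]
    rw [this, norm_smul, hTs v hv]
    simp
    linarith
  obtain ⟨n, hn, hPn, hPn1⟩ : ∃ n, 0 < n ∧ P n ∧ ¬ P (n + 1) := by
    by_contra hcon
    push Not at hcon
    have hall : ∀ n, P (n + 1) := by
      intro n
      induction n with
      | zero => exact hP1
      | succ k ih => exact hcon (k + 1) (Nat.succ_pos k) ih
    have := Fintype.ofFinite K
    obtain ⟨g, v, -, -, -, -, hinj⟩ := hall (Fintype.card K) 1 one_pos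
    have := Fintype.card_le_of_injective _ hinj
    simp at this
  simp only [P] at hPn1
  push Not at hPn1
  obtain ⟨δ1, hδ1, hno⟩ := hPn1
  have hnR : (1 : ℝ) ≤ n := by exact_mod_cast hn
  set m : ℝ := τ / n with hm
  have hm0 : 0 < m := by positivity
  have hnm : (n : ℝ) * m = τ := by rw [hm]; field_simp
  have hm2 : m ≤ 1 / 2 := by nlinarith
  set C1 : ℝ := 1 + 2 * C with hC1
  set C2 : ℝ := C * C1 + 1 with hC2
  have hC1p : 1 ≤ C1 := by linarith
  have hC2p : 1 ≤ C2 := by nlinarith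
  obtain ⟨δ, hδ, hδa, hδb, hδc, hδd⟩ : ∃ δ > 0, δ ≤ 1 / 2 ∧ C1 * δ ≤ δ1 ∧ C1 * δ ≤ e ∧
      C2 * δ ≤ m * δ1 := by
    refine ⟨min (min (1 / 2) (δ1 / C1)) (min (e / C1) (m * δ1 / C2)), by positivity,
      (min_le_left _ _).trans (min_le_left _ _), ?_, ?_, ?_⟩
    · rw [mul_comm, ← le_div_iff₀ (by linarith)]
      exact (min_le_left _ _).trans (min_le_right _ _)
    · rw [mul_comm, ← le_div_iff₀ (by linarith)]
      exact (min_le_right _ _).trans (min_le_left _ _)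
    · rw [mul_comm, ← le_div_iff₀ (by linarith)]
      exact (min_le_right _ _).trans (min_le_right _ _)
  obtain ⟨g, v, hv, hlv, hg, hsum, hinj⟩ := hPn δ hδ
  let ω : (Fin n → ℝ) → Fin n → ℝ := fun θ i => m + (1 - τ) * θ i
  let y : (Fin n → ℝ) → X := fun θ => ∑ i, ω θ i • g i
  let U : (Fin n → ℝ) → X := fun θ => ‖y θ‖⁻¹ • y θ
  have hωs : ∀ θ ∈ stdSimplex ℝ (Fin n), ∑ i, ω θ i = 1 := by
    intro θ hθ
    simp only [ω, Finset.sum_add_distrib, Finset.sum_const, Finset.card_univ, Fintype.card_fin,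
      nsmul_eq_mul, ← Finset.mul_sum, hθ.2]
    linarith
  have hωm : ∀ θ ∈ stdSimplex ℝ (Fin n), ∀ i, m ≤ ω θ i := by
    intro θ hθ i
    have := mul_nonneg (show 0 ≤ 1 - τ by linarith) (hθ.1 i)
    simp only [ω]; linarith
  have hω1 : ∀ θ ∈ stdSimplex ℝ (Fin n), ∀ i, ω θ i ≤ 1 := by
    intro θ hθ i
    rw [← hωs θ hθ]
    exact Finset.single_le_sum (f := ω θ) (fun j _ => hm0.le.trans (hωm θ hθ j)) (Finset.mem_univ i)
  have hy1 : ∀ θ ∈ stdSimplex ℝ (Fin n), ‖y θ‖ ≤ 1 := fun θ hθ =>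
    (face_norm_sum_le g hg _ fun i => hm0.le.trans (hωm θ hθ i)).trans (hωs θ hθ).le
  have hy2 : ∀ θ ∈ stdSimplex ℝ (Fin n), 2 - δ ≤ ‖y θ + T v‖ := by
    intro θ hθ
    have e1 : T v + ∑ i, g i = (y θ + T v) + ∑ i, (1 - ω θ i) • g i := by
      simp only [y, sub_smul, one_smul, Finset.sum_sub_distrib]; abel
    have e2 := face_norm_sum_le g hg (fun i => 1 - ω θ i) fun i => by linarith [hω1 θ hθ i]
    simp only [Finset.sum_sub_distrib, Finset.sum_const, Finset.card_univ, Fintype.card_fin,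
      nsmul_eq_mul, mul_one, hωs θ hθ] at e2
    have e3 := norm_add_le (y θ + T v) (∑ i, (1 - ω θ i) • g i)
    rw [← e1] at e3
    linarith
  have hy3 : ∀ θ ∈ stdSimplex ℝ (Fin n), 1 - δ ≤ ‖y θ‖ := by
    intro θ hθ
    have := norm_add_le (y θ) (T v)
    rw [hTs v hv] at this
    linarith [hy2 θ hθ]
  have hy0 : ∀ θ ∈ stdSimplex ℝ (Fin n), 0 < ‖y θ‖ := fun θ hθ => by linarith [hy3 θ hθ]
  have hU1 : ∀ θ ∈ stdSimplex ℝ (Fin n), ‖U θ‖ = 1 := by
    intro θ hθ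
    simp only [U]
    rw [norm_smul, norm_inv, norm_norm, inv_mul_cancel₀ (hy0 θ hθ).ne']
  have hU2 : ∀ θ ∈ stdSimplex ℝ (Fin n), ‖U θ - y θ‖ ≤ δ := by
    intro θ hθ
    have e1 : U θ - y θ = (1 - ‖y θ‖) • U θ := by
      simp only [U]
      rw [sub_smul, one_smul, smul_smul, mul_inv_cancel₀ (hy0 θ hθ).ne', one_smul]
    rw [e1, norm_smul, hU1 θ hθ, Real.norm_of_nonneg (by linarith [hy1 θ hθ])]
    linarith [hy3 θ hθ]
  have hU3 : ∀ θ ∈ stdSimplex ℝ (Fin n), l (U θ) ≤ C1 * δ := by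
    intro θ hθ
    have e1 : 2 - 2 * δ ≤ ‖U θ + T v‖ := by
      have := norm_sub_le (U θ + T v) (U θ - y θ)
      rw [show U θ + T v - (U θ - y θ) = y θ + T v by abel] at this
      linarith [hy2 θ hθ, hU2 θ hθ]
    have e2 := h3 (U θ) v (hU1 θ hθ) hv
    have e3 : C * (2 - ‖U θ + T v‖) ≤ C * (2 * δ) := mul_le_mul_of_nonneg_left (by linarith) hC
    rw [hC1]; linarith
  have hU4 : ∀ θ ∈ stdSimplex ℝ (Fin n), ∃ i, κ (g i) = κ (T (U θ)) := by
    intro θ hθ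
    have hTU := hTs _ (hU1 θ hθ)
    have e1 : 2 - C2 * δ ≤ ‖y θ + T (U θ)‖ := by
      have a1 := h2 _ (hU1 θ hθ)
      have a2 : C * l (U θ) ≤ C * (C1 * δ) := mul_le_mul_of_nonneg_left (hU3 θ hθ) hC
      have a3 := norm_add_le (y θ + T (U θ)) (U θ - y θ)
      rw [show y θ + T (U θ) + (U θ - y θ) = U θ + T (U θ) by abel] at a3
      rw [hC2]; linarith [hU2 θ hθ]
    have e2 : y θ + T (U θ) = m • (T (U θ) + (T (U θ) + ∑ i, g i)) +
        (∑ i, (ω θ i - m) • g i + (1 - 2 * m) • T (U θ)) := by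
      simp only [y, sub_smul, Finset.sum_sub_distrib, smul_add, Finset.smul_sum, one_smul, mul_smul,
        two_smul]
      abel
    have e3 := face_norm_sum_le g hg (fun i => ω θ i - m) fun i => by linarith [hωm θ hθ i]
    simp only [Finset.sum_sub_distrib, Finset.sum_const, Finset.card_univ, Fintype.card_fin,
      nsmul_eq_mul, hωs θ hθ] at e3
    have e4 : ‖(1 - 2 * m) • T (U θ)‖ = 1 - 2 * m := by
      rw [norm_smul, hTU, Real.norm_of_nonneg (by linarith), mul_one]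
    have e5 := norm_add_le (m • (T (U θ) + (T (U θ) + ∑ i, g i)))
      (∑ i, (ω θ i - m) • g i + (1 - 2 * m) • T (U θ))
    have e6 := norm_add_le (∑ i, (ω θ i - m) • g i) ((1 - 2 * m) • T (U θ))
    rw [← e2, norm_smul, Real.norm_of_nonneg hm0.le] at e5
    have e7 : ((n + 1 : ℕ) : ℝ) + 1 - δ1 ≤ ‖T (U θ) + (T (U θ) + ∑ i, g i)‖ := by
      push_cast
      refine le_of_mul_le_mul_left ?_ hm0
      nlinarith
    have e8 := hno (Fin.cons (T (U θ)) g : Fin (n + 1) → X) (U θ) (hU1 θ hθ)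
      ((hU3 θ hθ).trans hδb) (fun i => by
        refine Fin.cases ?_ (fun j => ?_) i
        · simpa using hTU
        · simpa using hg j) (by rw [Fin.sum_cons]; exact e7)
    rw [Fin.comp_cons, Fin.cons_injective_iff] at e8
    by_contra hcon
    push Not at hcon
    exact e8 ⟨fun ⟨i, hi⟩ => hcon i hi, hinj⟩
  have hyc : Continuous y := by
    simp only [y, ω]
    fun_prop
  have hUc : ContinuousOn U (stdSimplex ℝ (Fin n)) :=
    ContinuousOn.smul (hyc.norm.continuousOn.inv₀ fun θ hθ => (hy0 θ hθ).ne') hyc.continuousOn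
  have hTUc : ContinuousOn (fun θ => J (T (U θ))) (stdSimplex ℝ (Fin n)) :=
    hJ.comp_continuousOn (hT.comp hUc fun θ hθ => by simpa using hU1 θ hθ)
  let lam : (Fin n → ℝ) → Fin n → ℝ := fun θ i => max 0 (ε - dist (J (T (U θ))) (J (g i)))
  have hlc : ∀ i, ContinuousOn (fun θ => lam θ i) (stdSimplex ℝ (Fin n)) := fun i =>
    ContinuousOn.sup continuousOn_const
      (continuousOn_const.sub (continuous_dist.comp_continuousOn (hTUc.prodMk continuousOn_const)))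
  have hl0 : ∀ θ i, 0 ≤ lam θ i := fun θ i => le_max_left _ _
  have hlp : ∀ θ ∈ stdSimplex ℝ (Fin n), 0 < ∑ i, lam θ i := by
    intro θ hθ
    obtain ⟨i, hi⟩ := hU4 θ hθ
    have := hκ _ _ (hTs _ (hU1 θ hθ)) (hg i) hi.symm
    exact Finset.sum_pos' (fun j _ => hl0 θ j) ⟨i, Finset.mem_univ i,
      lt_max_of_lt_right (by linarith)⟩
  obtain ⟨θ, hθ, hfix⟩ := face_simplex_fix hn (fun θ i => lam θ i / ∑ j, lam θ j)
    (continuousOn_pi.2 fun i => (hlc i).div (continuousOn_finsetSum _ fun j _ => hlc j)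
      fun θ hθ => (hlp θ hθ).ne')
    (fun θ hθ => ⟨fun i => div_nonneg (hl0 θ i) (hlp θ hθ).le, by
      rw [← Finset.sum_div, div_self (hlp θ hθ).ne']⟩)
  refine ⟨n, g, θ, U θ, hn, hU1 θ hθ, (hU3 θ hθ).trans hδc, hg, hθ, fun i hi => ?_, ?_⟩
  · by_contra hcon
    push Not at hcon
    apply hi
    have : lam θ i / ∑ j, lam θ j = θ i := congrFun hfix i
    rw [← this, show lam θ i = 0 from max_eq_left (by linarith), zero_div]
  · refine (hU2 θ hθ).trans ?_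
    nlinarith

theorem face_fix (h : X) (M C : ℝ) (hC : 0 ≤ C) (T : X → X) (l : X → ℝ)
    (hT : ContinuousOn T (sphere 0 1)) (hTs : ∀ u, ‖u‖ = 1 → ‖T u‖ = 1)
    (h2 : ∀ u, ‖u‖ = 1 → 2 - C * l u ≤ ‖u + T u‖)
    (h3 : ∀ u v, ‖u‖ = 1 → ‖v‖ = 1 → l u ≤ l v + C * (2 - ‖u + T v‖))
    (h4 : ∀ e > 0, ∃ u, ‖u‖ = 1 ∧ l u ≤ e) :
    ∀ e > 0, ∃ u, ‖u‖ = 1 ∧ l u ≤ e ∧
      ∀ x ∈ Icc (-M) M, ‖u + x • h‖ ≤ ‖T u + x • h‖ + e := by
  classical
  intro e he
  set η : ℝ := min (e / 8) (1 / 2) with hη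
  have hη0 : 0 < η := by positivity
  have hηe : η ≤ e / 8 := min_le_left _ _
  have hr : 0 < η / (‖h‖ + 1) := by positivity
  obtain ⟨G, -, hGf, hGc⟩ := finite_cover_balls_of_compact (isCompact_Icc (a := -M) (b := M)) hr
  have : Fintype G := hGf.fintype
  let J : X → (G → ℝ) := fun u x => ‖u + (x : ℝ) • h‖
  have hJ : Continuous J := by
    simp only [J]
    fun_prop
  obtain ⟨W, -, hWf, hWc⟩ := finite_cover_balls_of_compact
    (isCompact_closedBall (J 0) 1) (half_pos hη0)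
  have hex : ∀ u : X, ∃ w : Option W, ‖u‖ = 1 → ∃ w' : W, w = some w' ∧
      dist (J u) (w' : G → ℝ) < η / 2 := by
    intro u
    by_cases hu : ‖u‖ = 1
    · have : J u ∈ closedBall (J 0) 1 := by
        rw [mem_closedBall, dist_pi_le_iff zero_le_one]
        intro x
        simp only [J, Real.dist_eq]
        have := abs_norm_sub_norm_le (u + (x : ℝ) • h) (0 + (x : ℝ) • h)
        rwa [show u + (x : ℝ) • h - (0 + (x : ℝ) • h) = u by abel, hu] at this
      obtain ⟨w, hw, hw'⟩ := mem_iUnion₂.1 (hWc this)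
      exact ⟨some ⟨w, hw⟩, fun _ => ⟨⟨w, hw⟩, rfl, hw'⟩⟩
    · exact ⟨none, fun h => absurd h hu⟩
  choose κ hκ using hex
  have : Finite W := hWf.to_subtype
  obtain ⟨n, g, θ, u, hn, hu, hlu, hg, hθ, hcl, hy⟩ := face_core C hC T l hT hTs h2 h3 h4 J hJ κ η
    (fun u v hu hv huv => by
      obtain ⟨w, hw, hw'⟩ := hκ u hu
      obtain ⟨w2, hw2, hw2'⟩ := hκ v hv
      have : w = w2 := Option.some_injective _ (hw.symm.trans (huv.trans hw2))
      subst this
      have := dist_triangle_right (J u) (J v) (w : G → ℝ)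
      linarith) η hη0 (min_le_right _ _) η hη0
  refine ⟨u, hu, by linarith, fun x hx => ?_⟩
  have hnR : (0 : ℝ) < n := by exact_mod_cast hn
  have hη1 : η ≤ 1 / 2 := min_le_right _ _
  obtain ⟨x0, hx0, hxx⟩ := mem_iUnion₂.1 (hGc hx)
  have hsh : ∀ a : X, |‖a + x • h‖ - ‖a + x0 • h‖| ≤ η := by
    intro a
    refine (abs_norm_sub_norm_le _ _).trans ?_
    rw [show a + x • h - (a + x0 • h) = (x - x0) • h by rw [sub_smul]; abel, norm_smul]
    have h1 : ‖x - x0‖ < η / (‖h‖ + 1) := by simpa [mem_ball, dist_eq_norm] using hxx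
    rw [lt_div_iff₀ (by positivity)] at h1
    nlinarith [norm_nonneg (x - x0), norm_nonneg h]
  set B := ‖T u + x0 • h‖ with hB
  have hωs : ∑ i, (η / n + (1 - η) * θ i) = 1 := by
    simp only [Finset.sum_add_distrib, Finset.sum_const, Finset.card_univ, Fintype.card_fin,
      nsmul_eq_mul, ← Finset.mul_sum, hθ.2]
    field_simp
    ring
  have k1 : ‖∑ i, (η / n + (1 - η) * θ i) • g i + x0 • h‖ ≤ B + 3 * η := by
    have e1 : ∑ i, (η / n + (1 - η) * θ i) • g i + x0 • h =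
        ∑ i, (η / n + (1 - η) * θ i) • (g i + x0 • h) := by
      simp only [smul_add, Finset.sum_add_distrib (f := fun i => (η / n + (1 - η) * θ i) • g i),
        ← Finset.sum_smul, hωs, one_smul]
    rw [e1]
    refine (norm_sum_le _ _).trans ?_
    have e2 : ∀ i, ‖(η / n + (1 - η) * θ i) • (g i + x0 • h)‖ ≤
        η / n * (B + 2) + (1 - η) * θ i * (B + η) := by
      intro i
      have p1 : 0 ≤ (1 - η) * θ i := mul_nonneg (by linarith) (hθ.1 i)
      have p2 : 0 ≤ η / n := by positivity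
      rw [norm_smul, Real.norm_of_nonneg (by linarith), add_mul]
      refine add_le_add (mul_le_mul_of_nonneg_left ?_ p2) ?_
      · have := norm_add_le (T u + x0 • h) (g i - T u)
        rw [show T u + x0 • h + (g i - T u) = g i + x0 • h by abel] at this
        have := norm_sub_le (g i) (T u)
        rw [hg i, hTs u hu] at this
        linarith
      · by_cases hi : θ i = 0
        · simp [hi]
        · refine mul_le_mul_of_nonneg_left ?_ p1
          have := (dist_le_pi_dist (J (T u)) (J (g i)) ⟨x0, hx0⟩).trans_lt (hcl i hi)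
          simp only [J, Real.dist_eq] at this
          linarith [(abs_lt.1 this).1]
    refine (Finset.sum_le_sum fun i _ => e2 i).trans ?_
    simp only [Finset.sum_add_distrib, Finset.sum_const, Finset.card_univ, Fintype.card_fin,
      nsmul_eq_mul, ← Finset.sum_mul, ← Finset.mul_sum, hθ.2]
    have : (n : ℝ) * (η / n * (B + 2)) = η * (B + 2) := by field_simp
    rw [this]
    nlinarith
  have k2 := norm_add_le (∑ i, (η / n + (1 - η) * θ i) • g i + x0 • h)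
    (u - ∑ i, (η / n + (1 - η) * θ i) • g i)
  rw [show ∑ i, (η / n + (1 - η) * θ i) • g i + x0 • h + (u - ∑ i, (η / n + (1 - η) * θ i) • g i)
    = u + x0 • h by abel] at k2
  have k3 := (abs_le.1 (hsh u)).2
  have k4 := (abs_le.1 (hsh (T u))).1
  linarith

end Crest.Agent.R74
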