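import Crest.Agent.R74.FaceH17
import Crest.Agent.R74.ExitG

set_option autoImplicit false

namespace Crest.Agent.R74.H17

open Metric Set

variable {X Y : Type*} [NormedAddCommGroup X] [NormedSpace ℝ X]
  [NormedAddCommGroup Y] [NormedSpace ℝ Y]

lemma lemA (u v : X) (hu : ‖u‖ = 1) (hv : ‖v‖ = 1) (a b S : ℝ) (hS : 0 ≤ S) (ha : S ≤ a)
    (hb : S ≤ b) : ‖a • u + b • v‖ ≤ S * ‖u + v‖ + (a - S) + (b - S) := by
  have e : a • u + b • v = S • (u + v) + (a - S) • u + (b - S) • v := by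
    rw [smul_add, sub_smul, sub_smul]; abel
  rw [e]
  refine norm_add₃_le.trans (le_of_eq ?_)
  rw [norm_smul, norm_smul, norm_smul, hu, hv, Real.norm_of_nonneg hS,
    Real.norm_of_nonneg (by linarith : 0 ≤ a - S), Real.norm_of_nonneg (by linarith : 0 ≤ b - S)]
  ring

lemma lemB (u v : X) (hu : ‖u‖ = 1) (hv : ‖v‖ = 1) (a b : ℝ) (ha : a ≤ 2)
    (hb : b ≤ 2) : 2 * ‖u + v‖ ≤ ‖a • u + b • v‖ + (2 - a) + (2 - b) := by
  have e : (2 : ℝ) • (u + v) = (a • u + b • v) + (2 - a) • u + (2 - b) • v := by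
    rw [smul_add, sub_smul, sub_smul]; abel
  have e2 : ‖(2 : ℝ) • (u + v)‖ = 2 * ‖u + v‖ := by rw [norm_smul]; simp
  rw [← e2, e]
  refine norm_add₃_le.trans (le_of_eq ?_)
  rw [norm_smul, norm_smul, hu, hv,
    Real.norm_of_nonneg (by linarith : 0 ≤ 2 - a), Real.norm_of_nonneg (by linarith : 0 ≤ 2 - b)]
  ring

lemma sub_ne (z : X) (hz : ‖z‖ < 1) (q : sphere (0 : X) 1) : z - (q : X) ≠ 0 := by
  intro h0
  have hq : ‖(q : X)‖ = 1 := mem_sphere_zero_iff_norm.mp q.2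
  rw [sub_eq_zero] at h0
  rw [h0, hq] at hz
  exact lt_irrefl _ hz

lemma bnd (z : X) (hz : ‖z‖ < 1) (q : sphere (0 : X) 1) :
    1 - ‖z‖ ≤ ‖(q : X) - z‖ ∧ ‖(q : X) - z‖ ≤ 2 := by
  have hq : ‖(q : X)‖ = 1 := mem_sphere_zero_iff_norm.mp q.2
  have h1 := norm_sub_norm_le (q : X) z
  have h2 := norm_sub_le (q : X) z
  constructor <;> linarith

/-- exit point in a unit direction -/
lemma exitP (z : X) (hz : ‖z‖ < 1) : ∃ p : sphere (0 : X) 1 → sphere (0 : X) 1, Continuous p ∧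
    ∀ u, (p u : X) = z + ‖(p u : X) - z‖ • (u : X) := by
  obtain ⟨m, hm, hm2⟩ := exit_gauge z hz
  have hne : ∀ u : sphere (0 : X) 1, (u : X) ≠ 0 := fun u => ne_zero_of_mem_unit_sphere u
  refine ⟨fun u => ⟨z + m u • (u : X), mem_sphere_zero_iff_norm.mpr (hm2 u (hne u)).2⟩, ?_, ?_⟩
  · apply Continuous.subtype_mk
    have : Continuous fun u : sphere (0 : X) 1 => m u :=
      hm.comp_continuous continuous_subtype_val (fun u => hne u)
    exact continuous_const.add (this.smul continuous_subtype_val)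
  · intro u
    have hu : ‖(u : X)‖ = 1 := mem_sphere_zero_iff_norm.mp u.2
    show z + m u • (u : X) = z + ‖z + m u • (u : X) - z‖ • (u : X)
    rw [add_sub_cancel_left, norm_smul, hu, mul_one, Real.norm_of_nonneg (hm2 u (hne u)).1.le]

/-- direction from a sphere point to an inner point -/
noncomputable def dirTo (z : X) (hz : ‖z‖ < 1) (q : sphere (0 : X) 1) : sphere (0 : X) 1 :=
  ⟨‖z - (q : X)‖⁻¹ • (z - (q : X)), by
    rw [mem_sphere_zero_iff_norm, norm_smul, norm_inv, norm_norm]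
    exact inv_mul_cancel₀ (norm_ne_zero_iff.mpr (sub_ne z hz q))⟩

lemma dirTo_cont (z : X) (hz : ‖z‖ < 1) : Continuous (dirTo z hz) := by
  apply Continuous.subtype_mk
  have h1 : Continuous fun q : sphere (0 : X) 1 => z - (q : X) :=
    continuous_const.sub continuous_subtype_val
  exact (h1.norm.inv₀ fun q => norm_ne_zero_iff.mpr (sub_ne z hz q)).smul h1

lemma dirTo_spec (z : X) (hz : ‖z‖ < 1) (q : sphere (0 : X) 1) :
    (q : X) = z - ‖(q : X) - z‖ • (dirTo z hz q : X) := by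
  show (q : X) = z - ‖(q : X) - z‖ • (‖z - (q : X)‖⁻¹ • (z - (q : X)))
  rw [norm_sub_rev, smul_smul, mul_inv_cancel₀ (norm_ne_zero_iff.mpr (sub_ne z hz q)), one_smul]
  abel

lemma colin (z : X) (p q u : X) (hu : ‖u‖ = 1) (hp : p = z + ‖p - z‖ • u)
    (hq : q = z - ‖q - z‖ • u) : ‖p - q‖ = ‖p - z‖ + ‖q - z‖ := by
  have : p - q = (‖p - z‖ + ‖q - z‖) • u := by
    conv_lhs => rw [hp, hq]
    rw [add_smul]; abel
  rw [this, norm_smul, hu, mul_one, Real.norm_of_nonneg (by positivity)]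

lemma tri (z p q : X) : ‖p - q‖ ≤ ‖p - z‖ + ‖q - z‖ := by
  have : p - q = (p - z) - (q - z) := by abel
  rw [this]; exact norm_sub_le _ _

theorem face (f : sphere (0 : X) 1 → sphere (0 : Y) 1) (hf : Isometry f)
    (hs : Function.Surjective f) (z : X) (w : Y) (hz : ‖z‖ < 1) (hw : ‖w‖ < 1) (rho : ℝ)
    (hup : ∀ p : sphere (0 : X) 1, |‖(p : X) - z‖ - ‖(f p : Y) - w‖| ≤ rho)
    (hap : ∀ d > 0, ∃ p : sphere (0 : X) 1, rho - d ≤ |‖(p : X) - z‖ - ‖(f p : Y) - w‖|)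
    (h : X) (M eps : ℝ) (heps : 0 < eps) :
    ∃ (p q : sphere (0 : X) 1) (a b a1 b1 : ℝ) (u1 u2 : X) (v : Y),
      ‖u1‖ = 1 ∧ ‖u2‖ = 1 ∧ ‖v‖ = 1 ∧ 0 < a ∧ 0 < b ∧ 0 < a1 ∧ 0 < b1 ∧
      (p : X) = z + a • u1 ∧ (q : X) = z - b • u2 ∧ (f p : Y) = w + a1 • v ∧
      (f q : Y) = w - b1 • v ∧ a + rho - eps ≤ a1 ∧ b1 + rho - eps ≤ b ∧
      ∀ x : ℝ, |x| ≤ M → ‖u1 + x • h‖ ≤ ‖u2 + x • h‖ + eps := by
  classical
  let E : sphere (0 : X) 1 ≃ᵢ sphere (0 : Y) 1 := ⟨Equiv.ofBijective f ⟨hf.injective, hs⟩, hf⟩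
  have hE : ∀ y, f (E.symm y) = y := fun y => E.apply_symm_apply y
  have hdist : ∀ p q : sphere (0 : X) 1, ‖(f p : Y) - (f q : Y)‖ = ‖(p : X) - (q : X)‖ := by
    intro p q
    have := hf.dist_eq p q
    rwa [Subtype.dist_eq, Subtype.dist_eq, dist_eq_norm, dist_eq_norm] at this
  have hn1 : ∀ u : sphere (0 : X) 1, ‖(u : X)‖ = 1 := fun u => mem_sphere_zero_iff_norm.mp u.2
  have hn2 : ∀ u : sphere (0 : Y) 1, ‖(u : Y)‖ = 1 := fun u => mem_sphere_zero_iff_norm.mp u.2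
  obtain ⟨pX, hpXc, hpX⟩ := exitP z hz
  obtain ⟨pY, hpYc, hpY⟩ := exitP w hw
  -- the `Y`-opposite point
  let op : sphere (0 : X) 1 → sphere (0 : X) 1 := fun p => E.symm (pY (dirTo w hw (f p)))
  have hopc : Continuous op :=
    E.symm.continuous.comp (hpYc.comp ((dirTo_cont w hw).comp hf.continuous))
  have hop1 : ∀ p, (f (op p) : Y) = w + ‖(f (op p) : Y) - w‖ • (dirTo w hw (f p) : Y) := by
    intro p
    simp only [op, hE]
    exact hpY _
  have hop2 : ∀ p : sphere (0 : X) 1, ‖(p : X) - (op p : X)‖ = ‖(f p : Y) - w‖ + ‖(f (op p) : Y) - w‖ := by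
    intro p
    rw [← hdist, norm_sub_rev, colin w _ _ _ (hn2 _) (hop1 p) (dirTo_spec w hw (f p)), add_comm]
  have hop3 : ∀ p, ‖(f p : Y) - w‖ - ‖(p : X) - z‖ ≤
      ‖(op p : X) - z‖ - ‖(f (op p) : Y) - w‖ := by
    intro p
    have h1 := hop2 p
    have h2 := tri z (p : X) (op p : X)
    linarith
  let Ts : sphere (0 : X) 1 → sphere (0 : X) 1 := fun u => dirTo z hz (op (pX u))
  have hTsc : Continuous Ts := (dirTo_cont z hz).comp (hopc.comp hpXc)
  let ls : sphere (0 : X) 1 → ℝ := fun u => rho - (‖(f (pX u) : Y) - w‖ - ‖(pX u : X) - z‖)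
  have hls0 : ∀ u, 0 ≤ ls u := by
    intro u
    have := (abs_le.mp (hup (pX u))).1
    simp only [ls]; linarith
  have hchord : ∀ u v : sphere (0 : X) 1, (pX u : X) - (op (pX v) : X) =
      ‖(pX u : X) - z‖ • (u : X) + ‖(op (pX v) : X) - z‖ • (Ts v : X) := by
    intro u v
    conv_lhs => rw [hpX u, dirTo_spec z hz (op (pX v))]
    simp only [Ts]; abel
  let T : X → X := fun u => if hu : u ∈ sphere (0 : X) 1 then (Ts ⟨u, hu⟩ : X) else u
  let l : X → ℝ := fun u => if hu : u ∈ sphere (0 : X) 1 then ls ⟨u, hu⟩ else 0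
  have hTe : ∀ u : sphere (0 : X) 1, T u = Ts u := fun u => dif_pos u.2
  have hle : ∀ u : sphere (0 : X) 1, l u = ls u := fun u => dif_pos u.2
  have hS : 0 < 1 - ‖z‖ := by linarith
  have hlift : ∀ u : X, ‖u‖ = 1 → ∃ u' : sphere (0 : X) 1, (u' : X) = u := fun u hu =>
    ⟨⟨u, mem_sphere_zero_iff_norm.mpr hu⟩, rfl⟩
  have hLU : ∀ (q : sphere (0 : X) 1) (e : ℝ), rho - e ≤ ‖(q : X) - z‖ - ‖(f q : Y) - w‖ →
      ls (dirTo z hz q) ≤ e := by
    intro q e he
    have h1 := colin z _ _ _ (hn1 _) (hpX (dirTo z hz q)) (dirTo_spec z hz q)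
    have h2 := tri w (f (pX (dirTo z hz q)) : Y) (f q : Y)
    rw [hdist] at h2
    simp only [ls]; linarith
  obtain ⟨u, hu, hlu, hJ⟩ := face_fix h M (1 / (1 - ‖z‖) + 2) (by positivity) T l
    (by
      rw [continuousOn_iff_continuous_domRestrict]
      have : (sphere (0 : X) 1).domRestrict T = fun u => (Ts u : X) := funext fun u => hTe u
      rw [this]
      exact continuous_subtype_val.comp hTsc)
    (by
      intro u hu
      obtain ⟨u, rfl⟩ := hlift u hu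
      rw [hTe]; exact hn1 _)
    (by
      intro u hu
      obtain ⟨u, rfl⟩ := hlift u hu
      rw [hTe, hle]
      have h1 := lemA (u : X) (Ts u : X) (hn1 _) (hn1 _) _ _ _ hS.le (bnd z hz (pX u)).1
        (bnd z hz (op (pX u))).1
      rw [← hchord, hop2] at h1
      have h2 := (abs_le.mp (hup (op (pX u)))).2
      have h3 := hls0 u
      have h4 : 2 * (1 - ‖z‖) - ls u ≤ (1 - ‖z‖) * ‖(u : X) + (Ts u : X)‖ := by
        simp only [ls]; linarith
      have h5 : 2 - 1 / (1 - ‖z‖) * ls u ≤ ‖(u : X) + (Ts u : X)‖ := by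
        apply le_of_mul_le_mul_left _ hS
        have : (1 - ‖z‖) * (2 - 1 / (1 - ‖z‖) * ls u) = 2 * (1 - ‖z‖) - ls u := by
          field_simp
        linarith
      nlinarith)
    (by
      intro u v hu hv
      obtain ⟨u, rfl⟩ := hlift u hu
      obtain ⟨v, rfl⟩ := hlift v hv
      rw [hTe, hle, hle]
      have h1 := lemB (u : X) (Ts v : X) (hn1 _) (hn1 _) _ _ (bnd z hz (pX u)).2
        (bnd z hz (op (pX v))).2
      rw [← hchord, ← hdist] at h1
      have h2 := tri w (f (pX u) : Y) (f (op (pX v)) : Y)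
      have h3 := hop3 (pX v)
      have h4 : ‖(u : X) + (Ts v : X)‖ ≤ 2 := by
        have := norm_add_le (u : X) (Ts v : X)
        rw [hn1, hn1] at this; linarith
      have h5 : 0 ≤ 1 / (1 - ‖z‖) * (2 - ‖(u : X) + (Ts v : X)‖) :=
        mul_nonneg (by positivity) (by linarith)
      simp only [ls]; nlinarith)
    (by
      intro e he
      obtain ⟨p, hp⟩ := hap e he
      rcases le_abs.mp hp with h1 | h1
      · exact ⟨dirTo z hz p, hn1 _, by rw [hle]; exact hLU p e h1⟩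
      · refine ⟨dirTo z hz (op p), hn1 _, ?_⟩
        rw [hle]
        apply hLU
        have := hop3 p
        linarith)
    eps heps
  obtain ⟨u, rfl⟩ := hlift u hu
  rw [hle] at hlu
  rw [hTe] at hJ
  have hT : 0 < 1 - ‖w‖ := by linarith
  refine ⟨pX u, op (pX u), ‖(pX u : X) - z‖, ‖(op (pX u) : X) - z‖, ‖(f (pX u) : Y) - w‖,
    ‖(f (op (pX u)) : Y) - w‖, u, Ts u, -(dirTo w hw (f (pX u)) : Y), hn1 _, hn1 _,
    by rw [norm_neg]; exact hn2 _, hS.trans_le (bnd z hz _).1, hS.trans_le (bnd z hz _).1,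
    hT.trans_le (bnd w hw _).1, hT.trans_le (bnd w hw _).1, hpX u, dirTo_spec z hz _, ?_, ?_, ?_, ?_,
    fun x hx => hJ x (abs_le.mp hx)⟩
  · rw [smul_neg, ← sub_eq_add_neg]; exact dirTo_spec w hw _
  · rw [smul_neg, sub_neg_eq_add]; exact hop1 _
  · simp only [ls] at hlu; linarith
  · have := hop3 (pX u)
    simp only [ls] at hlu; linarith

end Crest.Agent.R74.H17
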