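import Mathlib
import Crest.Agent.R332.Vi

set_option autoImplicit false

namespace Crest.Agent.R74.H17

open Metric Set

variable {X : Type*} [NormedAddCommGroup X] [NormedSpace ℝ X]

/-- finitely many cells -/
lemma cells (h : X) (M e : ℝ) (he : 0 < e) :
    ∃ (κ : Type) (_ : Fintype κ) (cell : X → κ), ∀ u v : X, ‖u‖ = 1 → ‖v‖ = 1 → cell u = cell v →
      ∀ x ∈ Icc (-M) M, |‖u + x • h‖ - ‖v + x • h‖| ≤ e := by
  classical
  have hη : 0 < e / (3 * (‖h‖ + 1)) := by positivity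
  obtain ⟨t, ht, htf, hcov⟩ := finite_cover_balls_of_compact (isCompact_Icc (a := -M) (b := M)) hη
  haveI : Fintype t := htf.fintype
  let K : ℕ := ⌊(1 + |M| * ‖h‖) / (e / 3)⌋₊
  refine ⟨t → Fin (K + 1), inferInstance, fun u x =>
    ⟨min ⌊‖u + (x : ℝ) • h‖ / (e / 3)⌋₊ K, Nat.lt_succ_of_le (min_le_right _ _)⟩, ?_⟩
  intro u v hu hv huv x hx
  obtain ⟨x0, hx0t, hx0⟩ : ∃ x0 ∈ t, x ∈ ball x0 (e / (3 * (‖h‖ + 1))) := by
    simpa using hcov hx
  have hb : ∀ w : X, ‖w‖ = 1 → ⌊‖w + x0 • h‖ / (e / 3)⌋₊ ≤ K := by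
    intro w hw
    apply Nat.floor_mono
    apply div_le_div_of_nonneg_right _ (by positivity)
    have h1 : |x0| ≤ |M| := by
      have := ht hx0t
      exact abs_le_abs this.2 (by linarith [this.1])
    calc ‖w + x0 • h‖ ≤ ‖w‖ + ‖x0 • h‖ := norm_add_le _ _
      _ = 1 + |x0| * ‖h‖ := by rw [hw, norm_smul, Real.norm_eq_abs]
      _ ≤ 1 + |M| * ‖h‖ := by gcongr
  have h1 : ⌊‖u + x0 • h‖ / (e / 3)⌋₊ = ⌊‖v + x0 • h‖ / (e / 3)⌋₊ := by
    have := congrArg Fin.val (congrFun huv ⟨x0, hx0t⟩)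
    simp only [min_eq_left (hb u hu), min_eq_left (hb v hv)] at this
    exact this
  have h2 : |‖u + x0 • h‖ - ‖v + x0 • h‖| ≤ e / 3 := by
    have a1 := Nat.floor_le (a := ‖u + x0 • h‖ / (e / 3)) (by positivity)
    have a2 := Nat.lt_floor_add_one (‖u + x0 • h‖ / (e / 3))
    have a3 := Nat.floor_le (a := ‖v + x0 • h‖ / (e / 3)) (by positivity)
    have a4 := Nat.lt_floor_add_one (‖v + x0 • h‖ / (e / 3))
    rw [h1] at a1 a2
    have he3 : 0 < e / 3 := by positivity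
    rw [le_div_iff₀ he3] at a1 a3
    rw [div_lt_iff₀ he3] at a2 a4
    rw [abs_le]; constructor <;> nlinarith
  have h3 : ∀ w : X, |‖w + x • h‖ - ‖w + x0 • h‖| ≤ e / 3 := by
    intro w
    refine (abs_norm_sub_norm_le _ _).trans ?_
    have : w + x • h - (w + x0 • h) = (x - x0) • h := by rw [sub_smul]; abel
    rw [this, norm_smul]
    have h4 : ‖x - x0‖ ≤ e / (3 * (‖h‖ + 1)) := by
      rw [← dist_eq_norm]; exact (mem_ball.mp hx0).le
    calc ‖x - x0‖ * ‖h‖ ≤ e / (3 * (‖h‖ + 1)) * (‖h‖ + 1) := by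
          apply mul_le_mul h4 (by linarith) (norm_nonneg _) hη.le
      _ = e / 3 := by field_simp
  have h5 := h3 u
  have h6 := h3 v
  rw [abs_le] at *
  constructor <;> linarith [h2.1, h2.2, h5.1, h5.2, h6.1, h6.2]

/-- the Brouwer step -/
lemma brouwer_step {n : ℕ} (hn : 0 < n) (g : Fin n → X) (hg : ∀ i, ‖g i‖ = 1) (τ δ e : ℝ)
    (hτ : 0 < τ) (hδ : 0 ≤ δ) (hδ1 : δ < 1) (he : 0 < e)
    (φ : X →L[ℝ] ℝ) (hφ : ‖φ‖ ≤ 1) (hφg : ∀ i, 1 - δ ≤ φ (g i))
    (d : X → Fin n → ℝ) (hd : ∀ i, ContinuousOn (fun u => d u i) (sphere 0 1))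
    (hcov : ∀ w : Fin n → ℝ, (∀ i, τ ≤ w i ∧ w i ≤ 1 + τ) →
      ∃ i, d (‖∑ j, w j • g j‖⁻¹ • ∑ j, w j • g j) i ≤ e) :
    ∃ l : Fin n → ℝ, (∀ i, 0 ≤ l i) ∧ ∑ i, l i = 1 ∧
      ∀ i, l i ≠ 0 → d (‖∑ j, (τ + l j) • g j‖⁻¹ • ∑ j, (τ + l j) • g j) i < 2 * e := by
  classical
  -- weights
  let w : (Fin n → ℝ) → Fin n → ℝ := fun l j => τ + max 0 (min (l j) 1)
  have hw : ∀ l j, τ ≤ w l j ∧ w l j ≤ 1 + τ := by
    intro l j
    have h1 : 0 ≤ max 0 (min (l j) 1) := le_max_left _ _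
    have h2 : max 0 (min (l j) 1) ≤ 1 := max_le zero_le_one (min_le_right _ _)
    constructor <;> simp only [w] <;> linarith
  let y : (Fin n → ℝ) → X := fun l => ∑ j, w l j • g j
  have hy : Continuous y := by
    simp only [y, w]; fun_prop
  have hy0 : ∀ l, y l ≠ 0 := by
    intro l h0
    have h1 : φ (y l) = ∑ j, w l j * φ (g j) := by simp [y, map_sum]
    have h2 : 0 < ∑ j, w l j * φ (g j) := by
      haveI : Nonempty (Fin n) := ⟨⟨0, hn⟩⟩
      apply Finset.sum_pos _ Finset.univ_nonempty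
      intro j _
      have := hφg j
      have := (hw l j).1
      apply mul_pos <;> linarith
    rw [← h1, h0, map_zero] at h2
    exact lt_irrefl _ h2
  let u : (Fin n → ℝ) → X := fun l => ‖y l‖⁻¹ • y l
  have hu : Continuous u := by
    apply Continuous.smul _ hy
    exact (continuous_norm.comp hy).inv₀ (fun l => norm_ne_zero_iff.mpr (hy0 l))
  have hu1 : ∀ l, u l ∈ sphere (0 : X) 1 := by
    intro l
    rw [mem_sphere_zero_iff_norm, norm_smul, norm_inv, norm_norm]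
    exact inv_mul_cancel₀ (norm_ne_zero_iff.mpr (hy0 l))
  let m : (Fin n → ℝ) → Fin n → ℝ := fun l i => max 0 (2 * e - d (u l) i)
  have hm : ∀ i, Continuous (fun l => m l i) := by
    intro i
    have : Continuous (fun l => d (u l) i) := (hd i).comp_continuous hu hu1
    exact continuous_const.max (continuous_const.sub this)
  have hm0 : ∀ l i, 0 ≤ m l i := fun l i => le_max_left _ _
  have hs : ∀ l, 0 < ∑ i, m l i := by
    intro l
    obtain ⟨i, hi⟩ := hcov (w l) (hw l)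
    have : 0 < m l i := by
      have h1 : 2 * e - d (u l) i ≤ m l i := le_max_right _ _
      have h2 : d (u l) i ≤ e := hi
      linarith
    exact lt_of_lt_of_le this (Finset.single_le_sum (fun j _ => hm0 l j) (Finset.mem_univ i))
  let F : (Fin n → ℝ) → Fin n → ℝ := fun l i => m l i / ∑ j, m l j
  have hF : Continuous F := by
    apply continuous_pi
    intro i
    exact (hm i).div (continuous_finsetSum _ fun j _ => hm j) (fun l => (hs l).ne')
  have hF0 : ∀ l i, 0 ≤ F l i := fun l i => div_nonneg (hm0 l i) (hs l).le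
  have hF1 : ∀ l i, F l i ≤ 1 := fun l i =>
    (div_le_one (hs l)).mpr (Finset.single_le_sum (fun j _ => hm0 l j) (Finset.mem_univ i))
  have hFb : ∀ l, ‖F l‖ ≤ 1 := by
    intro l
    refine (pi_norm_le_iff_of_nonneg zero_le_one).mpr fun i => ?_
    rw [Real.norm_of_nonneg (hF0 l i)]; exact hF1 l i
  obtain ⟨l, hl⟩ := Crest.Agent.R332.Vi.brouwer hF hFb
  have hl0 : ∀ i, 0 ≤ l i := fun i => hl ▸ hF0 l i
  have hl1 : ∀ i, l i ≤ 1 := fun i => hl ▸ hF1 l i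
  have hwl : ∀ j, w l j = τ + l j := by
    intro j
    simp only [w]
    rw [min_eq_left (hl1 j), max_eq_right (hl0 j)]
  refine ⟨l, hl0, ?_, ?_⟩
  · have : ∑ i, F l i = 1 := by
      simp only [F]
      rw [← Finset.sum_div, div_self (hs l).ne']
    rw [hl] at this; exact this
  · intro i hi
    have h1 : m l i ≠ 0 := by
      intro h0
      apply hi
      have : F l i = 0 := by simp only [F]; rw [h0, zero_div]
      rw [hl] at this; exact this
    have h2 : 0 < 2 * e - d (u l) i := by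
      by_contra hc
      exact h1 (max_eq_left (not_lt.mp hc))
    have h3 : u l = ‖∑ j, (τ + l j) • g j‖⁻¹ • ∑ j, (τ + l j) • g j := by
      simp only [u, y, hwl]
    rw [← h3]; linarith

/-- profile -/
noncomputable def J (h : X) (M : ℝ) (v : X) : C(Icc (-M) M, ℝ) :=
  ⟨fun x => ‖v + (x : ℝ) • h‖, by fun_prop⟩

lemma J_cont (h : X) (M : ℝ) : Continuous (J h M) := by
  have : LipschitzWith 1 (J h M) := by
    apply LipschitzWith.of_dist_le_mul
    intro u v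
    rw [NNReal.coe_one, one_mul, ContinuousMap.dist_le dist_nonneg]
    intro x
    show dist ‖u + (x : ℝ) • h‖ ‖v + (x : ℝ) • h‖ ≤ _
    rw [Real.dist_eq, dist_eq_norm]
    refine (abs_norm_sub_norm_le _ _).trans (le_of_eq ?_)
    congr 1; abel
  exact this.continuous

def P {κ : Type} (cell : X → κ) (T : X → X) (l : X → ℝ) (n : ℕ) : Prop :=
  ∀ δ > 0, ∃ g : Fin n → X, Function.Injective (cell ∘ g) ∧ ∃ φ : X →L[ℝ] ℝ, ‖φ‖ ≤ 1 ∧
    (∀ i, ‖g i‖ = 1 ∧ 1 - δ ≤ φ (g i)) ∧ ∃ u0 : X, ‖u0‖ = 1 ∧ l u0 ≤ δ ∧ 1 - δ ≤ φ (T u0)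

lemma apply_le (φ : X →L[ℝ] ℝ) (hφ : ‖φ‖ ≤ 1) (v : X) : φ v ≤ ‖v‖ := by
  have h1 := φ.le_opNorm v
  have h2 : φ v ≤ ‖φ v‖ := le_abs_self _
  have h3 : ‖φ‖ * ‖v‖ ≤ 1 * ‖v‖ := mul_le_mul_of_nonneg_right hφ (norm_nonneg _)
  linarith

/-- estimates at a weighted combination -/
lemma comb {n : ℕ} (hn : 0 < n) (g : Fin n → X) (τ δ C : ℝ) (hC : 0 ≤ C) (T : X → X) (l : X → ℝ)
    (hTs : ∀ u, ‖u‖ = 1 → ‖T u‖ = 1)
    (h2 : ∀ u, ‖u‖ = 1 → 2 - C * l u ≤ ‖u + T u‖)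
    (h3 : ∀ u v, ‖u‖ = 1 → ‖v‖ = 1 → l u ≤ l v + C * (2 - ‖u + T v‖))
    (hτ : 0 < τ) (hδ : 0 ≤ δ) (hδ1 : δ < 1)
    (φ : X →L[ℝ] ℝ) (hφ : ‖φ‖ ≤ 1) (hg : ∀ i, ‖g i‖ = 1 ∧ 1 - δ ≤ φ (g i))
    (u0 : X) (hu0 : ‖u0‖ = 1) (hl0 : l u0 ≤ δ) (hT0 : 1 - δ ≤ φ (T u0))
    (w : Fin n → ℝ) (hw : ∀ i, τ ≤ w i ∧ w i ≤ 1 + τ) (y u : X) (hy : y = ∑ j, w j • g j)
    (hu : u = ‖y‖⁻¹ • y) :
    ‖u‖ = 1 ∧ l u ≤ (1 + 2 * C) * δ ∧ (∑ j, w j) * (1 - δ) ≤ ‖y‖ ∧ ‖y‖ ≤ ∑ j, w j ∧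
      ∃ ψ : X →L[ℝ] ℝ, ‖ψ‖ ≤ 1 ∧ 1 - C * ((1 + 2 * C) * δ) ≤ ψ (T u) ∧
        ∀ i, τ * (1 - ψ (g i)) ≤ n * (1 + τ) * (δ + C * ((1 + 2 * C) * δ)) := by
  have : Nonempty (Fin n) := ⟨⟨0, hn⟩⟩
  set W := ∑ j, w j with hW
  have hw0 : ∀ j, 0 < w j := fun j => hτ.trans_le (hw j).1
  have hWpos : 0 < W := Finset.sum_pos (fun j _ => hw0 j) Finset.univ_nonempty
  have hWle : W ≤ n * (1 + τ) := by
    have := Finset.sum_le_card_nsmul Finset.univ w (1 + τ) (fun j _ => (hw j).2)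
    rw [Finset.card_univ, Fintype.card_fin, nsmul_eq_mul] at this
    exact this
  have hφy : W * (1 - δ) ≤ φ y := by
    rw [hy, map_sum, hW, Finset.sum_mul]
    apply Finset.sum_le_sum
    intro j _
    rw [map_smul, smul_eq_mul]
    exact mul_le_mul_of_nonneg_left (hg j).2 (hw0 j).le
  have hy1 : W * (1 - δ) ≤ ‖y‖ := hφy.trans (apply_le φ hφ y)
  have hy2 : ‖y‖ ≤ W := by
    rw [hy, hW]
    refine (norm_sum_le _ _).trans (le_of_eq ?_)
    apply Finset.sum_congr rfl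
    intro j _
    rw [norm_smul, (hg j).1, mul_one, Real.norm_of_nonneg (hw0 j).le]
  have hypos : 0 < ‖y‖ := lt_of_lt_of_le (mul_pos hWpos (by linarith)) hy1
  have hu1 : ‖u‖ = 1 := by
    rw [hu, norm_smul, norm_inv, norm_norm]; exact inv_mul_cancel₀ hypos.ne'
  have hyu : y = ‖y‖ • u := by
    rw [hu, smul_smul, mul_inv_cancel₀ hypos.ne', one_smul]
  have hφu : 1 - δ ≤ φ u := by
    have e1 : φ y = ‖y‖ * φ u := by
      conv_lhs => rw [hyu]
      rw [map_smul, smul_eq_mul]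
    by_contra hc
    push Not at hc
    have : ‖y‖ * φ u < ‖y‖ * (1 - δ) := mul_lt_mul_of_pos_left hc hypos
    have : ‖y‖ * (1 - δ) ≤ W * (1 - δ) := mul_le_mul_of_nonneg_right hy2 (by linarith)
    linarith
  have hl : l u ≤ (1 + 2 * C) * δ := by
    have a1 := h3 u u0 hu1 hu0
    have a2 := apply_le φ hφ (u + T u0)
    rw [map_add] at a2
    have a3 : C * (2 - ‖u + T u0‖) ≤ C * (2 * δ) := mul_le_mul_of_nonneg_left (by linarith) hC
    linarith
  refine ⟨hu1, hl, hy1, hy2, ?_⟩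
  obtain ⟨ψ, hψ, hψ2⟩ := exists_dual_vector'' ℝ (u + T u)
  have hψ3 : ψ u + ψ (T u) = ‖u + T u‖ := by rw [← map_add]; exact_mod_cast hψ2
  have b1 := h2 u hu1
  have b2 : C * l u ≤ C * ((1 + 2 * C) * δ) := mul_le_mul_of_nonneg_left hl hC
  have b3 := apply_le ψ hψ u
  have b4 := apply_le ψ hψ (T u)
  rw [hu1] at b3
  rw [hTs u hu1] at b4
  set δ2 := C * ((1 + 2 * C) * δ) with hδ2
  have hδ2' : 0 ≤ δ2 := by positivity
  refine ⟨ψ, hψ, by linarith, ?_⟩
  have c1 : 1 - δ2 ≤ ψ u := by linarith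
  have c2 : ψ y = ‖y‖ * ψ u := by
    conv_lhs => rw [hyu]
    rw [map_smul, smul_eq_mul]
  have c3 : W - ψ y ≤ W * (δ + δ2) := by
    have : ‖y‖ * (1 - δ2) ≤ ‖y‖ * ψ u := mul_le_mul_of_nonneg_left c1 hypos.le
    have : ‖y‖ * δ2 ≤ W * δ2 := mul_le_mul_of_nonneg_right hy2 hδ2'
    nlinarith
  have c4 : W - ψ y = ∑ j, w j * (1 - ψ (g j)) := by
    rw [hy, map_sum, hW, ← Finset.sum_sub_distrib]
    apply Finset.sum_congr rfl
    intro j _
    rw [map_smul, smul_eq_mul]; ring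
  have c5 : ∀ j, 0 ≤ 1 - ψ (g j) := by
    intro j
    have := apply_le ψ hψ (g j)
    rw [(hg j).1] at this; linarith
  intro i
  have c6 : w i * (1 - ψ (g i)) ≤ ∑ j, w j * (1 - ψ (g j)) :=
    Finset.single_le_sum (f := fun j => w j * (1 - ψ (g j)))
      (fun j _ => mul_nonneg (hw0 j).le (c5 j)) (Finset.mem_univ i)
  have c7 : τ * (1 - ψ (g i)) ≤ w i * (1 - ψ (g i)) := mul_le_mul_of_nonneg_right (hw i).1 (c5 i)
  have c8 : W * (δ + δ2) ≤ n * (1 + τ) * (δ + δ2) :=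
    mul_le_mul_of_nonneg_right hWle (by positivity)
  linarith

set_option maxHeartbeats 1000000 in
theorem face_fix (h : X) (M C : ℝ) (hC : 0 ≤ C) (T : X → X) (l : X → ℝ)
    (hT : ContinuousOn T (sphere 0 1)) (hTs : ∀ u, ‖u‖ = 1 → ‖T u‖ = 1)
    (h2 : ∀ u, ‖u‖ = 1 → 2 - C * l u ≤ ‖u + T u‖)
    (h3 : ∀ u v, ‖u‖ = 1 → ‖v‖ = 1 → l u ≤ l v + C * (2 - ‖u + T v‖))
    (h4 : ∀ e > 0, ∃ u, ‖u‖ = 1 ∧ l u ≤ e) :
    ∀ e > 0, ∃ u, ‖u‖ = 1 ∧ l u ≤ e ∧ ∀ x ∈ Icc (-M) M, ‖u + x • h‖ ≤ ‖T u + x • h‖ + e := by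
  classical
  intro e he
  obtain ⟨κ, hκ, cell, hcell⟩ := cells h M (e / 8) (by positivity)
  have hP1 : P cell T l 1 := by
    intro δ hδ
    obtain ⟨u0, hu0, hl0⟩ := h4 δ hδ
    obtain ⟨ψ, hψ, hψ2⟩ := exists_dual_vector'' ℝ (T u0)
    have hψ3 : ψ (T u0) = 1 := by rw [← hTs u0 hu0]; exact_mod_cast hψ2
    refine ⟨fun _ => T u0, Function.injective_of_subsingleton _, ψ, hψ,
      fun _ => ⟨hTs u0 hu0, by linarith⟩, u0, hu0, hl0, by linarith⟩
  have hex : ∃ n, ¬ P cell T l (n + 1) := by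
    refine ⟨Fintype.card κ, fun hP => ?_⟩
    obtain ⟨g, hg, -⟩ := hP 1 one_pos
    have := Fintype.card_le_of_injective _ hg
    simp at this
  obtain ⟨n, hn, hPn, hnP⟩ : ∃ n, 0 < n ∧ P cell T l n ∧ ¬ P cell T l (n + 1) := by
    refine ⟨Nat.find hex, ?_, ?_, Nat.find_spec hex⟩
    · rw [Nat.find_pos]; simpa using hP1
    · have h0 : 0 < Nat.find hex := by rw [Nat.find_pos]; simpa using hP1
      have := Nat.find_min hex (m := Nat.find hex - 1) (by omega)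
      rw [Nat.sub_add_cancel h0] at this
      exact not_not.mp this
  unfold P at hnP
  push Not at hnP
  obtain ⟨δ1, hδ1, hno⟩ := hnP
  have hn' : (0 : ℝ) < n := by exact_mod_cast hn
  set τ : ℝ := min (e / 8) 1 / n with hτdef
  have hm0 : 0 < min (e / 8) 1 := lt_min (by positivity) one_pos
  have hτ : 0 < τ := div_pos hm0 hn'
  have hnτ : n * τ = min (e / 8) 1 := by rw [hτdef]; field_simp
  set K : ℝ := 1 + (1 + 2 * C) + C * (1 + 2 * C) + n * (1 + τ) * (1 + C * (1 + 2 * C)) / τ with hK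
  have hK0 : 0 ≤ n * (1 + τ) * (1 + C * (1 + 2 * C)) / τ := by positivity
  have hK1 : 0 ≤ C * (1 + 2 * C) := by positivity
  have hKpos : 0 < K := by positivity
  set β : ℝ := min δ1 (min (e / 8) (1 / 2)) with hβ
  have hβ0 : 0 < β := lt_min hδ1 (lt_min (by positivity) (by norm_num))
  have hβ1 : β ≤ δ1 := min_le_left _ _
  have hβ2 : β ≤ e / 8 := (min_le_right _ _).trans (min_le_left _ _)
  have hβ3 : β ≤ 1 / 2 := (min_le_right _ _).trans (min_le_right _ _)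
  set δ : ℝ := β / K with hδdef
  have hδ : 0 < δ := div_pos hβ0 hKpos
  have hKδ : K * δ = β := by rw [hδdef]; field_simp
  have k1 : δ ≤ β := by rw [← hKδ]; nlinarith
  have k2 : (1 + 2 * C) * δ ≤ β := by rw [← hKδ]; nlinarith
  have k3 : C * ((1 + 2 * C) * δ) ≤ β := by rw [← hKδ]; nlinarith
  have k4 : n * (1 + τ) * (δ + C * ((1 + 2 * C) * δ)) ≤ τ * β := by
    have : n * (1 + τ) * (1 + C * (1 + 2 * C)) / τ * δ ≤ β := by rw [← hKδ]; nlinarith
    rw [div_mul_eq_mul_div, div_le_iff₀ hτ] at this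
    nlinarith
  obtain ⟨g, hginj, φ, hφ, hg, u0, hu0, hl0, hT0⟩ := hPn δ hδ
  have hδlt : δ < 1 := by linarith
  obtain ⟨lam, hl0', hl1, hl2⟩ := brouwer_step hn g (fun i => (hg i).1) τ δ (e / 8) hτ hδ.le hδlt
    (by positivity) φ hφ (fun i => (hg i).2) (fun u i => dist (J h M (T u)) (J h M (g i)))
    (fun i => continuous_dist.comp_continuousOn (((J_cont h M).comp_continuousOn hT).prodMk continuousOn_const)) (by
      intro w hw
      obtain ⟨hu1, hlu, -, -, ψ, hψ, hψT, hψg⟩ := comb hn g τ δ C hC T l hTs h2 h3 hτ hδ.le hδlt φ hφ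
        hg u0 hu0 hl0 hT0 w hw _ _ rfl rfl
      set u := ‖∑ j, w j • g j‖⁻¹ • ∑ j, w j • g j with hu
      by_contra hc
      push Not at hc
      have hinj : Function.Injective (cell ∘ (Fin.cons (T u) g : Fin (n + 1) → X)) := by
        rw [Fin.comp_cons, Fin.cons_injective_iff]
        refine ⟨?_, hginj⟩
        rintro ⟨i, hi⟩
        have := hc i
        apply absurd this (not_lt.mpr _)
        rw [ContinuousMap.dist_le (by positivity)]
        intro x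
        exact hcell (T u) (g i) (hTs u hu1) (hg i).1 hi.symm x x.2
      have := hno (Fin.cons (T u) g) hinj ψ hψ (by
        intro i
        refine Fin.cases ?_ (fun j => ?_) i
        · exact ⟨hTs u hu1, by simp only [Fin.cons_zero]; linarith⟩
        · refine ⟨(hg j).1, ?_⟩
          simp only [Fin.cons_succ]
          have a1 := (hψg j).trans k4
          have a2 := le_of_mul_le_mul_left a1 hτ
          linarith) u hu1 (by linarith)
      linarith)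
  have hlam1 : ∀ i, lam i ≤ 1 := fun i =>
    hl1 ▸ Finset.single_le_sum (fun j _ => hl0' j) (Finset.mem_univ i)
  obtain ⟨hu1, hlu, hy1, hy2, -⟩ := comb hn g τ δ C hC T l hTs h2 h3 hτ hδ.le hδlt φ hφ
        hg u0 hu0 hl0 hT0 (fun j => τ + lam j)
        (fun i => ⟨by linarith [hl0' i], by linarith [hlam1 i]⟩) _ _ rfl rfl
  set y := ∑ j, (τ + lam j) • g j with hy
  set u := ‖y‖⁻¹ • y with hu
  have hW : ∑ j, (τ + lam j) = n * τ + 1 := by
    rw [Finset.sum_add_distrib, hl1]; simp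
  rw [hW] at hy1 hy2
  have m1 : n * τ ≤ e / 8 := hnτ ▸ min_le_left _ _
  have m2 : n * τ ≤ 1 := hnτ ▸ min_le_right _ _
  have m0 : 0 ≤ n * τ := by positivity
  refine ⟨u, hu1, by linarith, ?_⟩
  intro x hx
  set y0 := ∑ j, lam j • g j with hy0
  have d1 : ‖y0 + x • h‖ ≤ ‖T u + x • h‖ + 2 * (e / 8) := by
    have e1 : y0 + x • h = ∑ j, lam j • (g j + x • h) := by
      simp only [smul_add, Finset.sum_add_distrib, ← Finset.sum_smul, hl1, one_smul, hy0]
    rw [e1]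
    refine (norm_sum_le _ _).trans ?_
    calc ∑ j, ‖lam j • (g j + x • h)‖ ≤ ∑ j, lam j * (‖T u + x • h‖ + 2 * (e / 8)) := by
          apply Finset.sum_le_sum
          intro j _
          rw [norm_smul, Real.norm_of_nonneg (hl0' j)]
          by_cases h0 : lam j = 0
          · simp [h0]
          · apply mul_le_mul_of_nonneg_left _ (hl0' j)
            have a1 := hl2 j h0
            have a2 := ContinuousMap.dist_apply_le_dist (f := J h M (T u)) (g := J h M (g j)) ⟨x, hx⟩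
            have a3 : dist ‖T u + x • h‖ ‖g j + x • h‖ < 2 * (e / 8) := lt_of_le_of_lt a2 a1
            rw [Real.dist_eq, abs_lt] at a3
            linarith [a3.1]
      _ = _ := by rw [← Finset.sum_mul, hl1, one_mul]
  have d2 : ‖y - y0‖ ≤ n * τ := by
    have e1 : y - y0 = ∑ j, τ • g j := by
      rw [hy, hy0, ← Finset.sum_sub_distrib]
      apply Finset.sum_congr rfl
      intro j _
      rw [add_smul]; abel
    rw [e1]
    refine (norm_sum_le _ _).trans (le_of_eq ?_)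
    have : ∀ j, ‖τ • g j‖ = τ := by
      intro j; rw [norm_smul, (hg j).1, mul_one, Real.norm_of_nonneg hτ.le]
    simp [this]
  have d3 : ‖u - y‖ ≤ 2 * (e / 8) := by
    have hypos : 0 < ‖y‖ := lt_of_lt_of_le (mul_pos (by linarith) (by linarith)) hy1
    have hyu : y = ‖y‖ • u := by
      rw [hu, smul_smul, mul_inv_cancel₀ hypos.ne', one_smul]
    have e1 : u - y = (1 - ‖y‖) • u := by
      rw [sub_smul, one_smul, ← hyu]
    rw [e1, norm_smul, hu1, mul_one, Real.norm_eq_abs, abs_le]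
    have q1 : n * τ * δ ≤ 1 * δ := mul_le_mul_of_nonneg_right m2 hδ.le
    have q2 : (n * τ + 1) * (1 - δ) = n * τ + 1 - n * τ * δ - δ := by ring
    constructor <;> linarith
  have d4 : ‖u + x • h‖ ≤ ‖u - y‖ + ‖y - y0‖ + ‖y0 + x • h‖ := by
    have : u + x • h = (u - y) + (y - y0) + (y0 + x • h) := by abel
    rw [this]
    exact norm_add₃_le
  linarith

end Crest.Agent.R74.H17
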