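import Mathlib

/-! Row 74: from the radial identity to the linear extension (Mazur-Ulam). -/

set_option autoImplicit false

namespace Crest.Agent.R74

open Metric

variable {X Y : Type*} [NormedAddCommGroup X] [NormedSpace ℝ X]
  [NormedAddCommGroup Y] [NormedSpace ℝ Y]

/-- direction of a nonzero vector -/
noncomputable def fdir (x : X) (hx : x ≠ 0) : sphere (0 : X) 1 :=
  ⟨‖x‖⁻¹ • x, by
    rw [mem_sphere_zero_iff_norm, norm_smul, norm_inv, norm_norm,
      inv_mul_cancel₀ (norm_ne_zero_iff.2 hx)]⟩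

theorem fdir_smul (x : X) (hx : x ≠ 0) : ‖x‖ • (fdir x hx : X) = x := by
  show ‖x‖ • (‖x‖⁻¹ • x) = x
  rw [smul_smul, mul_inv_cancel₀ (norm_ne_zero_iff.2 hx), one_smul]

open Classical in
/-- homogeneous extension -/
noncomputable def fext (f : sphere (0 : X) 1 → sphere (0 : Y) 1) (x : X) : Y :=
  if hx : x = 0 then 0 else ‖x‖ • (f (fdir x hx) : Y)

theorem fext_zero (f : sphere (0 : X) 1 → sphere (0 : Y) 1) : fext f 0 = 0 := by
  simp [fext]

theorem fext_smul (f : sphere (0 : X) 1 → sphere (0 : Y) 1) (p : sphere (0 : X) 1) (r : ℝ)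
    (hr : 0 ≤ r) : fext f (r • (p : X)) = r • (f p : Y) := by
  have hp : ‖(p : X)‖ = 1 := mem_sphere_zero_iff_norm.1 p.2
  rcases hr.eq_or_lt with h | h
  · subst h; simp [fext]
  · have hn : ‖r • (p : X)‖ = r := by rw [norm_smul, hp, mul_one, Real.norm_of_nonneg hr]
    have hne : r • (p : X) ≠ 0 := by
      intro h0; rw [h0, norm_zero] at hn; exact h.ne hn
    have hd : fdir (r • (p : X)) hne = p := by
      apply Subtype.ext
      show ‖r • (p : X)‖⁻¹ • (r • (p : X)) = p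
      rw [hn, smul_smul, inv_mul_cancel₀ h.ne', one_smul]
    unfold fext
    rw [dif_neg hne, hd, hn]

theorem exists_polar [Nontrivial X] (x : X) :
    ∃ (p : sphere (0 : X) 1) (r : ℝ), 0 ≤ r ∧ x = r • (p : X) := by
  by_cases hx : x = 0
  · obtain ⟨y, hy⟩ := exists_ne (0 : X)
    exact ⟨fdir y hy, 0, le_rfl, by simp [hx]⟩
  · exact ⟨fdir x hx, ‖x‖, norm_nonneg _, (fdir_smul x hx).symm⟩

theorem fext_dist (f : sphere (0 : X) 1 → sphere (0 : Y) 1)
    (h : ∀ p y : sphere (0 : X) 1, ∀ s ∈ Set.Icc (0 : ℝ) 1,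
      ‖(p : X) - s • (y : X)‖ = ‖(f p : Y) - s • (f y : Y)‖)
    (p y : sphere (0 : X) 1) (r r' : ℝ) (hr' : 0 ≤ r') (hle : r' ≤ r) :
    ‖r • (p : X) - r' • (y : X)‖ = ‖r • (f p : Y) - r' • (f y : Y)‖ := by
  have hr : 0 ≤ r := hr'.trans hle
  rcases hr.eq_or_lt with h0 | h0
  · have : r' = 0 := le_antisymm (h0 ▸ hle) hr'
    subst this; subst h0; simp
  · have hs : r' / r ∈ Set.Icc (0 : ℝ) 1 := ⟨div_nonneg hr' hr, (div_le_one h0).2 hle⟩
    have e1 : r • (p : X) - r' • (y : X) = r • ((p : X) - (r' / r) • (y : X)) := by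
      rw [smul_sub, smul_smul, mul_div_cancel₀ _ h0.ne']
    have e2 : r • (f p : Y) - r' • (f y : Y) = r • ((f p : Y) - (r' / r) • (f y : Y)) := by
      rw [smul_sub, smul_smul, mul_div_cancel₀ _ h0.ne']
    rw [e1, e2, norm_smul, norm_smul, h p y _ hs]

theorem final [Nontrivial X] [Nontrivial Y] (f : sphere (0 : X) 1 → sphere (0 : Y) 1)
    (hsurj : Function.Surjective f)
    (h : ∀ p y : sphere (0 : X) 1, ∀ s ∈ Set.Icc (0 : ℝ) 1,
      ‖(p : X) - s • (y : X)‖ = ‖(f p : Y) - s • (f y : Y)‖) :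
    ∃ T : X ≃ₗᵢ[ℝ] Y, (∀ x : sphere (0 : X) 1, T x = f x) ∧
      ∀ T' : X →ₗ[ℝ] Y, (∀ x : sphere (0 : X) 1, T' x = f x) → ∀ x : X, T' x = T x := by
  have hiso : Isometry (fext f) := by
    refine Isometry.of_dist_eq fun x x' => ?_
    obtain ⟨p, r, hr, rfl⟩ := exists_polar x
    obtain ⟨y, r', hr', rfl⟩ := exists_polar x'
    rw [fext_smul f p r hr, fext_smul f y r' hr', dist_eq_norm, dist_eq_norm]
    rcases le_total r' r with hle | hle
    · exact (fext_dist f h p y r r' hr' hle).symm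
    · rw [norm_sub_rev, norm_sub_rev (r • (p : X))]
      exact (fext_dist f h y p r' r hr hle).symm
  have hs : Function.Surjective (fext f) := by
    intro w
    obtain ⟨q, r, hr, rfl⟩ := exists_polar w
    obtain ⟨p, rfl⟩ := hsurj q
    exact ⟨r • (p : X), fext_smul f p r hr⟩
  let e : X ≃ᵢ Y := ⟨Equiv.ofBijective (fext f) ⟨hiso.injective, hs⟩, hiso⟩
  have he : ∀ x, e x = fext f x := fun _ => rfl
  let T : X ≃ₗᵢ[ℝ] Y := e.toRealLinearIsometryEquivOfMapZero (by rw [he, fext_zero])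
  have hT : ∀ x, T x = fext f x := fun _ => rfl
  have hT1 : ∀ x : sphere (0 : X) 1, T x = f x := fun x => by
    have := fext_smul f x 1 zero_le_one
    rw [one_smul, one_smul] at this
    rw [hT, this]
  refine ⟨T, hT1, fun T' hT' x => ?_⟩
  obtain ⟨p, r, hr, rfl⟩ := exists_polar x
  rw [map_smul, map_smul, hT', hT1]

end Crest.Agent.R74
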