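import Crest.Agent.R74.Kkm
import Crest.Agent.R74.Net

set_option autoImplicit false

namespace Crest.Agent.R74

open Set Metric Finset

variable {X : Type*} [NormedAddCommGroup X] [NormedSpace ℝ X]

theorem norm_wsum_le {ι : Type*} [Fintype ι] (c : ι → X) (hc : ∀ i, ‖c i‖ = 1) (w r : ι → ℝ)
    (h : ∀ i, r i ≤ w i) : ‖∑ i, w i • c i‖ ≤ ‖∑ i, r i • c i‖ + (∑ i, w i - ∑ i, r i) := by
  have h1 : ∑ i, w i • c i = ∑ i, r i • c i + ∑ i, (w i - r i) • c i := by
    rw [← Finset.sum_add_distrib]
    exact Finset.sum_congr rfl fun i _ => by rw [← add_smul]; congr 1; ring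
  rw [h1, ← Finset.sum_sub_distrib]
  refine (norm_add_le _ _).trans (add_le_add le_rfl ((norm_sum_le _ _).trans (le_of_eq ?_)))
  exact Finset.sum_congr rfl fun i _ => by
    rw [norm_smul, hc, mul_one, Real.norm_of_nonneg (sub_nonneg.2 (h i))]

theorem wsum_up {ι : Type*} [Fintype ι] (c : ι → X) (hc : ∀ i, ‖c i‖ = 1) {d L : ℝ}
    (hL : 0 ≤ L) (hs : (Fintype.card ι : ℝ) - d ≤ ‖∑ i, c i‖) (r : ι → ℝ) (h : ∀ i, r i ≤ L) :
    ∑ i, r i - L * d ≤ ‖∑ i, r i • c i‖ := by
  have := norm_wsum_le c hc (fun _ => L) r h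
  rw [← Finset.smul_sum, norm_smul, Real.norm_of_nonneg hL, Finset.sum_const, Finset.card_univ,
    nsmul_eq_mul] at this
  nlinarith [mul_le_mul_of_nonneg_left hs hL]

theorem wsum_down {ι : Type*} [Fintype ι] (c : ι → X) (hc : ∀ i, ‖c i‖ = 1) {D m : ℝ}
    (hm : 0 < m) (w : ι → ℝ) (h : ∀ i, m ≤ w i) (hs : ∑ i, w i - D ≤ ‖∑ i, w i • c i‖) :
    (Fintype.card ι : ℝ) - D / m ≤ ‖∑ i, c i‖ := by
  have := norm_wsum_le c hc w (fun _ => m) h
  rw [← Finset.smul_sum, norm_smul, Real.norm_of_nonneg hm.le, Finset.sum_const, Finset.card_univ,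
    nsmul_eq_mul] at this
  have h2 : ((Fintype.card ι : ℝ) - D / m) * m ≤ ‖∑ i, c i‖ * m := by
    rw [sub_mul, div_mul_cancel₀ _ hm.ne']; linarith
  exact le_of_mul_le_mul_right h2 hm

theorem face_fix22 (h : X) (hh : ‖h‖ = 1) (M C : ℝ) (hM : 0 < M) (hC : 0 ≤ C) (T : X → X)
    (l : X → ℝ)
    (hT : ContinuousOn T (sphere 0 1)) (hTs : ∀ u, ‖u‖ = 1 → ‖T u‖ = 1)
    (h2 : ∀ u, ‖u‖ = 1 → 2 - C * l u ≤ ‖u + T u‖)
    (h3 : ∀ u v, ‖u‖ = 1 → ‖v‖ = 1 → l u ≤ l v + C * (2 - ‖u + T v‖))
    (h4 : ∀ e > 0, ∃ u, ‖u‖ = 1 ∧ l u ≤ e) :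
    ∀ e > 0, ∃ u, ‖u‖ = 1 ∧ l u ≤ e ∧ ∀ x ∈ Set.Icc (-M) M, ‖u + x • h‖ ≤ ‖T u + x • h‖ + e := by
  intro e he
  by_contra hcon
  have he4 : 0 < e / 4 := by positivity
  obtain ⟨τ, hτ0, hτ1, hτe⟩ : ∃ τ : ℝ, 0 < τ ∧ τ ≤ 1 ∧ τ * (1 + M) ≤ e / 4 := by
    refine ⟨min 1 (e / 4 / (1 + M)), lt_min one_pos (by positivity), min_le_left _ _, ?_⟩
    exact (le_div_iff₀ (by positivity)).1 (min_le_right _ _)
  have key : ∀ n : ℕ, ∀ d > (0:ℝ), ∃ c : Fin (n + 1) → X, (∀ i, ‖c i‖ = 1) ∧
      (∀ i j, i ≠ j → e / 4 < dist (prof h M (c i)) (prof h M (c j))) ∧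
      ((n:ℝ) + 1 - d ≤ ‖∑ i, c i‖) ∧ ∃ i v, ‖v‖ = 1 ∧ c i = T v ∧ l v ≤ d := by
    intro n
    induction n with
    | zero =>
      intro d hd
      obtain ⟨v, hv, hl⟩ := h4 d hd
      refine ⟨fun _ => T v, fun _ => hTs v hv, fun i j hij => absurd (Fin.ext (by omega)) hij,
        ?_, 0, v, hv, rfl, hl⟩
      simp [hTs v hv, hd.le]
    | succ n ih =>
      intro d1 hd1
      have hn : (0:ℝ) < (n:ℝ) + 1 := by positivity
      set m : ℝ := τ / ((n:ℝ) + 1) with hm
      have hm0 : 0 < m := by positivity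
      have hmn : m * ((n:ℝ) + 1) = τ := div_mul_cancel₀ _ hn.ne'
      have hmτ : m ≤ τ := by nlinarith [(Nat.cast_nonneg n : (0:ℝ) ≤ n)]
      set D : ℝ := C * (1 + 3 * C) + 1 with hD
      have hD0 : 0 < D := by positivity
      obtain ⟨d, hd0, hda, hdb, hdc, hdd, hde⟩ : ∃ d : ℝ, 0 < d ∧ d ≤ 1 / 2 ∧ d ≤ e / 4 ∧
          (1 + 3 * C) * d ≤ e ∧ (1 + 3 * C) * d ≤ d1 ∧ D * d ≤ d1 * m := by
        have hc : (0:ℝ) < 1 + 3 * C := by positivity
        refine ⟨min (min (1 / 2) (e / 4)) (min (min (e / (1 + 3 * C)) (d1 / (1 + 3 * C)))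
          (d1 * m / D)), by positivity, (min_le_left _ _).trans (min_le_left _ _),
          (min_le_left _ _).trans (min_le_right _ _), ?_, ?_, ?_⟩
        · exact (le_div_iff₀' hc).1
            ((min_le_right _ _).trans ((min_le_left _ _).trans (min_le_left _ _)))
        · exact (le_div_iff₀' hc).1
            ((min_le_right _ _).trans ((min_le_left _ _).trans (min_le_right _ _)))
        · exact (le_div_iff₀' hD0).1 ((min_le_right _ _).trans (min_le_right _ _))
      obtain ⟨c, hc1, hsep, hsum, i0, v, hv, hcv, hlv⟩ := ih d hd0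
      have hsum' : (Fintype.card (Fin (n + 1)) : ℝ) - d ≤ ‖∑ i, c i‖ := by
        simpa using hsum
      set W : (Fin (n + 1) → ℝ) → Fin (n + 1) → ℝ := fun a i => (1 - τ) * a i + m with hW
      set U : (Fin (n + 1) → ℝ) → X := fun a => ∑ i, W a i • c i with hU
      have hWs : ∀ a ∈ stdSimplex ℝ (Fin (n + 1)), ∑ i, W a i = 1 := by
        intro a ha
        simp only [hW]
        rw [Finset.sum_add_distrib, ← Finset.mul_sum, ha.2]
        simp only [Finset.sum_const, Finset.card_univ, Fintype.card_fin, nsmul_eq_mul]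
        push_cast
        linarith
      have hWm : ∀ a ∈ stdSimplex ℝ (Fin (n + 1)), ∀ i, m ≤ W a i := fun a ha i => by
        have := mul_nonneg (sub_nonneg.2 hτ1) (ha.1 i)
        simp only [hW]; linarith
      have hW1 : ∀ a ∈ stdSimplex ℝ (Fin (n + 1)), ∀ i, W a i ≤ 1 := fun a ha i => by
        have := mul_le_mul_of_nonneg_left (mem_Icc_of_mem_stdSimplex ha i).2 (sub_nonneg.2 hτ1)
        simp only [hW]; linarith
      have hU1 : ∀ a ∈ stdSimplex ℝ (Fin (n + 1)), 1 - d ≤ ‖U a‖ := fun a ha => by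
        have := wsum_up c hc1 zero_le_one hsum' (W a) (hW1 a ha)
        rw [hWs a ha, one_mul] at this
        exact this
      have hU2 : ∀ a ∈ stdSimplex ℝ (Fin (n + 1)), ‖U a‖ ≤ 1 := fun a ha => by
        have := norm_wsum_le c hc1 (W a) (fun _ => 0) (fun i => hm0.le.trans (hWm a ha i))
        rw [hWs a ha] at this
        simpa using this
      set N : (Fin (n + 1) → ℝ) → X := fun a => ‖U a‖⁻¹ • U a with hN
      have hUp : ∀ a ∈ stdSimplex ℝ (Fin (n + 1)), 0 < ‖U a‖ := fun a ha => by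
        linarith [hU1 a ha]
      have hN1 : ∀ a ∈ stdSimplex ℝ (Fin (n + 1)), ‖N a‖ = 1 := fun a ha => by
        simp only [hN]
        rw [norm_smul, norm_inv, norm_norm, inv_mul_cancel₀ (hUp a ha).ne']
      have hNU : ∀ a ∈ stdSimplex ℝ (Fin (n + 1)), ‖N a - U a‖ ≤ d := fun a ha => by
        have e1 : N a - U a = (1 - ‖U a‖) • N a := by
          simp only [hN]
          rw [sub_smul, one_smul, smul_smul, mul_inv_cancel₀ (hUp a ha).ne', one_smul]
        rw [e1, norm_smul, hN1 a ha, mul_one, Real.norm_of_nonneg (sub_nonneg.2 (hU2 a ha))]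
        linarith [hU1 a ha]
      have hshift : ∀ a ∈ stdSimplex ℝ (Fin (n + 1)), ∀ y : X,
          |‖N a + y‖ - ‖U a + y‖| ≤ d := fun a ha y => by
        refine (abs_norm_sub_norm_le _ _).trans ?_
        rw [add_sub_add_right_eq_sub]
        exact hNU a ha
      have hlN : ∀ a ∈ stdSimplex ℝ (Fin (n + 1)), l (N a) ≤ (1 + 3 * C) * d := fun a ha => by
        have e1 : U a + T v = ∑ i, (W a i + if i = i0 then 1 else 0) • c i := by
          simp only [hU, add_smul, Finset.sum_add_distrib, ite_smul, one_smul, zero_smul,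
            Finset.sum_ite_eq', Finset.mem_univ, if_true, hcv]
        have e2 := wsum_up c hc1 zero_le_two hsum' (fun i => W a i + if i = i0 then 1 else 0)
          (fun i => by have := hW1 a ha i; split_ifs <;> linarith)
        rw [← e1, Finset.sum_add_distrib, hWs a ha] at e2
        simp only [Finset.sum_ite_eq', Finset.mem_univ, if_true] at e2
        have e3 := abs_le.1 (hshift a ha (T v))
        have e4 := h3 (N a) v (hN1 a ha) hv
        have e5 : 2 - ‖N a + T v‖ ≤ 3 * d := by linarith [e3.1]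
        nlinarith [mul_le_mul_of_nonneg_left e5 hC]
      have hNc : ContinuousOn N (stdSimplex ℝ (Fin (n + 1))) := by
        have hUc : Continuous U := by simp only [hU, hW]; fun_prop
        exact (hUc.norm.continuousOn.inv₀ fun a ha => (hUp a ha).ne').smul hUc.continuousOn
      have hGc : ContinuousOn (fun a => prof h M (T (N a))) (stdSimplex ℝ (Fin (n + 1))) :=
        (continuous_prof h M).comp_continuousOn
          (hT.comp hNc fun a ha => by simpa using hN1 a ha)
      by_cases hA : ∀ a ∈ stdSimplex ℝ (Fin (n + 1)), ∃ i,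
          dist (prof h M (c i)) (prof h M (T (N a))) ≤ e / 4
      · exfalso
        obtain ⟨a, ha, hak⟩ := kkm (Nat.succ_pos n) (fun i => prof h M (c i)) _ hGc he4 hA
        refine hcon ⟨N a, hN1 a ha, (hlN a ha).trans hdc, fun x hx => ?_⟩
        have hx' : |x| ≤ M := abs_le.2 hx
        have e1 := abs_le.1 (hshift a ha (x • h))
        have e2 : U a + x • h = ∑ i, W a i • (c i + x • h) := by
          simp only [smul_add, Finset.sum_add_distrib]
          rw [← Finset.sum_smul, hWs a ha, one_smul]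
        have e3 : ∀ i, ‖W a i • (c i + x • h)‖ ≤
            (1 - τ) * (‖T (N a) + x • h‖ + e / 2) * a i + m * (1 + M) := by
          intro i
          rw [norm_smul, Real.norm_of_nonneg (hm0.le.trans (hWm a ha i))]
          have f1 : ‖c i + x • h‖ ≤ 1 + M := by
            refine (norm_add_le _ _).trans ?_
            rw [hc1, norm_smul, hh, mul_one, Real.norm_eq_abs]; linarith
          have f2 : a i * ‖c i + x • h‖ ≤ a i * (‖T (N a) + x • h‖ + e / 2) := by
            by_cases hi : a i = 0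
            · simp [hi]
            · have g1 := hak i hi
              have g2 := (abs_le.1 (abs_le_dist_prof h M (c i) (T (N a)) x hx')).2
              exact mul_le_mul_of_nonneg_left (by linarith) (ha.1 i)
          have f3 := mul_le_mul_of_nonneg_left f2 (sub_nonneg.2 hτ1)
          have f4 := mul_le_mul_of_nonneg_left f1 hm0.le
          simp only [hW]
          nlinarith
        have e4 : ‖U a + x • h‖ ≤ (1 - τ) * (‖T (N a) + x • h‖ + e / 2) + τ * (1 + M) := by
          rw [e2]
          refine (norm_sum_le _ _).trans ((Finset.sum_le_sum fun i _ => e3 i).trans (le_of_eq ?_))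
          rw [Finset.sum_add_distrib, ← Finset.mul_sum, ha.2]
          simp only [Finset.sum_const, Finset.card_univ, Fintype.card_fin, nsmul_eq_mul]
          push_cast
          rw [← hmn]; ring
        have e5 : 0 ≤ τ * (‖T (N a) + x • h‖ + e / 2) := by positivity
        nlinarith [e1.2]
      · push Not at hA
        obtain ⟨a, ha, hfar⟩ := hA
        have hc1' : ∀ i, ‖(Fin.cons (T (N a)) c : Fin (n + 1 + 1) → X) i‖ = 1 := by
          intro i
          refine Fin.cases ?_ (fun j => ?_) i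
          · simpa using hTs _ (hN1 a ha)
          · simpa using hc1 j
        refine ⟨Fin.cons (T (N a)) c, hc1', ?_, ?_, 0, N a, hN1 a ha, by simp,
          (hlN a ha).trans hdd⟩
        · intro i j hij
          revert hij
          refine Fin.cases ?_ (fun i' => ?_) i <;> refine Fin.cases ?_ (fun j' => ?_) j
          · intro hij; exact absurd rfl hij
          · intro _; rw [dist_comm]; simpa using hfar j'
          · intro _; simpa using hfar i'
          · intro hij
            simpa using hsep i' j' fun h0 => hij (by rw [h0])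
        · have e1 := h2 _ (hN1 a ha)
          have e2 := abs_le.1 (hshift a ha (T (N a)))
          have e3 := mul_le_mul_of_nonneg_left (hlN a ha) hC
          have e4 : 2 - D * d ≤ ‖U a + T (N a)‖ := by rw [hD]; nlinarith [e2.2]
          have e5 := wsum_down (Fin.cons (T (N a)) c : Fin (n + 1 + 1) → X) hc1' (D := D * d) hm0
            (Fin.cons 1 (W a) : Fin (n + 1 + 1) → ℝ) (fun i => by
              refine Fin.cases ?_ (fun j => ?_) i
              · simpa using hmτ.trans hτ1
              · simpa using hWm a ha j) (by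
              rw [Fin.sum_univ_succ, Fin.sum_univ_succ (fun i =>
                (Fin.cons 1 (W a) : Fin (n + 1 + 1) → ℝ) i •
                (Fin.cons (T (N a)) c : Fin (n + 1 + 1) → X) i)]
              simp only [Fin.cons_zero, Fin.cons_succ, one_smul, hWs a ha]
              rw [add_comm (T (N a))]
              have : (1:ℝ) + 1 = 2 := by norm_num
              rw [this]
              exact e4)
          have e6 : D * d / m ≤ d1 := (div_le_iff₀ hm0).2 hde
          simp only [Fintype.card_fin] at e5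
          push_cast at e5 ⊢
          linarith
  obtain ⟨N, hN⟩ := net_prof h hh hM he4
  obtain ⟨c, hc1, hsep, -⟩ := key N 1 one_pos
  obtain ⟨i, j, hij, hd⟩ := hN (fun i => c i.castSucc) fun i => hc1 _
  exact absurd hd (not_le.2 (hsep _ _ fun h0 => hij (Fin.castSucc_injective _ h0)))

end Crest.Agent.R74
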