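import Crest.Agent.R74.Defs

set_option autoImplicit false

open Set

noncomputable section

namespace Crest.Agent.R74

variable {X : Type*} [NormedAddCommGroup X] [NormedSpace ℝ X]

namespace KF1

/-- `n + 1` almost-norming points whose images are `ε`-separated -/
def P (D : FaceData X) {m : ℕ} (Φ : X → Fin m → ℝ) (ε : ℝ) (n : ℕ) : Prop :=
  ∀ δ : ℝ, 0 < δ → ∃ (c : Fin (n + 1) → X) (φ : X →L[ℝ] ℝ), D.Good δ φ ∧ (∀ i, ‖c i‖ ≤ 1) ∧
    (∀ i, 1 - δ ≤ φ (c i)) ∧ ∀ i j, i ≠ j → ε < ‖Φ (c i) - Φ (c j)‖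

theorem P_zero (D : FaceData X) {m : ℕ} (Φ : X → Fin m → ℝ) (ε : ℝ) : P D Φ ε 0 := by
  intro δ hδ
  obtain ⟨φ, c, h1, h2, h3⟩ := D.start δ hδ
  refine ⟨fun _ => c, φ, h1, fun _ => h2, fun _ => h3, ?_⟩
  intro i j hij
  exact absurd (Subsingleton.elim (α := Fin 1) i j) hij

theorem not_all (D : FaceData X) {m : ℕ} (Φ : X → Fin m → ℝ) (R : ℝ)
    (hΦ : ∀ u, ‖u‖ ≤ 1 → ‖Φ u‖ ≤ R) {ε : ℝ} (hε : 0 < ε) : ¬ ∀ n, P D Φ ε n := by
  classical
  intro hall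
  obtain ⟨t, -, ht, hcov⟩ := finite_cover_balls_of_compact
    (isCompact_closedBall (0 : Fin m → ℝ) R) (half_pos hε)
  obtain ⟨c, φ, -, hc, -, hsep⟩ := hall ht.toFinset.card 1 one_pos
  have hg : ∀ i, ∃ x ∈ t, Φ (c i) ∈ Metric.ball x (ε / 2) := by
    intro i
    have h1 : Φ (c i) ∈ Metric.closedBall (0 : Fin m → ℝ) R := by
      simpa using hΦ _ (hc i)
    have h2 := hcov h1
    simpa only [Set.mem_iUnion, exists_prop] using h2
  choose g hgt hg using hg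
  obtain ⟨i, -, j, -, hij, hgij⟩ := Finset.exists_ne_map_eq_of_card_lt_of_maps_to
    (s := (Finset.univ : Finset (Fin (ht.toFinset.card + 1)))) (t := ht.toFinset)
    (by simp) (f := g) (fun i _ => by simpa using hgt i)
  have h1 := hsep i j hij
  have h2 := hg i
  have h3 := hg j
  rw [hgij] at h2
  rw [Metric.mem_ball] at h2 h3
  have h4 := dist_triangle_right (Φ (c i)) (Φ (c j)) (g j)
  rw [← dist_eq_norm] at h1
  linarith

end KF1

theorem greedy (D : FaceData X) {m : ℕ} (Φ : X → Fin m → ℝ) (R : ℝ)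
    (hΦ : ∀ u, ‖u‖ ≤ 1 → ‖Φ u‖ ≤ R) {ε θ δ₀ : ℝ} (hε : 0 < ε) (hθ : 0 < θ) (hθ1 : θ ≤ 1)
    (hδ₀ : 0 < δ₀) :
    ∃ (n : ℕ) (c : Fin (n + 1) → X) (δ : ℝ) (φ : X →L[ℝ] ℝ), 0 < δ ∧ δ ≤ δ₀ ∧ D.Good δ φ ∧
      (∀ i, ‖c i‖ ≤ 1) ∧ (∀ i, 1 - δ ≤ φ (c i)) ∧
      ∀ w : Fin (n + 1) → ℝ, (∀ i, θ / (n + 1) ≤ w i) → ∑ i, w i = 1 →
        ∃ i, ‖Φ (c i) - Φ (D.T (∑ j, w j • c j))‖ ≤ ε := by
  classical
  have hex : ∃ n, KF1.P D Φ ε n ∧ ¬ KF1.P D Φ ε (n + 1) := by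
    by_contra hcon
    refine KF1.not_all D Φ R hΦ hε ?_
    intro n
    induction n with
    | zero => exact KF1.P_zero D Φ ε
    | succ k ih =>
      by_contra hk
      exact hcon ⟨k, ih, hk⟩
  obtain ⟨n, hn, hn1⟩ := hex
  have hn1' : ∃ δ₁ : ℝ, 0 < δ₁ ∧ ¬ ∃ (c : Fin (n + 1 + 1) → X) (φ : X →L[ℝ] ℝ), D.Good δ₁ φ ∧
      (∀ i, ‖c i‖ ≤ 1) ∧ (∀ i, 1 - δ₁ ≤ φ (c i)) ∧
      ∀ i j, i ≠ j → ε < ‖Φ (c i) - Φ (c j)‖ := by
    by_contra hcon
    apply hn1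
    intro δ hδ
    by_contra h
    exact hcon ⟨δ, hδ, h⟩
  obtain ⟨δ₁, hδ₁, hno⟩ := hn1'
  have hC : 0 < D.C := lt_of_lt_of_le one_pos D.one_le
  have hN : (0 : ℝ) < (n : ℝ) + 1 := by positivity
  set q : ℝ := θ / ((n : ℝ) + 1) with hq
  have hq0 : 0 < q := div_pos hθ hN
  have hq1 : q ≤ 1 := by
    rw [hq, div_le_one hN]
    have : (0 : ℝ) ≤ n := Nat.cast_nonneg n
    linarith
  set δ : ℝ := min δ₀ (min (1 / 2) (δ₁ * q / D.C)) with hδdef
  have hδ : 0 < δ := lt_min hδ₀ (lt_min (by norm_num) (by positivity))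
  have hδa : δ ≤ δ₀ := min_le_left _ _
  have hδb : δ ≤ 1 / 2 := (min_le_right _ _).trans (min_le_left _ _)
  have hδc : D.C * δ ≤ δ₁ * q := by
    have h1 : δ ≤ δ₁ * q / D.C := (min_le_right _ _).trans (min_le_right _ _)
    rw [le_div_iff₀ hC] at h1
    linarith
  have hδd : D.C * δ ≤ δ₁ := hδc.trans (by nlinarith)
  obtain ⟨c, φ, hG, hc, hφ, hsep⟩ := hn δ hδ
  refine ⟨n, c, δ, φ, hδ, hδa, hG, hc, hφ, ?_⟩
  intro w hw hsum
  have hw0 : ∀ i, 0 ≤ w i := fun i => hq0.le.trans (hw i)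
  set u : X := ∑ j, w j • c j with hu
  have hun : ‖u‖ ≤ 1 := by
    calc ‖u‖ ≤ ∑ j, ‖w j • c j‖ := norm_sum_le _ _
      _ ≤ ∑ j, w j := by
        refine Finset.sum_le_sum fun j _ => ?_
        rw [norm_smul, Real.norm_of_nonneg (hw0 j)]
        exact mul_le_of_le_one_right (hw0 j) (hc j)
      _ = 1 := hsum
  have hlin : ∀ ψ : X →L[ℝ] ℝ, 1 - ψ u = ∑ j, w j * (1 - ψ (c j)) := by
    intro ψ
    simp only [hu, map_sum, map_smul, smul_eq_mul, mul_sub, mul_one, Finset.sum_sub_distrib, hsum]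
  have hφu : 1 - δ ≤ φ u := by
    have h1 : ∑ j, w j * (1 - φ (c j)) ≤ ∑ j, w j * δ := by
      refine Finset.sum_le_sum fun j _ => ?_
      exact mul_le_mul_of_nonneg_left (by linarith [hφ j]) (hw0 j)
    rw [← Finset.sum_mul, hsum, ← hlin φ] at h1
    linarith
  have hbd : ∀ (δ' : ℝ) (ψ : X →L[ℝ] ℝ), D.Good δ' ψ → ∀ x : X, ψ x ≤ ‖x‖ := by
    intro δ' ψ hψ x
    have h1 := ψ.le_opNorm x
    have h2 := D.norm_le δ' ψ hψ
    have h3 : ψ x ≤ ‖ψ x‖ := Real.le_norm_self _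
    nlinarith [norm_nonneg x]
  have hu2 : 1 / 2 ≤ ‖u‖ := by
    have := hbd δ φ hG u
    linarith
  obtain ⟨φ', hG', h1', h2'⟩ := D.step δ φ u hδ hδb hG hun hφu
  have hnn : ∀ j, 0 ≤ 1 - φ' (c j) := by
    intro j
    have := hbd _ φ' hG' (c j)
    linarith [hc j]
  have hci : ∀ i, 1 - δ₁ ≤ φ' (c i) := by
    intro i
    have h1 : w i * (1 - φ' (c i)) ≤ ∑ j, w j * (1 - φ' (c j)) :=
      Finset.single_le_sum (f := fun j => w j * (1 - φ' (c j)))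
        (fun j _ => mul_nonneg (hw0 j) (hnn j)) (Finset.mem_univ i)
    rw [← hlin φ'] at h1
    have h2 : q * (1 - φ' (c i)) ≤ w i * (1 - φ' (c i)) :=
      mul_le_mul_of_nonneg_right (hw i) (hnn i)
    have h3 : q * (1 - φ' (c i)) ≤ q * δ₁ := by linarith
    have h4 := le_of_mul_le_mul_left h3 hq0
    linarith
  by_contra hcon
  have hfar : ∀ i, ε < ‖Φ (c i) - Φ (D.T u)‖ := by
    intro i
    by_contra h
    exact hcon ⟨i, not_lt.1 h⟩
  apply hno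
  refine ⟨Fin.cons (D.T u) c, φ', D.mono _ _ _ hG' hδd, ?_, ?_, ?_⟩
  · intro i
    refine Fin.cases ?_ (fun k => ?_) i
    · simpa using D.norm_T u hu2
    · simpa using hc k
  · intro i
    refine Fin.cases ?_ (fun k => ?_) i
    · simp only [Fin.cons_zero]
      linarith
    · simpa using hci k
  · intro i j
    refine Fin.cases ?_ (fun k => ?_) i
    · refine Fin.cases ?_ (fun l => ?_) j
      · intro h
        exact absurd rfl h
      · intro _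
        simp only [Fin.cons_zero, Fin.cons_succ]
        rw [norm_sub_rev]
        exact hfar l
    · refine Fin.cases ?_ (fun l => ?_) j
      · intro _
        simp only [Fin.cons_zero, Fin.cons_succ]
        exact hfar k
      · intro h
        simp only [Fin.cons_succ]
        exact hsep k l (fun h' => h (by rw [h']))

end Crest.Agent.R74
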