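import Crest.Agent.R74.Defs

set_option autoImplicit false

open Set

noncomputable section

namespace Crest.Agent.R74

namespace LimH17

open Filter Topology

lemma prof_bd {A : ℝ → ℝ} (hA : IsProfile A) (x : ℝ) : A x ∈ Icc (-(1 + |x|)) (1 + |x|) := by
  have h1 := hA.lip x 0
  rw [hA.zero, sub_zero, abs_le] at h1
  constructor <;> linarith [h1.1, h1.2, abs_nonneg x]

lemma exists_lim (U : Ultrafilter ℕ) (A : ℕ → ℝ → ℝ) (hA : ∀ n, IsProfile (A n)) :
    ∃ B : ℝ → ℝ, IsProfile B ∧ ∀ (x : ℕ → ℝ) (x0 : ℝ), Tendsto x U (𝓝 x0) →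
      Tendsto (fun n => A n (x n)) U (𝓝 (B x0)) := by
  have h1 : ∀ x : ℝ, ∃ b, Tendsto (fun n => A n x) U (𝓝 b) := by
    intro x
    obtain ⟨b, -, hb⟩ := (isCompact_Icc (a := -(1 + |x|)) (b := 1 + |x|)).ultrafilter_le_nhds
      (U.map fun n => A n x) (by
        rw [Ultrafilter.coe_map, le_principal_iff, mem_map]
        exact Filter.univ_mem' fun n => prof_bd (hA n) x)
    exact ⟨b, hb⟩
  choose B hB using h1
  refine ⟨B, ⟨?_, ?_, ?_, ?_⟩, ?_⟩
  · intro x y
    exact le_of_tendsto' ((hB x).sub (hB y)).abs fun n => (hA n).lip x y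
  · intro x y θ h0 h1
    exact le_of_tendsto_of_tendsto' (hB _) (((hB x).const_mul _).add ((hB y).const_mul _))
      fun n => (hA n).convex x y θ h0 h1
  · have : (fun n => A n 0) = fun _ => 1 := funext fun n => (hA n).zero
    have h2 := hB 0
    rw [this] at h2
    exact (tendsto_nhds_unique tendsto_const_nhds h2).symm
  · intro x hx
    exact ge_of_tendsto' (hB x) fun n => (hA n).lower x hx
  · intro x x0 hx
    have h2 : Tendsto (fun n => A n (x n) - A n x0) U (𝓝 0) := by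
      have h3 : Tendsto (fun n => |x n - x0|) U (𝓝 0) := by
        have := (hx.sub_const x0).abs
        rwa [sub_self, abs_zero] at this
      apply squeeze_zero_norm' _ h3
      exact Eventually.of_forall fun n => (hA n).lip _ _
    have h4 := h2.add (hB x0)
    simpa using h4

end LimH17

open Filter Topology in
theorem prof_limit {η : ℝ → ℝ → ℝ} {s t ρ : ℝ}
    (h : ∀ ε : ℝ, 0 < ε → Nonempty (Prof η s t ρ ε)) : Nonempty (Prof η s t ρ 0) := by
  have hP : ∀ n : ℕ, Nonempty (Prof η s t ρ (1 / ((n : ℝ) + 1))) := fun n =>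
    h _ Nat.one_div_pos_of_nat
  let P : ∀ n : ℕ, Prof η s t ρ (1 / ((n : ℝ) + 1)) := fun n => Classical.choice (hP n)
  let U : Ultrafilter ℕ := hyperfilter ℕ
  have hU : (U : Filter ℕ) ≤ atTop := by
    rw [← Nat.cofinite_eq_atTop]; exact hyperfilter_le_cofinite
  have he : Tendsto (fun n : ℕ => 1 / ((n : ℝ) + 1)) U (𝓝 0) :=
    tendsto_one_div_add_atTop_nhds_zero_nat.mono_left hU
  obtain ⟨Ap, hAp, lAp⟩ := LimH17.exists_lim U (fun n => (P n).Ap) fun n => (P n).hAp
  obtain ⟨Bp, hBp, lBp⟩ := LimH17.exists_lim U (fun n => (P n).Bp) fun n => (P n).hBp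
  obtain ⟨Aq, hAq, lAq⟩ := LimH17.exists_lim U (fun n => (P n).Aq) fun n => (P n).hAq
  obtain ⟨Bq, hBq, lBq⟩ := LimH17.exists_lim U (fun n => (P n).Bq) fun n => (P n).hBq
  have cAp := fun x => lAp (fun _ => x) x tendsto_const_nhds
  have cBp := fun x => lBp (fun _ => x) x tendsto_const_nhds
  have cAq := fun x => lAq (fun _ => x) x tendsto_const_nhds
  have cBq := fun x => lBq (fun _ => x) x tendsto_const_nhds
  refine ⟨⟨Ap, Bp, Aq, Bq, hAp, hBp, hAq, hBq, ?_, ?_, ?_, ?_, ?_, ?_⟩⟩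
  · intro σ hσ τ hτ
    exact le_of_tendsto' ((cBp τ).sub (cAp σ)) fun n => (P n).bdp σ hσ τ hτ
  · intro σ hσ τ hτ
    exact le_of_tendsto' ((cAq σ).sub (cBq τ)) fun n => (P n).bdq σ hσ τ hτ
  · exact le_of_tendsto_of_tendsto' (he.const_sub ρ) ((cBp t).sub (cAp s)) fun n => (P n).extp
  · exact le_of_tendsto_of_tendsto' (he.const_sub ρ) ((cAq s).sub (cBq t)) fun n => (P n).extq
  · intro x hx
    exact le_of_tendsto_of_tendsto'
      ((cAq s).mul (lAp _ _ (((cAp s).mul_const x).const_sub s)))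
      (((cAp s).mul (lAq _ _ (((cAq s).mul_const x).const_add s))).add he)
      fun n => (P n).linkX x hx
  · intro x hx
    exact le_of_tendsto_of_tendsto'
      ((cBp t).mul (lBq _ _ (((cBq t).mul_const x).const_add t)))
      (((cBq t).mul (lBp _ _ (((cBp t).mul_const x).const_sub t))).add he)
      fun n => (P n).linkY x hx

end Crest.Agent.R74
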