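import Crest.Agent.R74.FaceG17
import Crest.Agent.R74.Eta

set_option autoImplicit false

open Set

noncomputable section

namespace Crest.Agent.R74.H17

variable {X Y : Type*} [NormedAddCommGroup X] [NormedSpace ℝ X] [NormedAddCommGroup Y]
  [NormedSpace ℝ Y]

lemma nrm_plus (p u y : X) (s a : ℝ) (ha : 0 < a) (hp : p = s • y + a • u) (x : ℝ) :
    ‖p - (s - a * x) • y‖ = a * ‖u + x • y‖ := by
  have : p - (s - a * x) • y = a • (u + x • y) := by
    rw [hp, sub_smul, smul_add, smul_smul]; abel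
  rw [this, norm_smul, Real.norm_of_nonneg ha.le]

lemma nrm_minus (q u y : X) (s b : ℝ) (hb : 0 < b) (hq : q = s • y - b • u) (x : ℝ) :
    ‖q - (s + b * x) • y‖ = b * ‖u + x • y‖ := by
  have : q - (s + b * x) • y = -(b • (u + x • y)) := by
    rw [hq, add_smul, smul_add, smul_smul]; abel
  rw [this, norm_neg, norm_smul, Real.norm_of_nonneg hb.le]

theorem exists_prof (f : Metric.sphere (0 : X) 1 → Metric.sphere (0 : Y) 1)
    (hf : Isometry f) (hs : Function.Surjective f) (y : Metric.sphere (0 : X) 1) {s t ρ : ℝ}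
    (H : IsMaxPt (eta f y) s t ρ) {ε : ℝ} (hε : 0 < ε) :
    Nonempty (Prof (eta f y) s t ρ ε) := by
  have hy : ‖(y : X)‖ = 1 := mem_sphere_zero_iff_norm.mp y.2
  have hk : ‖(f y : Y)‖ = 1 := mem_sphere_zero_iff_norm.mp (f y).2
  have hz : ‖s • (y : X)‖ < 1 := by
    rw [norm_smul, hy, mul_one, Real.norm_of_nonneg H.s_pos.le]; exact H.s_lt
  have hw : ‖t • (f y : Y)‖ < 1 := by
    rw [norm_smul, hk, mul_one, Real.norm_of_nonneg H.t_pos.le]; exact H.t_lt
  obtain ⟨p, q, a, b, a1, b1, u1, u2, v, hu1, hu2, hv, ha, hb, ha1, hb1, hp, hq, hfp, hfq, e1, e2,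
    hJ⟩ := face f hf hs (s • (y : X)) (t • (f y : Y)) hz hw ρ
      (fun p => H.val ▸ abs_le_eta f y p s t)
      (fun d hd => H.val ▸ exists_near_eta f y s t hd) (y : X) 1 (ε / 4) (by positivity)
  have va : ‖(p : X) - s • (y : X)‖ = a := by
    have := nrm_plus _ _ _ _ _ ha hp 0
    simpa [hu1] using this
  have vb : ‖(q : X) - s • (y : X)‖ = b := by
    have := nrm_minus _ _ _ _ _ hb hq 0
    simpa [hu2] using this
  have va1 : ‖(f p : Y) - t • (f y : Y)‖ = a1 := by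
    have := nrm_plus _ _ _ _ _ ha1 hfp 0
    simpa [hv] using this
  have vb1 : ‖(f q : Y) - t • (f y : Y)‖ = b1 := by
    have := nrm_minus _ _ _ _ _ hb1 hfq 0
    simpa [hv] using this
  have a2 : a ≤ 2 := va ▸ (bnd _ hz p).2
  have b2 : b ≤ 2 := vb ▸ (bnd _ hz q).2
  refine ⟨⟨fun σ => ‖(p : X) - σ • (y : X)‖, fun τ => ‖(f p : Y) - τ • (f y : Y)‖,
    fun σ => ‖(q : X) - σ • (y : X)‖, fun τ => ‖(f q : Y) - τ • (f y : Y)‖,
    isProfile p y, isProfile (f p) (f y), isProfile q y, isProfile (f q) (f y),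
    ?_, ?_, ?_, ?_, ?_, ?_⟩⟩
  · intro σ _ τ _
    have := (abs_le.mp (abs_le_eta f y p σ τ)).1
    linarith
  · intro σ _ τ _
    have := (abs_le.mp (abs_le_eta f y q σ τ)).2
    linarith
  · rw [va, va1]; linarith
  · rw [vb, vb1]; linarith
  · intro x hx
    rw [va, vb, nrm_plus _ _ _ _ _ ha hp x, nrm_minus _ _ _ _ _ hb hq x]
    have h1 := mul_le_mul_of_nonneg_left (hJ x hx) (mul_pos ha hb).le
    have h2 : a * b ≤ 2 * 2 := mul_le_mul a2 b2 hb.le (by norm_num)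
    have h3 : a * b * (ε / 4) ≤ 2 * 2 * (ε / 4) := mul_le_mul_of_nonneg_right h2 (by positivity)
    nlinarith
  · intro x _
    rw [va1, vb1, nrm_plus _ _ _ _ _ ha1 hfp x, nrm_minus _ _ _ _ _ hb1 hfq x]
    nlinarith

end Crest.Agent.R74.H17
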