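import Crest.Agent.R74.F18
import Crest.Agent.R74.Eta

set_option autoImplicit false

open Set

noncomputable section

namespace Crest.Agent.R74

variable {X Y : Type*} [NormedAddCommGroup X] [NormedSpace ℝ X] [NormedAddCommGroup Y]
  [NormedSpace ℝ Y]

theorem F18.nrm1 (z u h : X) (s a x : ℝ) (ha : 0 < a) :
    ‖s • h + a • u - (s - a * x) • h‖ = a * ‖u + x • h‖ := by
  have : s • h + a • u - (s - a * x) • h = a • (u + x • h) := by module
  rw [this, norm_smul, Real.norm_eq_abs, abs_of_pos ha]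

theorem F18.nrm2 (z u h : X) (s a x : ℝ) (ha : 0 < a) :
    ‖s • h - a • u - (s + a * x) • h‖ = a * ‖u + x • h‖ := by
  have : s • h - a • u - (s + a * x) • h = (-a) • (u + x • h) := by module
  rw [this, norm_smul, Real.norm_eq_abs, abs_neg, abs_of_pos ha]

theorem exists_prof18 (f : Metric.sphere (0 : X) 1 → Metric.sphere (0 : Y) 1)
    (hf : Isometry f) (hs : Function.Surjective f) (y : Metric.sphere (0 : X) 1) {s t ρ : ℝ}
    (H : IsMaxPt (eta f y) s t ρ) {ε : ℝ} (hε : 0 < ε) :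
    Nonempty (Prof (eta f y) s t ρ ε) := by
  have hz : ‖s • (y : X)‖ < 1 := by
    rw [norm_smul, F18.sph_norm, mul_one, Real.norm_eq_abs, abs_of_pos H.s_pos]; exact H.s_lt
  have hw : ‖t • (f y : Y)‖ < 1 := by
    rw [norm_smul, F18.sph_norm, mul_one, Real.norm_eq_abs, abs_of_pos H.t_pos]; exact H.t_lt
  obtain ⟨p, q, a, b, a1, b1, u1, u2, v, hu1, hu2, hv, ha, hb, ha1, hb1, hp, hq, hfp, hfq,
    e1, e2, hJ⟩ := F18.face hf hs (s • (y : X)) (t • (f y : Y)) hz hw ρ
    (fun p => H.val ▸ abs_le_eta f y p s t)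
    (fun d hd => H.val ▸ exists_near_eta f y s t hd) (y : X) 1 (ε / 4) (by positivity)
  have ea : ‖(p : X) - s • (y : X)‖ = a := by
    rw [hp, add_sub_cancel_left, norm_smul, hu1, mul_one, Real.norm_eq_abs, abs_of_pos ha]
  have eb : ‖(q : X) - s • (y : X)‖ = b := by
    rw [hq, sub_sub_cancel_left, norm_neg, norm_smul, hu2, mul_one, Real.norm_eq_abs,
      abs_of_pos hb]
  have ea1 : ‖(f p : Y) - t • (f y : Y)‖ = a1 := by
    rw [hfp, add_sub_cancel_left, norm_smul, hv, mul_one, Real.norm_eq_abs, abs_of_pos ha1]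
  have eb1 : ‖(f q : Y) - t • (f y : Y)‖ = b1 := by
    rw [hfq, sub_sub_cancel_left, norm_neg, norm_smul, hv, mul_one, Real.norm_eq_abs,
      abs_of_pos hb1]
  have ha2 : a ≤ 2 := by
    have := norm_sub_le (p : X) (s • (y : X))
    rw [F18.sph_norm] at this; linarith
  have hb2 : b ≤ 2 := by
    have := norm_sub_le (q : X) (s • (y : X))
    rw [F18.sph_norm] at this; linarith
  refine ⟨⟨fun σ => ‖(p : X) - σ • (y : X)‖, fun τ => ‖(f p : Y) - τ • (f y : Y)‖,
    fun σ => ‖(q : X) - σ • (y : X)‖, fun τ => ‖(f q : Y) - τ • (f y : Y)‖,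
    isProfile p y, isProfile (f p) (f y), isProfile q y, isProfile (f q) (f y),
    fun σ _ τ _ => ?_, fun σ _ τ _ => ?_, ?_, ?_, fun x hx => ?_, fun x hx => ?_⟩⟩
  · have := (abs_le.1 (abs_le_eta f y p σ τ)).1
    linarith
  · exact (abs_le.1 (abs_le_eta f y q σ τ)).2
  · rw [ea, ea1]; linarith
  · rw [eb, eb1]; linarith
  · rw [ea, eb, hp, hq, F18.nrm1 0 _ _ _ _ _ ha, F18.nrm2 0 _ _ _ _ _ hb]
    have h1 := mul_le_mul_of_nonneg_left (hJ x hx) (mul_pos ha hb).le
    have h2 : a * b ≤ 4 := by nlinarith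
    nlinarith
  · rw [ea1, eb1, hfp, hfq, F18.nrm1 0 _ _ _ _ _ ha1, F18.nrm2 0 _ _ _ _ _ hb1]
    nlinarith

end Crest.Agent.R74
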