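import Crest.Agent.R74.Defs

set_option autoImplicit false

open Set

noncomputable section

namespace Crest.Agent.R74

namespace PE14

theorem tangent {A : ℝ → ℝ} (hA : IsProfile A) {s g K : ℝ} (hs0 : 0 < s) (hs1 : s < 1)
    (hK : 0 < K) (h : ∀ y ∈ Icc (0 : ℝ) 1, A y ≤ A s + g * (y - s) + K * (y - s) ^ 2)
    (x : ℝ) (hx : x ∈ Icc (0 : ℝ) 1) : A s + g * (x - s) ≤ A x := by
  obtain ⟨hx0, hx1⟩ := hx
  refine le_of_forall_pos_le_add fun e he => ?_
  set θ : ℝ := min (min s (1 - s)) (e / K) with hθ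
  have hθ0 : 0 < θ := lt_min (lt_min hs0 (by linarith)) (div_pos he hK)
  have hθs : θ ≤ s := (min_le_left _ _).trans (min_le_left _ _)
  have hθS : θ ≤ 1 - s := (min_le_left _ _).trans (min_le_right _ _)
  have hθe : K * θ ≤ e := by
    have : θ ≤ e / K := min_le_right _ _
    rw [le_div_iff₀ hK] at this; linarith
  have hy : s - θ * (x - s) ∈ Icc (0 : ℝ) 1 := by
    constructor <;> nlinarith
  have h1 := h _ hy
  have hp : 0 < 1 + θ := by linarith
  have h2 := hA.convex (s - θ * (x - s)) x (θ / (1 + θ)) (by positivity)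
    (by rw [div_le_one hp]; linarith)
  have e1 : (1 - θ / (1 + θ)) * (s - θ * (x - s)) + θ / (1 + θ) * x = s := by
    field_simp; ring
  rw [e1] at h2
  have h3 : (1 + θ) * A s ≤ A (s - θ * (x - s)) + θ * A x := by
    have e2 : (1 + θ) * ((1 - θ / (1 + θ)) * A (s - θ * (x - s)) + θ / (1 + θ) * A x) =
        A (s - θ * (x - s)) + θ * A x := by field_simp; ring
    rw [← e2]; exact mul_le_mul_of_nonneg_left h2 hp.le
  have hsq : (x - s) ^ 2 ≤ 1 := by nlinarith
  have h4 : θ * (A s + g * (x - s)) ≤ θ * (A x + K * θ * (x - s) ^ 2) := by nlinarith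
  have h5 := le_of_mul_le_mul_left h4 hθ0
  have h6 : K * θ * (x - s) ^ 2 ≤ K * θ := by
    have : 0 ≤ K * θ := by positivity
    nlinarith
  linarith

theorem sqrt_le {ρ z : ℝ} (hρ : 0 < ρ) (hz : 0 ≤ z) : √z ≤ (z + ρ ^ 2) / (2 * ρ) := by
  rw [le_div_iff₀ (by positivity)]
  nlinarith [Real.sq_sqrt hz, sq_nonneg (√z - ρ)]

theorem posr {x d : ℝ} (h : 0 < x * d) (hd : 0 < d) : 0 < x := (mul_pos_iff_of_pos_right hd).1 h

theorem pos_of_mul_pos_left' {x c : ℝ} (h : 0 < c * x) (hc : 0 < c) : 0 < x :=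
  (mul_pos_iff_of_pos_left hc).1 h

theorem L1 {x y g α β : ℝ} (hg0 : 0 ≤ g) (hg1 : g < 1) (hx0 : 0 < x) (hx1 : x ≤ 1) (hα : 0 < α)
    (hβ : 0 < β) (hαβ : α + β < 1) (h1 : 1 - g * x ≤ y) (h2 : x ≤ y * β)
    (h3 : y ^ 2 ≤ (1 - g ^ 2) * α ^ 2 + (x - g) ^ 2) : False := by
  have hq : 0 < 1 - g ^ 2 := by nlinarith
  have h0 : 0 ≤ 1 - g * x := by nlinarith
  have h4 : (1 - g * x) ^ 2 ≤ y ^ 2 := pow_le_pow_left₀ h0 h1 2
  have h5 : (1 - g ^ 2) * (1 - x ^ 2) ≤ (1 - g ^ 2) * α ^ 2 := by nlinarith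
  have h6 : 1 - x ^ 2 ≤ α ^ 2 := le_of_mul_le_mul_left h5 hq
  have h7 : 1 - α ^ 2 ≤ x := by nlinarith
  have hα1 : 0 ≤ 1 - α ^ 2 := by nlinarith
  have h8 : g * (1 - α ^ 2) ≤ 2 * x := by nlinarith
  have h9 : y ^ 2 ≤ x ^ 2 + α ^ 2 := by nlinarith [mul_le_mul_of_nonneg_left h8 hg0]
  have h10 : x ^ 2 ≤ (y * β) ^ 2 := pow_le_pow_left₀ hx0.le h2 2
  have h11 : x ^ 2 ≤ (x ^ 2 + α ^ 2) * β ^ 2 := by
    have := mul_le_mul_of_nonneg_right h9 (sq_nonneg β)
    nlinarith
  have hβ1 : 0 ≤ 1 - β ^ 2 := by nlinarith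
  have h12 : (1 - α ^ 2) * (1 - β ^ 2) ≤ x ^ 2 * (1 - β ^ 2) :=
    mul_le_mul_of_nonneg_right (by linarith) hβ1
  nlinarith [mul_pos hα hβ]

theorem L1' {T a a' b' d D g : ℝ} (hg0 : 0 ≤ g) (hg1 : g < 1) (hT0 : 0 < T) (hT : T ≤ a')
    (ha : 0 < a) (hb' : 0 < b') (hd : a + b' < d) (h1 : a' - g * T ≤ D) (h2 : T * d ≤ b' * D)
    (h3 : D ^ 2 * d ^ 2 ≤ (1 - g ^ 2) * (a * a') ^ 2 + d ^ 2 * (T - a' * g) ^ 2) : False := by
  have ha' : 0 < a' := by linarith
  have hd0 : 0 < d := by linarith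
  obtain ⟨x, rfl⟩ : ∃ x, T = x * a' := ⟨T / a', by field_simp⟩
  obtain ⟨y, rfl⟩ : ∃ y, D = y * a' := ⟨D / a', by field_simp⟩
  obtain ⟨α, rfl⟩ : ∃ α, a = α * d := ⟨a / d, by field_simp⟩
  obtain ⟨β, rfl⟩ : ∃ β, b' = β * d := ⟨b' / d, by field_simp⟩
  refine L1 (x := x) (y := y) (α := α) (β := β) hg0 hg1 (posr hT0 ha')
    ?_ (posr ha hd0) (posr hb' hd0)
    ?_ ?_ ?_ ?_
  · exact le_of_mul_le_mul_right (by linarith) ha'
  · exact lt_of_mul_lt_mul_right (a := d) (by linarith) hd0.le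
  · exact le_of_mul_le_mul_right (by linarith) ha'
  · exact le_of_mul_le_mul_right (a := a' * d) (by linarith) (by positivity)
  · exact le_of_mul_le_mul_right (a := a' ^ 2 * d ^ 2) (by linarith) (by positivity)

theorem L2 {s b g β : ℝ} (hg0 : 0 ≤ g) (hg1 : g < 1) (hs0 : 0 < s) (hs1 : s < 1) (hb : 0 < b)
    (hβ0 : 0 < β) (hβ : β < 1 - s) (hB : b ≤ 1 + s * g)
    (h : 1 ≤ (1 - g ^ 2) * (b * β) ^ 2 + (s - b * g) ^ 2) : False := by
  have h1 : (1 - g) * (1 + s * g + s) ≤ 1 + (s - b * g) := by nlinarith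
  have h2 : 0 < 1 - s + b * g := by have := mul_nonneg hb.le hg0; linarith
  have h3 : (1 - g) * (1 + s * g + s) * (1 - s + b * g) ≤ (1 + (s - b * g)) * (1 - s + b * g) :=
    mul_le_mul_of_nonneg_right h1 h2.le
  have h4 : (1 - g) * ((1 + s * g + s) * (1 - s + b * g)) ≤ (1 - g) * ((1 + g) * (b * β) ^ 2) := by
    nlinarith
  have h5 := le_of_mul_le_mul_left h4 (show 0 < 1 - g by linarith)
  have h6 : b * (1 - s + b * g) ≤ (1 + s * g + s) * (1 - s + b * g) :=
    mul_le_mul_of_nonneg_right (by linarith) h2.le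
  have h7 : (b * β) ^ 2 < (b * (1 - s)) ^ 2 :=
    pow_lt_pow_left₀ (mul_lt_mul_of_pos_left hβ hb) (by positivity) (by norm_num)
  have h8 : b * (1 - s) ≤ 1 := by
    have k1 : s * g ≤ s := mul_le_of_le_one_right hs0.le hg1.le
    have k2 : b * (1 - s) ≤ (1 + s) * (1 - s) := mul_le_mul_of_nonneg_right (by linarith) (by linarith)
    nlinarith [sq_nonneg s]
  have h9 : 0 < b * (1 - s) := mul_pos hb (by linarith)
  have h10 : (b * (1 - s)) ^ 2 ≤ b * (1 - s) := by nlinarith
  have h11 : g * (b * (1 - s)) ^ 2 ≤ g * b ^ 2 := by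
    refine mul_le_mul_of_nonneg_left ?_ hg0
    exact pow_le_pow_left₀ h9.le (by nlinarith) 2
  have h12 : (1 + g) * (b * β) ^ 2 < (1 + g) * (b * (1 - s)) ^ 2 :=
    mul_lt_mul_of_pos_left h7 (by linarith)
  nlinarith

theorem L3 {S t b b' g α β β' d : ℝ} (hg0 : 0 ≤ g) (hg1 : g < 1) (hd : 0 < d) (hS0 : 0 < S)
    (ht0 : 0 < t) (hb : b = β * d) (hb' : b' = β' * d) (hαβ : α + β = 1) (hβ' : 0 < β')
    (hββ : β' < β) (hSa : S ≤ α * d) (hSβ : S < β) (ht : t < β')
    (h1 : b ^ 2 * (1 - β' ^ 2) ≤ S ^ 2)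
    (h : 1 ≤ (1 - g ^ 2) * (b * β') ^ 2 + (t - b' * g) ^ 2) : False := by
  have hα : 0 < α := posr (hS0.trans_le hSa) hd
  have hβ : 0 < β := by linarith
  have hb0 : 0 < b := by rw [hb]; positivity
  have hb'0 : 0 < b' := by rw [hb']; positivity
  have hbb : b' < b := by rw [hb, hb']; exact mul_lt_mul_of_pos_right hββ hd
  have h2 : S ^ 2 ≤ (α * d) ^ 2 := pow_le_pow_left₀ hS0.le hSa 2
  have hββ2 : β' ^ 2 ≤ β ^ 2 := pow_le_pow_left₀ hβ'.le hββ.le 2
  have h3 : b ^ 2 * (1 - β ^ 2) ≤ b ^ 2 * (1 - β' ^ 2) :=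
    mul_le_mul_of_nonneg_left (by linarith) (sq_nonneg b)
  have h4 : β ^ 2 * (1 - β ^ 2) * d ^ 2 ≤ α ^ 2 * d ^ 2 := by
    have : b ^ 2 = β ^ 2 * d ^ 2 := by rw [hb]; ring
    nlinarith
  have h5 := le_of_mul_le_mul_right h4 (by positivity)
  have h6 : β ^ 2 * (1 + β) * α ≤ α * α := by
    have : α = 1 - β := by linarith
    subst this; nlinarith
  have h7 := le_of_mul_le_mul_right h6 hα
  have h8 : β < 11 / 20 := by
    by_contra hc
    push Not at hc
    nlinarith
  have h9 : S ^ 2 ≤ (11 / 20) ^ 2 := pow_le_pow_left₀ hS0.le (by linarith) 2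
  have h10 : β' ^ 2 ≤ (11 / 20) ^ 2 := pow_le_pow_left₀ hβ'.le (by linarith) 2
  have h11 : b ^ 2 ≤ 44 / 100 := by
    have := mul_le_mul_of_nonneg_left h10 (sq_nonneg b)
    linarith
  have h12 : b < 67 / 100 := lt_of_pow_lt_pow_left₀ 2 (by norm_num) (by linarith)
  have h13 : (t - b' * g) ^ 2 ≤ (67 / 100) ^ 2 := by
    have k1 : b' * g ≤ b' := mul_le_of_le_one_right hb'0.le hg1.le
    have k2 := mul_nonneg hb'0.le hg0
    apply sq_le_sq' <;> linarith
  have h14 : (b * β') ^ 2 ≤ 44 / 100 * (11 / 20) ^ 2 := by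
    rw [mul_pow]; exact mul_le_mul h11 h10 (sq_nonneg _) (by norm_num)
  have h15 : (1 - g ^ 2) * (b * β') ^ 2 ≤ (b * β') ^ 2 :=
    mul_le_of_le_one_left (sq_nonneg _) (by linarith [sq_nonneg g])
  linarith

/-- squaring a bound `u ≤ w * η`, `η ≤ √z` -/
theorem sq_of {u w e z : ℝ} (hu : 0 ≤ u) (hw : 0 ≤ w) (hz : 0 ≤ z) (h1 : u ≤ w * e)
    (h2 : e ≤ √z) : u ^ 2 ≤ w ^ 2 * z := by
  have h3 : u ≤ w * √z := h1.trans (mul_le_mul_of_nonneg_left h2 hw)
  have := pow_le_pow_left₀ hu h3 2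
  rwa [mul_pow, Real.sq_sqrt hz] at this

set_option maxHeartbeats 4000000 in
theorem core {η : ℝ → ℝ → ℝ} {s t ρ : ℝ} (H : IsMaxPt η s t ρ) (P : Prof η s t ρ 0)
    (hts : t ≤ s) : False := by
  obtain ⟨hs0, hs1, ht0, ht1, hval, hgap, hup, hbd⟩ := H
  obtain ⟨Ap, Bp, Aq, Bq, hAp, hBp, hAq, hBq, bdp, bdq, extp, extq, linkX, linkY⟩ := P
  simp only [add_zero, sub_zero] at extp extq linkX linkY
  have hρ : 0 < ρ := (abs_nonneg _).trans_lt hgap
  have hst : s - t < ρ := (le_abs_self _).trans_lt hgap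
  obtain ⟨g, hg⟩ : ∃ g, s - t = ρ * g := ⟨(s - t) / ρ, by field_simp⟩
  have hg0 : 0 ≤ g := by
    by_contra hc
    push Not at hc
    have := mul_neg_of_pos_of_neg hρ hc
    linarith
  have hg1 : g < 1 := lt_of_mul_lt_mul_left (a := ρ) (by linarith) hρ.le
  have hq : 0 < 1 - g ^ 2 := by nlinarith
  have hc2 : ρ ^ 2 - (s - t) ^ 2 = ρ ^ 2 * (1 - g ^ 2) := by rw [hg]; ring
  have hc0 : 0 < ρ ^ 2 * (1 - g ^ 2) := by positivity
  rw [hc2] at hup
  have hsI : s ∈ Icc (0 : ℝ) 1 := ⟨hs0.le, hs1.le⟩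
  have htI : t ∈ Icc (0 : ℝ) 1 := ⟨ht0.le, ht1.le⟩
  have I0 : (0 : ℝ) ∈ Icc (0 : ℝ) 1 := ⟨le_rfl, zero_le_one⟩
  have I1 : (1 : ℝ) ∈ Icc (0 : ℝ) 1 := ⟨zero_le_one, le_rfl⟩
  have ea : Bp t = Ap s + ρ := by have := bdp s hsI t htI; linarith
  have eb : Aq s = Bq t + ρ := by have := bdq s hsI t htI; linarith
  -- first-order facts
  have F1 : ∀ x ∈ Icc (0 : ℝ) 1, Aq s + g * (x - s) ≤ Aq x := by
    refine tangent hAq hs0 hs1 (K := 1 / (2 * ρ)) (by positivity) fun y hy => ?_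
    have h1 := bdq y hy t htI
    have h2 := hup y hy t htI
    have h3 := sqrt_le hρ (z := ρ ^ 2 * (1 - g ^ 2) + (y - t) ^ 2) (by positivity)
    have h4 : (ρ ^ 2 * (1 - g ^ 2) + (y - t) ^ 2 + ρ ^ 2) / (2 * ρ) =
        ρ + g * (y - s) + 1 / (2 * ρ) * (y - s) ^ 2 := by
      have : t = s - ρ * g := by linarith
      rw [this]; field_simp; ring
    linarith
  have F2 : ∀ x ∈ Icc (0 : ℝ) 1, Bp t + (-g) * (x - t) ≤ Bp x := by
    refine tangent hBp ht0 ht1 (K := 1 / (2 * ρ)) (by positivity) fun y hy => ?_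
    have h1 := bdp s hsI y hy
    have h2 := hup s hsI y hy
    have h3 := sqrt_le hρ (z := ρ ^ 2 * (1 - g ^ 2) + (s - y) ^ 2) (by positivity)
    have h4 : (ρ ^ 2 * (1 - g ^ 2) + (s - y) ^ 2 + ρ ^ 2) / (2 * ρ) =
        ρ + (-g) * (y - t) + 1 / (2 * ρ) * (y - t) ^ 2 := by
      have : s = t + ρ * g := by linarith
      rw [this]; field_simp; ring
    linarith
  have la := hAp.lower s hs0.le
  have lb := hAq.lower s hs0.le
  have la' := hBp.lower t ht0.le
  have lb' := hBq.lower t ht0.le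
  have hB := F1 0 I0
  rw [hAq.zero] at hB
  generalize Ap s = a at *
  generalize Bp t = a' at *
  generalize Aq s = b at *
  generalize Bq t = b' at *
  have ha : 0 < a := by linarith
  have hb : 0 < b := by linarith
  have ha' : 0 < a' := by linarith
  have hb' : 0 < b' := by linarith
  have et : t = s - ρ * g := by linarith
  have eb' : b' = b - ρ := by linarith
  obtain ⟨d, hd⟩ : ∃ d, d = a + b := ⟨_, rfl⟩
  have hd0 : 0 < d := by linarith
  have hρd : 0 < ρ * d := by positivity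
  have absle : ∀ x : ℝ, 0 ≤ x → x ≤ 1 → |x| ≤ 1 ∧ |-x| ≤ 1 := fun x h0 h1 => by
    rw [abs_neg, abs_of_nonneg h0]; exact ⟨h1, h1⟩
  -- the eight ratios
  obtain ⟨x1, hx1⟩ : ∃ x, 1 - t = a' * x := ⟨(1 - t) / a', by field_simp⟩
  obtain ⟨x2, hx2⟩ : ∃ x, 1 - s = a * x := ⟨(1 - s) / a, by field_simp⟩
  obtain ⟨x3, hx3⟩ : ∃ x, s = b * x := ⟨s / b, by field_simp⟩
  obtain ⟨x4, hx4⟩ : ∃ x, t = b' * x := ⟨t / b', by field_simp⟩
  obtain ⟨x5, hx5⟩ : ∃ x, 1 - s = b * x := ⟨(1 - s) / b, by field_simp⟩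
  obtain ⟨x6, hx6⟩ : ∃ x, 1 - t = b' * x := ⟨(1 - t) / b', by field_simp⟩
  obtain ⟨x7, hx7⟩ : ∃ x, t = a' * x := ⟨t / a', by field_simp⟩
  have p1 : 0 < x1 := pos_of_mul_pos_left' (c := a') (by linarith) ha'
  have p2 : 0 < x2 := pos_of_mul_pos_left' (c := a) (by linarith) ha
  have p3 : 0 < x3 := pos_of_mul_pos_left' (c := b) (by linarith) hb
  have p4 : 0 < x4 := pos_of_mul_pos_left' (c := b') (by linarith) hb'
  have p5 : 0 < x5 := pos_of_mul_pos_left' (c := b) (by linarith) hb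
  have p6 : 0 < x6 := pos_of_mul_pos_left' (c := b') (by linarith) hb'
  have p7 : 0 < x7 := pos_of_mul_pos_left' (c := a') (by linarith) ha'
  have q1 : x1 ≤ 1 := le_of_mul_le_mul_left (a := a') (by linarith) ha'
  have q2 : x2 ≤ 1 := le_of_mul_le_mul_left (a := a) (by linarith) ha
  have q5 : x5 ≤ 1 := le_of_mul_le_mul_left (a := b) (by linarith) hb
  have q6 : x6 ≤ 1 := le_of_mul_le_mul_left (a := b') (by linarith) hb'
  -- negative direction: the two basic inequalities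
  have NEG : ∀ x x' : ℝ, 0 ≤ x → x ≤ 1 → 0 ≤ x' → x' ≤ 1 → s + a * x ≤ 1 → 0 ≤ s - b * x →
      t + a' * x' ≤ 1 → 0 ≤ t - b' * x' →
      ρ * d * Bp (t + a' * x') ≤
        a' * (b * η (s + a * x) (t + a' * x') + a * η (s - b * x) (t - b' * x')) := by
    intro x x' h0 h1 h0' h1' k1 k2 k3 k4
    have m1 := mul_nonneg ha.le h0
    have m2 := mul_nonneg hb.le h0
    have m3 := mul_nonneg ha'.le h0'
    have m4 := mul_nonneg hb'.le h0'
    have lX := linkX (-x) (absle x h0 h1).2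
    have lY := linkY (-x') (absle x' h0' h1').2
    rw [show s - a * -x = s + a * x by ring, show s + b * -x = s - b * x by ring] at lX
    rw [show t + b' * -x' = t - b' * x' by ring, show t - a' * -x' = t + a' * x' by ring] at lY
    have c1 := bdp (s + a * x) ⟨by linarith, k1⟩ (t + a' * x') ⟨by linarith, k3⟩
    have c2 := bdq (s - b * x) ⟨k2, by linarith⟩ (t - b' * x') ⟨k4, by linarith⟩
    have d1 := mul_le_mul_of_nonneg_left c1 (mul_pos ha' hb).le
    have d2 := mul_le_mul_of_nonneg_left c2 (mul_pos ha' ha).le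
    have d3 := mul_le_mul_of_nonneg_left lX ha'.le
    have d4 := mul_le_mul_of_nonneg_left lY ha.le
    have e : ρ * d = a' * b - a * b' := by rw [hd, ea, eb']; ring
    rw [e]; linarith
  have POS : ∀ x x' : ℝ, 0 ≤ x → x ≤ 1 → 0 ≤ x' → x' ≤ 1 → 0 ≤ s - a * x → s + b * x ≤ 1 →
      0 ≤ t - a' * x' → t + b' * x' ≤ 1 →
      ρ * d * Aq (s + b * x) ≤
        b * (b' * η (s - a * x) (t - a' * x') + a' * η (s + b * x) (t + b' * x')) := by
    intro x x' h0 h1 h0' h1' k1 k2 k3 k4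
    have m1 := mul_nonneg ha.le h0
    have m2 := mul_nonneg hb.le h0
    have m3 := mul_nonneg ha'.le h0'
    have m4 := mul_nonneg hb'.le h0'
    have lX := linkX x (absle x h0 h1).1
    have lY := linkY x' (absle x' h0' h1').1
    have c1 := bdp (s - a * x) ⟨k1, by linarith⟩ (t - a' * x') ⟨k3, by linarith⟩
    have c2 := bdq (s + b * x) ⟨by linarith, k2⟩ (t + b' * x') ⟨by linarith, k4⟩
    have d1 := mul_le_mul_of_nonneg_left c1 (mul_pos hb hb').le
    have d2 := mul_le_mul_of_nonneg_left c2 (mul_pos hb ha').le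
    have d3 := mul_le_mul_of_nonneg_left lX hb'.le
    have d4 := mul_le_mul_of_nonneg_left lY hb.le
    have e : ρ * d = a' * b - a * b' := by rw [hd, ea, eb']; ring
    rw [e]; linarith
  have ed' : a' + b' = d := by linarith
  -- STEP 1
  have step1 : x4 < x1 := by
    by_contra hc
    push Not at hc
    have k4 : 0 ≤ t - b' * x1 := by have := mul_le_mul_of_nonneg_left hc hb'.le; linarith
    have e1 : t + a' * x1 = 1 := by linarith
    have D1 := F2 1 I1
    have lY := linkY (-x1) (absle x1 p1.le q1).2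
    rw [show t + b' * -x1 = t - b' * x1 by ring, show t - a' * -x1 = 1 by linarith] at lY
    have D2 := hBq.lower (t - b' * x1) k4
    have D3 : (1 - t) * d ≤ b' * Bp 1 := by
      have := mul_le_mul_of_nonneg_left D2 ha'.le
      have e : a' * (1 - (t - b' * x1)) = (1 - t) * d := by
        rw [← ed']; linear_combination (-b') * hx1
      linarith
    have D0 : 0 ≤ Bp 1 := by
      have := hBp.lower 1 zero_le_one
      linarith
    refine L1' (T := 1 - t) (a := a) (a' := a') (b' := b') (d := d) (D := Bp 1) hg0 hg1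
      (by linarith) la' ha hb' (by linarith) (by linarith) D3 ?_
    rcases le_total x2 x3 with h23 | h23
    · have k2 : 0 ≤ s - b * x2 := by have := mul_le_mul_of_nonneg_left h23 hb.le; linarith
      have N := NEG x2 x1 p2.le q2 p1.le q1 (by linarith) k2 (by linarith) k4
      rw [e1, show s + a * x2 = 1 by linarith] at N
      have z1 := hbd 1 I1 1 I1 (Or.inr (Or.inl rfl))
      rw [sub_self, abs_zero] at z1
      have m2 := mul_nonneg hb.le p2.le
      have m4 := mul_nonneg hb'.le p1.le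
      have z2 := hup (s - b * x2) ⟨k2, by linarith⟩ (t - b' * x1) ⟨k4, by linarith⟩
      have z3 : ρ * d * Bp 1 ≤ (a * a') * η (s - b * x2) (t - b' * x1) := by
        have := mul_le_mul_of_nonneg_left z1 (mul_pos ha' hb).le
        linarith
      have z4 := sq_of (mul_nonneg hρd.le D0) (mul_pos ha ha').le (by positivity) z3 z2
      have z5 : a * a' * (s - b * x2 - (t - b' * x1)) = -(ρ * d * (1 - t - a' * g)) := by
        have u1 : a * x2 = 1 - s := hx2.symm
        have u2 : a' * x1 = 1 - t := hx1.symm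
        have : a * a' * (s - b * x2 - (t - b' * x1)) =
            a * a' * (s - t) - a' * b * (a * x2) + a * b' * (a' * x1) := by ring
        rw [this, u1, u2, hd, ea, eb', et]; ring
      have z6 : (a * a') ^ 2 * (ρ ^ 2 * (1 - g ^ 2) + (s - b * x2 - (t - b' * x1)) ^ 2) =
          ρ ^ 2 * ((1 - g ^ 2) * (a * a') ^ 2 + d ^ 2 * (1 - t - a' * g) ^ 2) := by
        have : (a * a') ^ 2 * (s - b * x2 - (t - b' * x1)) ^ 2 =
            (ρ * d * (1 - t - a' * g)) ^ 2 := by rw [← mul_pow, z5]; ring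
        linear_combination this
      rw [z6] at z4
      exact le_of_mul_le_mul_left (a := ρ ^ 2) (by linarith) (by positivity)
    · have q3 : x3 ≤ 1 := h23.trans q2
      have k1 : s + a * x3 ≤ 1 := by have := mul_le_mul_of_nonneg_left h23 ha.le; linarith
      have N := NEG x3 x1 p3.le q3 p1.le q1 k1 (by linarith) (by linarith) k4
      rw [e1, show s - b * x3 = 0 by linarith] at N
      have m1 := mul_nonneg ha.le p3.le
      have m4 := mul_nonneg hb'.le p1.le
      have z1 := hbd (s + a * x3) ⟨by linarith, k1⟩ 1 I1 (Or.inr (Or.inr (Or.inr rfl)))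
      rw [abs_of_nonpos (by linarith)] at z1
      have z2 := hbd 0 I0 (t - b' * x1) ⟨k4, by linarith⟩ (Or.inl rfl)
      rw [abs_of_nonpos (by linarith)] at z2
      have z3 := mul_le_mul_of_nonneg_left z1 (mul_pos ha' hb).le
      have z4 := mul_le_mul_of_nonneg_left z2 (mul_pos ha' ha).le
      have z5 : a' * b * -(s + a * x3 - 1) + a' * a * -(0 - (t - b' * x1)) =
          ρ * d * (1 - t - a' * g) := by
        have u1 : b * x3 = s := hx3.symm
        have u2 : a' * x1 = 1 - t := hx1.symm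
        have : a' * b * -(s + a * x3 - 1) + a' * a * -(0 - (t - b' * x1)) =
            a' * b * (1 - s) - a' * a * (b * x3) + a' * a * t - a * b' * (a' * x1) := by ring
        rw [this, u1, u2, hd, ea, eb', et]; ring
      have z6 : Bp 1 ≤ 1 - t - a' * g := le_of_mul_le_mul_left (a := ρ * d) (by linarith) hρd
      have z7 := pow_le_pow_left₀ D0 z6 2
      have z8 := mul_le_mul_of_nonneg_right z7 (sq_nonneg d)
      have z9 : 0 ≤ (1 - g ^ 2) * (a * a') ^ 2 := by positivity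
      linarith
  have q4 : x4 ≤ 1 := step1.le.trans q1
  have k3 : t + a' * x4 ≤ 1 := by have := mul_le_mul_of_nonneg_left step1.le ha'.le; linarith
  have m3 := mul_nonneg ha'.le p4.le
  have htd : t * d < b' := by
    have h1 := mul_lt_mul_of_pos_left step1 (mul_pos ha' hb')
    have : a' * b' * x4 = a' * t := by rw [hx4]; ring
    have : a' * b' * x1 = b' * (1 - t) := by rw [hx1]; ring
    rw [← ed']; linarith
  -- STEP 2: the inequality (N)
  have hN : d ^ 2 ≤ (1 - g ^ 2) * (b * b') ^ 2 + d ^ 2 * (s - b * g) ^ 2 := by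
    have lY := linkY (-x4) (absle x4 p4.le q4).2
    rw [show t + b' * -x4 = 0 by linarith, show t - a' * -x4 = t + a' * x4 by ring,
      hBq.zero] at lY
    rcases le_total x3 x2 with h23 | h23
    · have q3 : x3 ≤ 1 := h23.trans q2
      have k1 : s + a * x3 ≤ 1 := by have := mul_le_mul_of_nonneg_left h23 ha.le; linarith
      have m1 := mul_nonneg ha.le p3.le
      have N := NEG x3 x4 p3.le q3 p4.le q4 k1 (by linarith) k3 (by linarith)
      rw [show s - b * x3 = 0 by linarith, show t - b' * x4 = 0 by linarith] at N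
      have z1 := hbd 0 I0 0 I0 (Or.inl rfl)
      rw [sub_self, abs_zero] at z1
      have z2 := hup (s + a * x3) ⟨by linarith, k1⟩ (t + a' * x4) ⟨by linarith, k3⟩
      have z3 : ρ * d ≤ (b * b') * η (s + a * x3) (t + a' * x4) := by
        have w1 := mul_le_mul_of_nonneg_left z1 (mul_pos ha' ha).le
        have w2 : ρ * d * Bp (t + a' * x4) ≤ a' * b * η (s + a * x3) (t + a' * x4) := by linarith
        have w3 := mul_le_mul_of_nonneg_left w2 hb'.le
        have w4 := mul_le_mul_of_nonneg_left lY hρd.le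
        exact le_of_mul_le_mul_left (a := a') (by linarith) ha'
      have z4 := sq_of hρd.le (mul_pos hb hb').le (by positivity) z3 z2
      have z5 : b * b' * (s + a * x3 - (t + a' * x4)) = -(ρ * d * (s - b * g)) := by
        have u1 : b * x3 = s := hx3.symm
        have u2 : b' * x4 = t := hx4.symm
        have : b * b' * (s + a * x3 - (t + a' * x4)) =
            b * b' * (s - t) + a * b' * (b * x3) - a' * b * (b' * x4) := by ring
        rw [this, u1, u2, hd, ea, eb', et]; ring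
      have z6 : (b * b') ^ 2 * (ρ ^ 2 * (1 - g ^ 2) + (s + a * x3 - (t + a' * x4)) ^ 2) =
          ρ ^ 2 * ((1 - g ^ 2) * (b * b') ^ 2 + d ^ 2 * (s - b * g) ^ 2) := by
        have : (b * b') ^ 2 * (s + a * x3 - (t + a' * x4)) ^ 2 =
            (ρ * d * (s - b * g)) ^ 2 := by rw [← mul_pow, z5]; ring
        linear_combination this
      rw [z6] at z4
      exact le_of_mul_le_mul_left (a := ρ ^ 2) (by linarith) (by positivity)
    · exfalso
      have k2 : 0 ≤ s - b * x2 := by have := mul_le_mul_of_nonneg_left h23 hb.le; linarith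
      have m2 := mul_nonneg hb.le p2.le
      have N := NEG x2 x4 p2.le q2 p4.le q4 (by linarith) k2 k3 (by linarith)
      rw [show s + a * x2 = 1 by linarith, show t - b' * x4 = 0 by linarith] at N
      have z1 := hbd 1 I1 (t + a' * x4) ⟨by linarith, k3⟩ (Or.inr (Or.inl rfl))
      rw [abs_of_nonneg (by linarith)] at z1
      have z2 := hbd (s - b * x2) ⟨k2, by linarith⟩ 0 I0 (Or.inr (Or.inr (Or.inl rfl)))
      rw [abs_of_nonneg (by linarith)] at z2
      have z3 := mul_le_mul_of_nonneg_left z1 (mul_pos ha' hb).le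
      have z4 := mul_le_mul_of_nonneg_left z2 (mul_pos ha' ha).le
      have z5 : a' * b * (1 - (t + a' * x4)) + a' * a * (s - b * x2 - 0) =
          ρ * d * (a' * (g - x4)) := by
        have u1 : a * x2 = 1 - s := hx2.symm
        have : a' * b * (1 - (t + a' * x4)) + a' * a * (s - b * x2 - 0) =
            a' * (b * (1 - t) - a' * b * x4 + a * s - b * (a * x2)) := by ring
        rw [this, u1]
        have u3 : s = b' * x4 + ρ * g := by linarith
        rw [u3, hx4, hd, ea, eb']; ring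
      have z6 : Bp (t + a' * x4) ≤ a' * (g - x4) :=
        le_of_mul_le_mul_left (a := ρ * d) (by linarith) hρd
      have z7 := F2 (t + a' * x4) ⟨by linarith, k3⟩
      have z8 : 0 < a' * ((1 - g) * (1 + x4)) := mul_pos ha' (mul_pos (by linarith) (by linarith))
      linarith
  obtain ⟨α, hα⟩ : ∃ α, a = α * d := ⟨a / d, by field_simp⟩
  obtain ⟨β, hβ⟩ : ∃ β, b = β * d := ⟨b / d, by field_simp⟩
  obtain ⟨β', hβ'⟩ : ∃ β', b' = β' * d := ⟨b' / d, by field_simp⟩
  have hαβ : α + β = 1 := mul_right_cancel₀ hd0.ne' (by linarith)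
  have hβ'0 : 0 < β' := posr (by linarith) hd0
  have hββ : β' < β := lt_of_mul_lt_mul_right (a := d) (by linarith) hd0.le
  have hN' : 1 ≤ (1 - g ^ 2) * (b * β') ^ 2 + (s - b * g) ^ 2 := by
    refine le_of_mul_le_mul_left (a := d ^ 2) ?_ (by positivity)
    have : (b * b') ^ 2 = d ^ 2 * (b * β') ^ 2 := by rw [hβ']; ring
    rw [this] at hN; linarith
  rcases le_or_gt s α with hsα | hsα
  · exact L2 hg0 hg1 hs0 hs1 hb hβ'0 (by linarith) (by linarith) hN'
  -- STEP 3
  have hsd : a < s * d := by have := mul_lt_mul_of_pos_right hsα hd0; linarith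
  have k1 : 0 ≤ s - a * x5 := by
    have e : b * (s - a * x5) = s * d - a := by rw [hd]; linear_combination a * hx5
    have : 0 < b * (s - a * x5) := by linarith
    exact (pos_of_mul_pos_left' this hb).le
  have m1 := mul_nonneg ha.le p5.le
  have E1 := F1 1 I1
  have E0 : 0 ≤ b + g * (1 - s) := by have := mul_nonneg hg0 (sub_pos.2 hs1).le; linarith
  have hS : b ^ 2 * (1 - β' ^ 2) ≤ (1 - s) ^ 2 := by
    rcases le_total x6 x7 with h67 | h67
    · have k3' : 0 ≤ t - a' * x6 := by have := mul_le_mul_of_nonneg_left h67 ha'.le; linarith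
      have m3' := mul_nonneg ha'.le p6.le
      have N := POS x5 x6 p5.le q5 p6.le q6 k1 (by linarith) k3' (by linarith)
      rw [show s + b * x5 = 1 by linarith, show t + b' * x6 = 1 by linarith] at N
      have z1 := hbd 1 I1 1 I1 (Or.inr (Or.inl rfl))
      rw [sub_self, abs_zero] at z1
      have z2 := hup (s - a * x5) ⟨k1, by linarith⟩ (t - a' * x6) ⟨k3', by linarith⟩
      have z3 : ρ * d * (b + g * (1 - s)) ≤ (b * b') * η (s - a * x5) (t - a' * x6) := by
        have w1 := mul_le_mul_of_nonneg_left z1 (mul_pos hb ha').le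
        have w2 := mul_le_mul_of_nonneg_left E1 hρd.le
        linarith
      have z4 := sq_of (mul_nonneg hρd.le E0) (mul_pos hb hb').le (by positivity) z3 z2
      have z5 : b * b' * (s - a * x5 - (t - a' * x6)) = ρ * d * (1 - s + b * g) := by
        have u1 : b * x5 = 1 - s := hx5.symm
        have u2 : b' * x6 = 1 - t := hx6.symm
        have : b * b' * (s - a * x5 - (t - a' * x6)) =
            b * b' * (s - t) - a * b' * (b * x5) + a' * b * (b' * x6) := by ring
        rw [this, u1, u2, hd, ea, eb', et]; ring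
      have z6 : (b * b') ^ 2 * (ρ ^ 2 * (1 - g ^ 2) + (s - a * x5 - (t - a' * x6)) ^ 2) =
          (ρ * d) ^ 2 * ((1 - g ^ 2) * (b * β') ^ 2 + (1 - s + b * g) ^ 2) := by
        have h1 : (b * b') ^ 2 * (s - a * x5 - (t - a' * x6)) ^ 2 =
            (ρ * d * (1 - s + b * g)) ^ 2 := by rw [← mul_pow, z5]
        have h2 : (b * b') ^ 2 = d ^ 2 * (b * β') ^ 2 := by rw [hβ']; ring
        linear_combination h1 + ρ ^ 2 * (1 - g ^ 2) * h2
      rw [z6, mul_pow] at z4
      have z7 := le_of_mul_le_mul_left z4 (by positivity)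
      exact le_of_mul_le_mul_left (a := 1 - g ^ 2) (by linarith) hq
    · have q7 : x7 ≤ 1 := h67.trans q6
      have k4' : t + b' * x7 ≤ 1 := by have := mul_le_mul_of_nonneg_left h67 hb'.le; linarith
      have m4' := mul_nonneg hb'.le p7.le
      have N := POS x5 x7 p5.le q5 p7.le q7 k1 (by linarith) (by linarith) k4'
      rw [show s + b * x5 = 1 by linarith, show t - a' * x7 = 0 by linarith] at N
      have z1 := hbd (s - a * x5) ⟨k1, by linarith⟩ 0 I0 (Or.inr (Or.inr (Or.inl rfl)))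
      rw [abs_of_nonneg (by linarith)] at z1
      have z2 := hbd 1 I1 (t + b' * x7) ⟨by linarith, k4'⟩ (Or.inr (Or.inl rfl))
      rw [abs_of_nonneg (by linarith)] at z2
      have z3 := mul_le_mul_of_nonneg_left z1 (mul_pos hb hb').le
      have z4 := mul_le_mul_of_nonneg_left z2 (mul_pos hb ha').le
      have z5 : b * b' * (s - a * x5 - 0) + b * a' * (1 - (t + b' * x7)) =
          ρ * d * (1 - s + b * g) := by
        have u1 : b * x5 = 1 - s := hx5.symm
        have u2 : a' * x7 = t := hx7.symm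
        have : b * b' * (s - a * x5 - 0) + b * a' * (1 - (t + b' * x7)) =
            b * b' * s - a * b' * (b * x5) + b * a' * (1 - t) - b * b' * (a' * x7) := by ring
        rw [this, u1, u2, hd, ea, eb', et]; ring
      have z6 : Aq 1 ≤ 1 - s + b * g := le_of_mul_le_mul_left (a := ρ * d) (by linarith) hρd
      have z7 : b ≤ 1 - s := le_of_mul_le_mul_left (a := 1 - g) (by linarith) (by linarith)
      have z8 := pow_le_pow_left₀ hb.le z7 2
      have z9 := mul_nonneg (sq_nonneg b) (sq_nonneg β')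
      linarith
  have htβ : t < β' := lt_of_mul_lt_mul_right (a := d) (by linarith) hd0.le
  refine L3 (S := 1 - s) (t := t) hg0 hg1 hd0 (by linarith) ht0 hβ hβ' hαβ hβ'0 hββ
    (by linarith) (by linarith) htβ hS ?_
  have e : t - b' * g = s - b * g := by rw [et, eb']; ring
  rw [e]; exact hN'

end PE14

theorem prof_false {η : ℝ → ℝ → ℝ} {s t ρ : ℝ} (H : IsMaxPt η s t ρ) (P : Prof η s t ρ 0) :
    False := by
  rcases le_total t s with hts | hts
  · exact PE14.core H P hts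
  · refine PE14.core (η := fun x y => η y x) (s := t) (t := s) (ρ := ρ)
      ⟨H.t_pos, H.t_lt, H.s_pos, H.s_lt, H.val, by rw [abs_sub_comm]; exact H.gap, ?_, ?_⟩
      ⟨P.Bq, P.Aq, P.Bp, P.Ap, P.hBq, P.hAq, P.hBp, P.hAp, fun σ hσ τ hτ => P.bdq τ hτ σ hσ,
        fun σ hσ τ hτ => P.bdp τ hτ σ hσ, P.extq, P.extp, fun x hx => ?_, fun x hx => ?_⟩ hts
    · intro σ hσ τ hτ
      have := H.upper τ hτ σ hσ
      rwa [show ρ ^ 2 - (s - t) ^ 2 + (τ - σ) ^ 2 = ρ ^ 2 - (t - s) ^ 2 + (σ - τ) ^ 2 by ring] at this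
    · intro σ hσ τ hτ h
      have := H.bdry τ hτ σ hσ (by tauto)
      rwa [abs_sub_comm] at this
    · have := P.linkY (-x) (by rwa [abs_neg])
      rwa [show t + P.Bq t * -x = t - P.Bq t * x by ring,
        show t - P.Bp t * -x = t + P.Bp t * x by ring] at this
    · have := P.linkX (-x) (by rwa [abs_neg])
      rwa [show s - P.Ap s * -x = s + P.Ap s * x by ring,
        show s + P.Aq s * -x = s - P.Aq s * x by ring] at this

end Crest.Agent.R74
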